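import Vale.Agent.H1.LT.Kernel
import Vale.Agent.H29.LT.Final

/-!
P371, Task B: existence of the calibration.
-/

open Matrix
open scoped ComplexOrder

namespace Vale.LT

/-- The pair `(g, P)` as an element of a normed space. -/
abbrev MM (N : ℕ) : Type := (Fin N → Fin N → ℂ) × (Fin N → Fin N → ℂ)

def specIn {N : ℕ} (δ : ℝ) (g : Matrix (Fin N) (Fin N) ℂ) : Prop :=
  (g - ((δ : ℝ) : ℂ) • (1 : Matrix (Fin N) (Fin N) ℂ)).PosSemidef ∧
  ((((Real.pi / 2 - δ : ℝ)) : ℂ) • (1 : Matrix (Fin N) (Fin N) ℂ) - g).PosSemidef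

theorem exists_calibration (N m : ℕ) (b δ ε : ℝ) (hb : 0 ≤ b) (hδ : 0 < δ) (hδ' : δ < Real.pi / 4)
    (hε : 0 < ε) :
    ∃ Φ : MM N → ℝ, ContDiff ℝ 1 Φ ∧
      (∀ d : Fin N → ℝ, (∀ j, δ ≤ d j ∧ d j ≤ Real.pi / 2 - δ) →
        |Φ ((fun i j => if i = j then (d i : ℂ) else 0), 0)
          + ∑ j, (b ^ 2 / 4) * ((Real.tan (d j) - d j) - (Real.tan δ - δ))| ≤ ε) ∧
      (∀ (g : Matrix (Fin N) (Fin N) ℂ) (U V : Matrix (Fin N) (Fin m) ℂ), specIn δ g →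
        fderiv ℝ Φ ((fun i j => g i j), (fun i j => (U * Uᴴ) i j))
            ((fun i j => (U * Uᴴ) i j), (fun i j => (V * Uᴴ + U * Vᴴ) i j))
          + ((U * Uᴴ) ^ 3).trace.re + b * ((U * Uᴴ) ^ 2).trace.re
          ≤ (V * Vᴴ).trace.re + ε * ((U * Uᴴ).trace.re ^ 3 + (U * Uᴴ).trace.re ^ 2)) := by
  have hsin : ∀ x ∈ Set.Icc (2 * δ) (Real.pi - 2 * δ), Real.sin x ≠ 0 := fun x hx =>
    (Real.sin_pos_of_pos_of_lt_pi (by linarith [hx.1]) (by linarith [hx.2])).ne'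
  have hcos : ∀ x ∈ Set.Icc δ (Real.pi / 2 - δ), Real.cos x ≠ 0 := fun x hx =>
    (Real.cos_pos_of_mem_Ioo ⟨by linarith [hx.1, Real.pi_pos], by linarith [hx.2]⟩).ne'
  have hct : ContinuousOn H29.ct (Set.Icc (2 * δ) (Real.pi - 2 * δ)) :=
    fun x hx => (H29.hasDerivAt_ct (hsin x hx)).continuousAt.continuousWithinAt
  have hct' : ContinuousOn H29.ct' (Set.Icc (2 * δ) (Real.pi - 2 * δ)) := by
    unfold H29.ct'
    exact continuousOn_const.div (Real.continuous_sin.pow 2).continuousOn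
      fun x hx => pow_ne_zero 2 (hsin x hx)
  have hbt : ContinuousOn (H29.bt b) (Set.Icc δ (Real.pi / 2 - δ)) :=
    fun x hx => (H29.hasDerivAt_bt b (hcos x hx)).continuousAt.continuousWithinAt
  have hbt' : ContinuousOn (H29.bt' b) (Set.Icc δ (Real.pi / 2 - δ)) := by
    unfold H29.bt'
    exact continuousOn_const.mul (continuousOn_const.div (Real.continuous_cos.pow 2).continuousOn
      fun x hx => pow_ne_zero 2 (hcos x hx))
  obtain ⟨M₁, hM₁⟩ := isCompact_Icc.exists_bound_of_continuousOn hct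
  obtain ⟨B₁, hB₁⟩ := isCompact_Icc.exists_bound_of_continuousOn hbt
  set M := max M₁ 0 with hMdef
  set B0 := max B₁ 0 with hB0def
  have hM0 : 0 ≤ M := le_max_right _ _
  have hB00 : 0 ≤ B0 := le_max_right _ _
  have hM : ∀ x ∈ Set.Icc (2 * δ) (Real.pi - 2 * δ), |H29.ct x| ≤ M := fun x hx =>
    (hM₁ x hx).trans (le_max_left _ _)
  have hB0 : ∀ x ∈ Set.Icc δ (Real.pi / 2 - δ), |H29.bt b x| ≤ B0 := fun x hx =>
    (hB₁ x hx).trans (le_max_left _ _)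
  set K : ℝ := (N : ℝ) ^ 3 * (2 * M + 2) + (N : ℝ) ^ 2 * (2 * M + 2 * B0 + 3)
    + N * ((2 * B0 + 1) * 2) with hK
  have hK1 : 0 ≤ (N : ℝ) ^ 3 * (2 * M + 2) := by positivity
  have hK2 : 0 ≤ (N : ℝ) ^ 2 * (2 * M + 2 * B0 + 3) := by positivity
  have hK3 : 0 ≤ (N : ℝ) * ((2 * B0 + 1) * 2) := by positivity
  have hK0 : 0 ≤ K := by positivity
  set η := min 1 (ε / (K + 1)) with hηdef
  have hηp : 0 < η := lt_min one_pos (by positivity)
  have hη1 : η ≤ 1 := min_le_left _ _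
  have hηK : η * K ≤ ε := by
    have h1 : η ≤ ε / (K + 1) := min_le_right _ _
    calc η * K ≤ ε / (K + 1) * K := by gcongr
      _ ≤ ε / (K + 1) * (K + 1) := by gcongr; linarith
      _ = ε := by field_simp
  have hη3 : η * ((N : ℝ) ^ 3 * (2 * M + 2)) ≤ ε := by
    refine le_trans ?_ hηK
    gcongr; linarith
  have hη2 : η * ((N : ℝ) ^ 2 * (2 * M + 2 * B0 + 3)) ≤ ε := by
    refine le_trans ?_ hηK
    gcongr; linarith
  have hηN : (N : ℝ) * (η * ((2 * B0 + 1) * 2)) ≤ ε := by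
    refine le_trans ?_ hηK
    have : (N : ℝ) * (η * ((2 * B0 + 1) * 2)) = η * (N * ((2 * B0 + 1) * 2)) := by ring
    rw [this]
    gcongr; linarith
  obtain ⟨F, hF, hF'⟩ := H29.exists_poly_C1 H29.ct H29.ct' (2 * δ) (Real.pi - 2 * δ) η
    (by linarith) hηp (fun x hx => H29.hasDerivAt_ct (hsin x hx)) hct'
  obtain ⟨β, hβ, hβ'⟩ := H29.exists_poly_C1 (H29.bt b) (H29.bt' b) δ (Real.pi / 2 - δ) η
    (by linarith) hηp (fun x hx => H29.hasDerivAt_bt b (hcos x hx)) hbt'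
  obtain ⟨c, hc, hc0⟩ := H29.exists_antideriv_at (-β ^ 2) δ 0
  refine ⟨fun y => H29.PhiF F β c (Matrix.of y.1) (Matrix.of y.2), H29.contDiff_PhiF F β c,
    ?_, ?_⟩
  · intro d hd
    have e : H29.PhiF F β c (Matrix.of fun i j => if i = j then (d i : ℂ) else 0)
        (Matrix.of (0 : Fin N → Fin N → ℂ)) = ∑ i, c.eval (d i) := H29.PhiF_zero F β c d
    simp only
    rw [e, ← Finset.sum_add_distrib]
    refine (Finset.abs_sum_le_sum_abs _ _).trans ?_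
    calc ∑ j, |c.eval (d j) + (b ^ 2 / 4) * ((Real.tan (d j) - d j) - (Real.tan δ - δ))|
        ≤ ∑ _j : Fin N, η * ((2 * B0 + 1) * 2) :=
          Finset.sum_le_sum fun j _ => H29.c_bound b δ η B0 hδ hηp.le hη1 hB0 β c hc hc0 hβ (d j)
            ⟨(hd j).1, (hd j).2⟩
      _ = (N : ℝ) * (η * ((2 * B0 + 1) * 2)) := by simp
      _ ≤ ε := hηN
  · intro g U V hg
    obtain ⟨W, lam, hW, hW', hgd, hlam⟩ := H29.exists_diag g δ (Real.pi / 2 - δ) hg.1 hg.2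
    set U' : Matrix (Fin N) (Fin m) ℂ := Wᴴ * U with hU'
    set V' : Matrix (Fin N) (Fin m) ℂ := Wᴴ * V with hV'
    have hconj : ∀ A C : Matrix (Fin N) (Fin m) ℂ, A * Cᴴ = W * ((Wᴴ * A) * (Wᴴ * C)ᴴ) * Wᴴ := by
      intro A C
      rw [Matrix.conjTranspose_mul, Matrix.conjTranspose_conjTranspose]
      calc A * Cᴴ = (W * Wᴴ) * A * Cᴴ * (W * Wᴴ) := by rw [hW]; simp
        _ = _ := by simp only [Matrix.mul_assoc]
    have hP : U * Uᴴ = W * (U' * U'ᴴ) * Wᴴ := hconj U U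
    have hV : V * Vᴴ = W * (V' * V'ᴴ) * Wᴴ := hconj V V
    have hB : V * Uᴴ + U * Vᴴ = W * (V' * U'ᴴ + U' * V'ᴴ) * Wᴴ := by
      rw [Matrix.mul_add, Matrix.add_mul, ← hconj V U, ← hconj U V]
    have h1 := H29.fderiv_PhiF F β c W hW hW' lam g (U * Uᴴ) (V * Uᴴ + U * Vᴴ) (U' * U'ᴴ)
      (V' * U'ᴴ + U' * V'ᴴ) hgd hP hB
    have h2 := H29.diag_ineq b δ η M B0 hb hδ hηp.le hη1 hM hB0 hM0 hB00 F β c hc hF hF' hβ hβ'
      lam hlam U' V'
    have t1 : (U * Uᴴ).trace = (U' * U'ᴴ).trace := by rw [hP, H29.trace_conj W Wᴴ _ hW']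
    have t2 : (V * Vᴴ).trace = (V' * V'ᴴ).trace := by rw [hV, H29.trace_conj W Wᴴ _ hW']
    have t3 : ∀ n, ((U * Uᴴ) ^ n).trace = ((U' * U'ᴴ) ^ n).trace := by
      intro n
      rw [hP, H29.pow_conj W Wᴴ _ hW' hW, H29.trace_conj W Wᴴ _ hW']
    rw [t1, t2, t3, t3]
    refine (le_of_eq (congrArg (fun z => z + ((U' * U'ᴴ) ^ 3).trace.re
      + b * ((U' * U'ᴴ) ^ 2).trace.re) h1)).trans (h2.trans ?_)
    have hT : 0 ≤ (U' * U'ᴴ).trace.re := H29.trace_nonneg U'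
    have g3 : η * (↑N ^ 3 * (2 * M + 2)) * (U' * U'ᴴ).trace.re ^ 3
        ≤ ε * (U' * U'ᴴ).trace.re ^ 3 := by gcongr
    have g2 : η * (↑N ^ 2 * (2 * M + 2 * B0 + 3)) * (U' * U'ᴴ).trace.re ^ 2
        ≤ ε * (U' * U'ᴴ).trace.re ^ 2 := by gcongr
    linarith

end Vale.LT
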