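import Mathlib

/-!
Definitions for the one-dimensional Lieb-Thirring constants with matrix-valued potentials.
-/

open MeasureTheory Matrix
open scoped ENNReal ComplexOrder

namespace Vale.LT

/-- `ψ : ℝ → ℂ^m` is the continuous representative of a function of class `H¹(ℝ; ℂ^m)`,
and `dψ` is its weak derivative. -/
structure IsH1 {m : ℕ} (ψ dψ : ℝ → Fin m → ℂ) : Prop where
  memLp : ∀ i, MemLp (fun x => ψ x i) 2 volume
  memLp_deriv : ∀ i, MemLp (fun x => dψ x i) 2 volume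
  ftc : ∀ i, ∀ a b : ℝ, ψ b i - ψ a i = ∫ t in a..b, dψ t i

/-- The trace `tr (A ^ p)` of the `p`-th power of a Hermitian matrix, by functional calculus:
the sum of the `p`-th powers of its eigenvalues. -/
noncomputable def trPow {m : ℕ} (p : ℝ) (A : Matrix (Fin m) (Fin m) ℂ) : ℝ :=
  open Classical in
  if hA : A.IsHermitian then ∑ i, (hA.eigenvalues i) ^ p else 0

/-- Potentials: measurable, Hermitian positive semidefinite, with `∫ tr (W ^ p)` finite. -/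
structure IsPotential {m : ℕ} (p : ℝ) (W : ℝ → Matrix (Fin m) (Fin m) ℂ) : Prop where
  measurable : ∀ i j, Measurable (fun x => W x i j)
  posSemidef : ∀ x, (W x).PosSemidef
  integrable : Integrable (fun x => trPow p (W x)) volume

/-- `ψ` is a (form-sense) eigenfunction of `H_W = -d²/dx² - W` with eigenvalue `lam`: `ψ ∈ H¹` and
`∫ ⟨φ', ψ'⟩ - ∫ ⟨φ, W ψ⟩ = lam ∫ ⟨φ, ψ⟩` for all `φ ∈ H¹`. -/
def IsEigen {m : ℕ} (W : ℝ → Matrix (Fin m) (Fin m) ℂ) (lam : ℝ) (ψ : ℝ → Fin m → ℂ) : Prop :=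
  ∃ dψ : ℝ → Fin m → ℂ, IsH1 ψ dψ ∧ ∀ φ dφ : ℝ → Fin m → ℂ, IsH1 φ dφ →
    (∫ x, star (dφ x) ⬝ᵥ dψ x) - (∫ x, star (φ x) ⬝ᵥ (W x).mulVec (ψ x))
      = (lam : ℂ) * ∫ x, star (φ x) ⬝ᵥ ψ x

/-- A finite orthonormal system of eigenfunctions of `H_W` with negative eigenvalues `lam`. -/
structure NegSystem {m : ℕ} (W : ℝ → Matrix (Fin m) (Fin m) ℂ) (n : ℕ) where
  lam : Fin n → ℝ
  psi : Fin n → ℝ → Fin m → ℂ
  neg : ∀ j, lam j < 0
  eigen : ∀ j, IsEigen W (lam j) (psi j)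
  orthonormal : ∀ j k, (∫ x, star (psi j x) ⬝ᵥ psi k x) = if j = k then 1 else 0

/-- `Tr (H_W)_-^γ`: the sum of `|λ_j|^γ` over the negative eigenvalues of `H_W`, counted with
multiplicity, i.e. the supremum of `∑ |λ_j|^γ` over the finite orthonormal systems of
eigenfunctions with negative eigenvalues. -/
noncomputable def trNeg {m : ℕ} (γ : ℝ) (W : ℝ → Matrix (Fin m) (Fin m) ℂ) : ℝ≥0∞ :=
  ⨆ (n : ℕ) (S : NegSystem W n), ENNReal.ofReal (∑ j, |S.lam j| ^ γ)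

/-- The Lieb-Thirring constant `L_γ(m)`: the supremum of
`Tr (H_W)_-^γ / ∫ tr (W ^ (γ + 1/2))` over the potentials `W ≠ 0`. -/
noncomputable def LTconst (γ : ℝ) (m : ℕ) : ℝ≥0∞ :=
  ⨆ (W : ℝ → Matrix (Fin m) (Fin m) ℂ) (_ : IsPotential (γ + 1 / 2) W)
    (_ : 0 < ∫ x, trPow (γ + 1 / 2) (W x)),
    trNeg γ W / ENNReal.ofReal (∫ x, trPow (γ + 1 / 2) (W x))

/-- The semiclassical constant. -/
noncomputable def Lcl (γ : ℝ) : ℝ :=
  Real.Gamma (γ + 1) / (2 * √Real.pi * Real.Gamma (γ + 3 / 2))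

/-- The one-bound-state constant `L^{(1)}_γ` (its closed form, Keller 1961, Lieb-Thirring 1976). -/
noncomputable def Lone (γ : ℝ) : ℝ :=
  2 * ((γ - 1 / 2) / (γ + 1 / 2)) ^ (γ - 1 / 2) * Lcl γ

end Vale.LT
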