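import Vale.Agent.H1.LT.Defs
import Vale.Agent.H1.LT.Calib

/-!
P371, Task C: the dual (kinetic energy) inequality for orthogonal families.
-/

open MeasureTheory Matrix Set Filter
open scoped ComplexOrder Topology

namespace Vale.LT.Dual

section scalar

variable {v dv : ℝ → ℂ}

theorem h1_ii (hdv : MemLp dv 2 volume) (a b : ℝ) : IntervalIntegrable dv volume a b :=
  intervalIntegrable_iff.mpr <|
    ((hdv.locallyIntegrable (by norm_num)).integrableOn_isCompact isCompact_uIcc).mono_set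
      uIoc_subset_uIcc

theorem h1_cont (hdv : MemLp dv 2 volume)
    (ftc : ∀ a b : ℝ, v b - v a = ∫ t in a..b, dv t) : Continuous v := by
  have h : v = fun x => v 0 + ∫ t in (0:ℝ)..x, dv t := by
    funext x
    rw [← ftc 0 x]; ring
  rw [h]
  exact continuous_const.add (intervalIntegral.continuous_primitive (fun a b => h1_ii hdv a b) 0)

theorem h1_sq_int (hv : MemLp v 2 volume) : Integrable (fun t => ‖v t‖ ^ 2) :=
  (memLp_two_iff_integrable_sq_norm hv.1).1 hv

theorem h1_bound (hv : MemLp v 2 volume) (hdv : MemLp dv 2 volume)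
    (ftc : ∀ a b : ℝ, v b - v a = ∫ t in a..b, dv t) (x η : ℝ) (hη : 0 < η) :
    ‖v x‖ ≤ η + (1 / (2 * η)) * ∫ t in x..(x + 1), (‖v t‖ ^ 2 + ‖dv t‖ ^ 2) := by
  have hx : x ≤ x + 1 := by linarith
  have hiv : IntervalIntegrable (fun t => ‖v t‖) volume x (x + 1) := (h1_ii hv _ _).norm
  have hid : IntervalIntegrable (fun t => ‖dv t‖) volume x (x + 1) := (h1_ii hdv _ _).norm
  have hsq : IntervalIntegrable (fun t => ‖v t‖ ^ 2 + ‖dv t‖ ^ 2) volume x (x + 1) :=
    ((h1_sq_int hv).add (h1_sq_int hdv)).intervalIntegrable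
  set D := ∫ t in x..(x + 1), ‖dv t‖ with hD
  have h1 : ∀ t ∈ Icc x (x + 1), ‖v x‖ ≤ ‖v t‖ + D := by
    intro t ht
    have e : v x = v t - ∫ s in x..t, dv s := by rw [← ftc x t]; ring
    have h2 : ‖∫ s in x..t, dv s‖ ≤ D := by
      refine (intervalIntegral.norm_integral_le_integral_norm ht.1).trans ?_
      refine intervalIntegral.integral_mono_interval le_rfl ht.1 ht.2 ?_ hid
      exact Filter.Eventually.of_forall (fun s => norm_nonneg _)
    calc ‖v x‖ = ‖v t - ∫ s in x..t, dv s‖ := by rw [← e]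
      _ ≤ ‖v t‖ + ‖∫ s in x..t, dv s‖ := norm_sub_le _ _
      _ ≤ _ := by linarith
  have h3 : ‖v x‖ ≤ (∫ t in x..(x + 1), ‖v t‖) + D := by
    have := intervalIntegral.integral_mono_on (f := fun _ => ‖v x‖) (g := fun t => ‖v t‖ + D) hx
      (by simp) (hiv.add (by simp)) h1
    rw [intervalIntegral.integral_add hiv (by simp)] at this
    simpa using this
  have h4 : (∫ t in x..(x + 1), ‖v t‖) + D ≤
      ∫ t in x..(x + 1), (η + (1 / (2 * η)) * (‖v t‖ ^ 2 + ‖dv t‖ ^ 2)) := by
    rw [hD, ← intervalIntegral.integral_add hiv hid]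
    refine intervalIntegral.integral_mono_on hx (hiv.add hid)
      ((by simp : IntervalIntegrable (fun _ => η) volume x (x + 1)).add (hsq.const_mul _)) ?_
    intro t _
    have k1 : ∀ a : ℝ, a ≤ η / 2 + (1 / (2 * η)) * a ^ 2 := by
      intro a
      have : 0 ≤ (1 / (2 * η)) * (a - η) ^ 2 := by positivity
      have e : (1 / (2 * η)) * (a - η) ^ 2 = (1 / (2 * η)) * a ^ 2 - a + η / 2 := by
        field_simp; ring
      linarith
    have := k1 ‖v t‖
    have := k1 ‖dv t‖
    linarith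
  have h5 : ∫ t in x..(x + 1), (η + (1 / (2 * η)) * (‖v t‖ ^ 2 + ‖dv t‖ ^ 2)) =
      η + (1 / (2 * η)) * ∫ t in x..(x + 1), (‖v t‖ ^ 2 + ‖dv t‖ ^ 2) := by
    rw [intervalIntegral.integral_add (by simp) (hsq.const_mul _),
      intervalIntegral.integral_const_mul]
    simp
  linarith

theorem h1_bounded (hv : MemLp v 2 volume) (hdv : MemLp dv 2 volume)
    (ftc : ∀ a b : ℝ, v b - v a = ∫ t in a..b, dv t) : ∃ B : ℝ, 0 ≤ B ∧ ∀ x, ‖v x‖ ≤ B := by
  have hI : Integrable (fun t => ‖v t‖ ^ 2 + ‖dv t‖ ^ 2) := (h1_sq_int hv).add (h1_sq_int hdv)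
  have hn : 0 ≤ ∫ t, (‖v t‖ ^ 2 + ‖dv t‖ ^ 2) := integral_nonneg (fun t => by positivity)
  refine ⟨1 + (1 / 2) * ∫ t, (‖v t‖ ^ 2 + ‖dv t‖ ^ 2), by positivity, fun x => ?_⟩
  refine (h1_bound hv hdv ftc x 1 one_pos).trans ?_
  have : ∫ t in x..(x + 1), (‖v t‖ ^ 2 + ‖dv t‖ ^ 2) ≤ ∫ t, (‖v t‖ ^ 2 + ‖dv t‖ ^ 2) := by
    rw [intervalIntegral.integral_of_le (by linarith)]
    exact setIntegral_le_integral hI (Filter.Eventually.of_forall (fun t => by positivity))
  norm_num
  linarith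

theorem h1_tendsto (hv : MemLp v 2 volume) (hdv : MemLp dv 2 volume)
    (ftc : ∀ a b : ℝ, v b - v a = ∫ t in a..b, dv t) :
    Tendsto v atTop (𝓝 0) ∧ Tendsto v atBot (𝓝 0) := by
  have hI : Integrable (fun t => ‖v t‖ ^ 2 + ‖dv t‖ ^ 2) := (h1_sq_int hv).add (h1_sq_int hdv)
  set h := fun t => ‖v t‖ ^ 2 + ‖dv t‖ ^ 2 with hh
  have ii : ∀ a b, IntervalIntegrable h volume a b := fun a b => hI.intervalIntegrable
  have e : ∀ x, ∫ t in x..(x + 1), h t = (∫ t in (0:ℝ)..(x + 1), h t) - ∫ t in (0:ℝ)..x, h t := by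
    intro x
    rw [← intervalIntegral.integral_add_adjacent_intervals (ii 0 x) (ii x (x + 1))]
    ring
  have key : ∀ l : Filter ℝ, Tendsto (fun x => ∫ t in x..(x + 1), h t) l (𝓝 0) →
      Tendsto v l (𝓝 0) := by
    intro l hl
    rw [Metric.tendsto_nhds]
    intro ε hε
    have hη : 0 < ε / 2 := by positivity
    have h2 : Tendsto (fun x => (1 / (2 * (ε / 2))) * ∫ t in x..(x + 1), h t) l (𝓝 0) := by
      simpa using hl.const_mul (1 / (2 * (ε / 2)))
    filter_upwards [h2.eventually (gt_mem_nhds hη)] with x hx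
    have := h1_bound hv hdv ftc x (ε / 2) hη
    rw [dist_zero_right]
    linarith
  constructor
  · apply key
    have a1 := intervalIntegral_tendsto_integral_Ioi 0 hI.integrableOn
      (tendsto_id (α := ℝ) (x := atTop))
    have a2 := intervalIntegral_tendsto_integral_Ioi 0 hI.integrableOn
      (tendsto_atTop_add_const_right atTop (1:ℝ) (tendsto_id (α := ℝ)))
    have := a2.sub a1
    simp only [sub_self] at this
    exact this.congr (fun x => (e x).symm)
  · apply key
    have a1 := intervalIntegral_tendsto_integral_Iic 0 hI.integrableOn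
      (tendsto_id (α := ℝ) (x := atBot))
    have a2 := intervalIntegral_tendsto_integral_Iic 0 hI.integrableOn
      (tendsto_atBot_add_const_right atBot (1:ℝ) (tendsto_id (α := ℝ)))
    have := a1.sub a2
    simp only [sub_self] at this
    refine this.congr (fun x => ?_)
    rw [e x]
    simp only [id]
    rw [intervalIntegral.integral_symm 0 x, intervalIntegral.integral_symm 0 (x + 1)]
    ring

end scalar

end Vale.LT.Dual

namespace Vale.LT.Dual

theorem ac_of_dist_le {X Y : Type*} [PseudoMetricSpace X] [PseudoMetricSpace Y]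
    {f : ℝ → X} {F : ℝ → Y} {a b L : ℝ}
    (h : ∀ s ∈ uIcc a b, ∀ t ∈ uIcc a b, dist (f s) (f t) ≤ L * dist (F s) (F t))
    (hF : AbsolutelyContinuousOnInterval F a b) : AbsolutelyContinuousOnInterval f a b := by
  unfold AbsolutelyContinuousOnInterval at hF ⊢
  refine squeeze_zero' (Filter.Eventually.of_forall
    (fun _ => Finset.sum_nonneg (fun i _ => dist_nonneg))) ?_ (by simpa using hF.const_mul L)
  rw [eventually_inf_principal]
  filter_upwards with (n, I) hnI
  rw [Finset.mul_sum]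
  refine Finset.sum_le_sum (fun i hi => ?_)
  simp only [AbsolutelyContinuousOnInterval.disjWithin, mem_ofPred_eq] at hnI
  exact h _ (hnI.1 i hi).1 _ (hnI.1 i hi).2

theorem ac_comp {E : Type*} [NormedAddCommGroup E] [NormedSpace ℝ E] [FiniteDimensional ℝ E]
    {Φ : E → ℝ} (hΦ : ContDiff ℝ 1 Φ) {z z' : ℝ → E} (hz' : LocallyIntegrable z' volume)
    (hz : ∀ s t, z t - z s = ∫ r in s..t, z' r) (a b : ℝ) :
    AbsolutelyContinuousOnInterval (fun t => Φ (z t)) a b := by
  have hii : ∀ s t, IntervalIntegrable z' volume s t := fun s t =>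
    intervalIntegrable_iff.mpr <|
      (hz'.integrableOn_isCompact isCompact_uIcc).mono_set uIoc_subset_uIcc
  have hzc : Continuous z := by
    have h : z = fun x => z 0 + ∫ t in (0:ℝ)..x, z' t := by
      funext x
      rw [← hz 0 x]; abel
    rw [h]
    exact continuous_const.add (intervalIntegral.continuous_primitive hii 0)
  obtain ⟨B, hB⟩ := (isCompact_uIcc (a := a) (b := b)).exists_bound_of_continuousOn
    hzc.continuousOn
  have : ProperSpace E := FiniteDimensional.proper ℝ E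
  obtain ⟨K, hK⟩ := (hΦ.contDiffOn (s := Metric.closedBall (0:E) B)).exists_lipschitzOnWith
    (by decide) (convex_closedBall _ _) (isCompact_closedBall _ _)
  have hF : AbsolutelyContinuousOnInterval (fun t => ∫ r in a..t, ‖z' r‖) a b :=
    (hii a b).norm.absolutelyContinuousOnInterval_intervalIntegral (c := a) (by simp)
  refine ac_of_dist_le (L := K) ?_ hF
  intro s hs t ht
  have h1 : dist (Φ (z s)) (Φ (z t)) ≤ K * dist (z s) (z t) :=
    hK.dist_le_mul _ (by simpa using hB s hs) _ (by simpa using hB t ht)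
  refine h1.trans (mul_le_mul_of_nonneg_left ?_ K.2)
  rw [dist_comm, dist_eq_norm, hz s t, dist_comm, Real.dist_eq,
    intervalIntegral.integral_interval_sub_left (hii a t).norm (hii a s).norm]
  exact intervalIntegral.norm_integral_le_abs_integral_norm

theorem ac_hasDerivAt {E : Type*} [NormedAddCommGroup E] [NormedSpace ℝ E] [CompleteSpace E]
    {z z' : ℝ → E} (hz' : LocallyIntegrable z' volume)
    (hz : ∀ s t, z t - z s = ∫ r in s..t, z' r) : ∀ᵐ t, HasDerivAt z (z' t) t := by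
  filter_upwards [LocallyIntegrable.ae_hasDerivAt_integral hz'] with x hx
  have h : z = fun x => z 0 + ∫ t in (0:ℝ)..x, z' t := by
    funext x
    rw [← hz 0 x]; abel
  rw [h]
  exact (hx 0).const_add _

/-- entrywise integral of PSD matrices is PSD -/
theorem psd_integral {N : ℕ} {μ : Measure ℝ} (A : ℝ → Matrix (Fin N) (Fin N) ℂ)
    (hA : ∀ x, (A x).PosSemidef) (hI : ∀ i j, Integrable (fun x => A x i j) μ) :
    (Matrix.of (fun i j => ∫ x, A x i j ∂μ)).PosSemidef := by
  rw [Matrix.posSemidef_iff_dotProduct_mulVec]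
  constructor
  · ext i j
    simp only [conjTranspose_apply, Matrix.of_apply]
    have : ∀ x, star (A x j i) = A x i j := fun x => by
      have := (hA x).1.apply i j
      exact this
    have e2 : star (∫ x, A x j i ∂μ) = ∫ x, star (A x j i) ∂μ := (integral_conj).symm
    rw [e2]
    simp_rw [this]
  · intro w
    have e : star w ⬝ᵥ (Matrix.of (fun i j => ∫ x, A x i j ∂μ)) *ᵥ w =
        ∫ x, star w ⬝ᵥ (A x) *ᵥ w ∂μ := by
      simp only [dotProduct, mulVec, Matrix.of_apply]
      rw [integral_finsetSum]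
      · refine Finset.sum_congr rfl (fun i _ => ?_)
        rw [integral_const_mul, integral_finsetSum]
        · congr 1
          refine Finset.sum_congr rfl (fun j _ => ?_)
          rw [integral_mul_const]
        · intro j _
          exact (hI i j).mul_const _
      · intro i _
        refine Integrable.const_mul ?_ _
        exact integrable_finsetSum _ (fun j _ => (hI i j).mul_const _)
    rw [e]
    have e3 : ∀ x, star w ⬝ᵥ (A x) *ᵥ w = (((star w ⬝ᵥ (A x) *ᵥ w).re : ℝ) : ℂ) := by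
      intro x
      have h0 := (Matrix.posSemidef_iff_dotProduct_mulVec.1 (hA x)).2 w
      rw [Complex.le_def] at h0
      refine Complex.ext (by simp) ?_
      rw [Complex.ofReal_im]; exact h0.2.symm
    have e4 : ∫ x, star w ⬝ᵥ (A x) *ᵥ w ∂μ = ((∫ x, (star w ⬝ᵥ (A x) *ᵥ w).re ∂μ : ℝ) : ℂ) := by
      rw [← integral_complex_ofReal]
      exact integral_congr_ae (Filter.Eventually.of_forall e3)
    rw [e4, Complex.zero_le_real]
    refine integral_nonneg (fun x => ?_)
    have h0 := (Matrix.posSemidef_iff_dotProduct_mulVec.1 (hA x)).2 w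
    rw [Complex.le_def] at h0
    exact h0.1

end Vale.LT.Dual

namespace Vale.LT

/-- `R(x) = ∑_j u_j(x) u_j(x)^*`. -/
def Rmat {N m : ℕ} (u : Fin N → ℝ → Fin m → ℂ) (x : ℝ) : Matrix (Fin m) (Fin m) ℂ :=
  ∑ j, Matrix.vecMulVec (u j x) (star (u j x))

namespace Dual

/-- the `N × m` matrix with rows `u_j(x)^*` -/
def Umat {N m : ℕ} (u : Fin N → ℝ → Fin m → ℂ) (x : ℝ) : Matrix (Fin N) (Fin m) ℂ :=
  Matrix.of (fun j i => star (u j x i))

/-- the Gram matrix -/
def Pm {N m : ℕ} (u : Fin N → ℝ → Fin m → ℂ) (x : ℝ) : Matrix (Fin N) (Fin N) ℂ :=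
  Umat u x * (Umat u x)ᴴ

variable {N m : ℕ} (u du : Fin N → ℝ → Fin m → ℂ)

theorem Pm_apply (x : ℝ) (j k : Fin N) : Pm u x j k = ∑ i, star (u j x i) * u k x i := by
  simp [Pm, Umat, Matrix.mul_apply]

theorem Pm_apply' (x : ℝ) (j k : Fin N) : Pm u x j k = star (u j x) ⬝ᵥ u k x := by
  rw [Pm_apply]; rfl

theorem Rmat_eq (x : ℝ) : Rmat u x = (Umat u x)ᴴ * Umat u x := by
  ext i i'
  simp [Rmat, Umat, Matrix.mul_apply, Matrix.sum_apply, Matrix.vecMulVec_apply]

theorem tr2 (x : ℝ) : ((Rmat u x) ^ 2).trace = ((Pm u x) ^ 2).trace := by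
  rw [Rmat_eq, Pm, pow_two, pow_two, Matrix.mul_assoc, Matrix.trace_mul_comm, Matrix.mul_assoc,
    Matrix.mul_assoc, Matrix.mul_assoc]

theorem tr3 (x : ℝ) : ((Rmat u x) ^ 3).trace = ((Pm u x) ^ 3).trace := by
  have h3 : ∀ {n : ℕ} (A : Matrix (Fin n) (Fin n) ℂ), A ^ 3 = A * A * A := fun A => by
    rw [pow_succ, pow_two]
  rw [Rmat_eq, Pm, h3, h3]
  simp only [Matrix.mul_assoc]
  rw [Matrix.trace_mul_comm]
  simp only [Matrix.mul_assoc]

/-- integrable, continuous and bounded -/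
def Nice (f : ℝ → ℂ) : Prop :=
  Integrable f volume ∧ Continuous f ∧ ∃ C : ℝ, ∀ x, ‖f x‖ ≤ C

theorem Nice.mul {f g : ℝ → ℂ} (hf : Nice f) (hg : Nice g) : Nice (fun x => f x * g x) := by
  obtain ⟨h1, h2, C, hC⟩ := hf
  obtain ⟨k1, k2, D, hD⟩ := hg
  refine ⟨k1.bdd_mul (c := C) h2.aestronglyMeasurable (Eventually.of_forall hC), h2.mul k2,
    C * D, fun x => ?_⟩
  rw [norm_mul]
  exact mul_le_mul (hC x) (hD x) (norm_nonneg _) ((norm_nonneg _).trans (hC x))

theorem Nice.sum {ι : Type*} (s : Finset ι) {f : ι → ℝ → ℂ} (hf : ∀ i ∈ s, Nice (f i)) :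
    Nice (fun x => ∑ i ∈ s, f i x) := by
  classical
  refine ⟨integrable_finsetSum _ (fun i hi => (hf i hi).1),
    continuous_finsetSum _ (fun i hi => (hf i hi).2.1), ?_⟩
  choose! C hC using fun i hi => (hf i hi).2.2
  exact ⟨∑ i ∈ s, C i, fun x => (norm_sum_le _ _).trans (Finset.sum_le_sum fun i hi => hC i hi x)⟩

theorem Nice.matmul {n : ℕ} {A B : ℝ → Matrix (Fin n) (Fin n) ℂ}
    (hA : ∀ i j, Nice (fun x => A x i j)) (hB : ∀ i j, Nice (fun x => B x i j)) :
    ∀ i j, Nice (fun x => (A x * B x) i j) := by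
  intro i j
  simp only [Matrix.mul_apply]
  exact Nice.sum _ (fun k _ => (hA i k).mul (hB k j))

theorem Nice.trace {n : ℕ} {A : ℝ → Matrix (Fin n) (Fin n) ℂ}
    (hA : ∀ i j, Nice (fun x => A x i j)) : Nice (fun x => (A x).trace) := by
  simp only [Matrix.trace, Matrix.diag]
  exact Nice.sum _ (fun k _ => (hA k k))

theorem Nice.re {f : ℝ → ℂ} (hf : Nice f) : Integrable (fun x => (f x).re) volume := hf.1.re

variable {u du}

theorem nice_P (hu : ∀ j, IsH1 (u j) (du j)) (j k : Fin N) : Nice (fun x => Pm u x j k) := by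
  simp only [Pm_apply]
  refine Nice.sum _ (fun i _ => ?_)
  have hj := (hu j)
  have hk := (hu k)
  refine ⟨?_, ?_, ?_⟩
  · have := (hj.memLp i).star.integrable_mul (hk.memLp i)
    exact this
  · exact (h1_cont (hj.memLp_deriv i) (hj.ftc i)).star.mul
      (h1_cont (hk.memLp_deriv i) (hk.ftc i))
  · obtain ⟨B, hB0, hB⟩ := h1_bounded (hj.memLp i) (hj.memLp_deriv i) (hj.ftc i)
    obtain ⟨C, hC0, hC⟩ := h1_bounded (hk.memLp i) (hk.memLp_deriv i) (hk.ftc i)
    refine ⟨B * C, fun x => ?_⟩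
    rw [norm_mul, norm_star]
    exact mul_le_mul (hB x) (hC x) (norm_nonneg _) hB0

theorem nice_P2 (hu : ∀ j, IsH1 (u j) (du j)) (j k : Fin N) :
    Nice (fun x => ((Pm u x) ^ 2) j k) := by
  simp only [pow_two]
  exact Nice.matmul (nice_P hu) (nice_P hu) j k

theorem nice_P3 (hu : ∀ j, IsH1 (u j) (du j)) (j k : Fin N) :
    Nice (fun x => ((Pm u x) ^ 3) j k) := by
  have : ∀ x, (Pm u x) ^ 3 = (Pm u x) ^ 2 * Pm u x := fun x => pow_succ _ _
  simp only [this]
  exact Nice.matmul (nice_P2 hu) (nice_P hu) j k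

theorem int_trR3 (hu : ∀ j, IsH1 (u j) (du j)) :
    Integrable (fun x => ((Rmat u x) ^ 3).trace.re) volume := by
  simp only [tr3]
  exact (Nice.trace (nice_P3 hu)).re

theorem int_trR2 (hu : ∀ j, IsH1 (u j) (du j)) :
    Integrable (fun x => ((Rmat u x) ^ 2).trace.re) volume := by
  simp only [tr2]
  exact (Nice.trace (nice_P2 hu)).re

/-- real-valued: `tr P` is integrable, bounded -/
theorem int_trP (hu : ∀ j, IsH1 (u j) (du j)) :
    Integrable (fun x => (Pm u x).trace.re ^ 3 + (Pm u x).trace.re ^ 2) volume := by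
  obtain ⟨h1, h2, C, hC⟩ := Nice.trace (nice_P hu)
  have hc : Continuous (fun x => (Pm u x).trace.re) := Complex.continuous_re.comp h2
  have hb : ∀ x, ‖(Pm u x).trace.re‖ ≤ C := fun x => by
    rw [Real.norm_eq_abs]; exact (Complex.abs_re_le_norm _).trans (hC x)
  have hi : Integrable (fun x => (Pm u x).trace.re) volume := h1.re
  have i2 : Integrable (fun x => (Pm u x).trace.re ^ 2) volume := by
    have := hi.bdd_mul (c := C) hc.aestronglyMeasurable (Eventually.of_forall hb)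
    simpa [pow_two] using this
  have i3 : Integrable (fun x => (Pm u x).trace.re ^ 3) volume := by
    have := i2.bdd_mul (c := C) hc.aestronglyMeasurable (Eventually.of_forall hb)
    refine this.congr (Eventually.of_forall fun x => ?_)
    simp only; ring
  exact i3.add i2

theorem Pm_psd (x : ℝ) : (Pm u x).PosSemidef := Matrix.posSemidef_self_mul_conjTranspose _

end Dual

theorem integrable_R {N m : ℕ} (u du : Fin N → ℝ → Fin m → ℂ) (hu : ∀ j, IsH1 (u j) (du j)) :
    Integrable (fun x => ((Rmat u x) ^ 3).trace.re) ∧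
    Integrable (fun x => ((Rmat u x) ^ 2).trace.re) :=
  ⟨Dual.int_trR3 hu, Dual.int_trR2 hu⟩

end Vale.LT

namespace Vale.LT.Dual

variable {N m : ℕ} {u du : Fin N → ℝ → Fin m → ℂ}

/-- `g(x) = δ I + ∫_{-∞}^x P`. -/
noncomputable def gfun (u : Fin N → ℝ → Fin m → ℂ) (δ : ℝ) (x : ℝ) : Matrix (Fin N) (Fin N) ℂ :=
  Matrix.of (fun i j => (if i = j then (δ : ℂ) else 0) + ∫ t in Iic x, Pm u t i j)

/-- the quadratic map -/
noncomputable def Qf (w : Fin N → Fin m → ℂ) : Fin N → Fin N → ℂ :=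
  fun j k => ∑ i, star (w j i) * w k i

theorem Qf_contDiff : ContDiff ℝ 1 (Qf (N := N) (m := m)) := by
  refine contDiff_pi.2 (fun j => contDiff_pi.2 (fun k => ?_))
  unfold Qf
  refine ContDiff.sum (fun i _ => ?_)
  refine ContDiff.mul ?_ ?_
  · have h1 : ContDiff ℝ 1 (fun w : Fin N → Fin m → ℂ => w j i) :=
      contDiff_pi.1 (contDiff_pi.1 contDiff_id j) i
    exact Complex.conjCLE.contDiff.comp h1
  · exact contDiff_pi.1 (contDiff_pi.1 contDiff_id k) i

/-- the curve `(g, u)` -/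
noncomputable def zc (u : Fin N → ℝ → Fin m → ℂ) (δ : ℝ) (x : ℝ) :
    (Fin N → Fin N → ℂ) × (Fin N → Fin m → ℂ) :=
  (fun i j => gfun u δ x i j, fun j i => u j x i)

noncomputable def zc' (u du : Fin N → ℝ → Fin m → ℂ) (x : ℝ) :
    (Fin N → Fin N → ℂ) × (Fin N → Fin m → ℂ) :=
  (fun i j => Pm u x i j, fun j i => du j x i)

theorem zc'_locInt (hu : ∀ j, IsH1 (u j) (du j)) : LocallyIntegrable (zc' u du) volume := by
  rw [locallyIntegrable_iff]
  intro K hK
  unfold IntegrableOn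
  refine Integrable.prodMk ?_ ?_
  · refine Integrable.of_eval (fun i => Integrable.of_eval (fun j => ?_))
    exact (nice_P hu i j).1.integrableOn
  · refine Integrable.of_eval (fun j => Integrable.of_eval (fun i => ?_))
    exact (((hu j).memLp_deriv i).locallyIntegrable (by norm_num)).integrableOn_isCompact hK

theorem zc_ftc (hu : ∀ j, IsH1 (u j) (du j)) (δ s t : ℝ) :
    zc u δ t - zc u δ s = ∫ r in s..t, zc' u du r := by
  have hii : IntervalIntegrable (zc' u du) volume s t :=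
    intervalIntegrable_iff.mpr <|
      ((zc'_locInt hu).integrableOn_isCompact isCompact_uIcc).mono_set uIoc_subset_uIcc
  refine Prod.ext ?_ ?_
  · funext i j
    let Li : (Fin N → Fin N → ℂ) →L[ℝ] (Fin N → ℂ) := ContinuousLinearMap.proj i
    let Lj : (Fin N → ℂ) →L[ℝ] ℂ := ContinuousLinearMap.proj j
    let L : (Fin N → Fin N → ℂ) × (Fin N → Fin m → ℂ) →L[ℝ] ℂ :=
      (Lj.comp Li).comp (ContinuousLinearMap.fst ℝ (Fin N → Fin N → ℂ) (Fin N → Fin m → ℂ))
    have h := L.intervalIntegral_comp_comm hii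
    change (zc u δ t - zc u δ s).1 i j = L (∫ r in s..t, zc' u du r)
    rw [← h]
    change gfun u δ t i j - gfun u δ s i j = ∫ r in s..t, Pm u r i j
    rw [← intervalIntegral.integral_Iic_sub_Iic (nice_P hu i j).1.integrableOn
      (nice_P hu i j).1.integrableOn]
    simp [gfun]
  · funext j i
    let Lj : (Fin N → Fin m → ℂ) →L[ℝ] (Fin m → ℂ) := ContinuousLinearMap.proj j
    let Li : (Fin m → ℂ) →L[ℝ] ℂ := ContinuousLinearMap.proj i
    let L : (Fin N → Fin N → ℂ) × (Fin N → Fin m → ℂ) →L[ℝ] ℂ :=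
      (Li.comp Lj).comp (ContinuousLinearMap.snd ℝ (Fin N → Fin N → ℂ) (Fin N → Fin m → ℂ))
    have h := L.intervalIntegral_comp_comm hii
    change (zc u δ t - zc u δ s).2 j i = L (∫ r in s..t, zc' u du r)
    rw [← h]
    change u j t i - u j s i = ∫ r in s..t, du j r i
    exact (hu j).ftc i s t

theorem specIn_g (hu : ∀ j, IsH1 (u j) (du j)) {G : Fin N → ℝ} {δ : ℝ}
    (hG : ∀ j, G j + 2 * δ ≤ Real.pi / 2)
    (horth : ∀ j k, (∫ x, star (u j x) ⬝ᵥ u k x) = if j = k then (G j : ℂ) else 0) (x : ℝ) :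
    specIn δ (gfun u δ x) := by
  constructor
  · have h := psd_integral (μ := volume.restrict (Iic x)) (fun t => Pm u t) (fun t => Pm_psd t)
      (fun i j => (nice_P hu i j).1.integrableOn)
    convert h using 1
    ext i j
    by_cases hij : i = j <;> simp [gfun, hij]
  · have h := psd_integral (μ := volume.restrict (Ioi x)) (fun t => Pm u t) (fun t => Pm_psd t)
      (fun i j => (nice_P hu i j).1.integrableOn)
    have hd : (Matrix.diagonal (fun j => ((Real.pi / 2 - 2 * δ - G j : ℝ) : ℂ))).PosSemidef := by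
      refine Matrix.PosSemidef.diagonal (fun j => ?_)
      have := hG j
      rw [Pi.zero_apply, Complex.zero_le_real]
      linarith
    have h2 := h.add hd
    convert h2 using 1
    ext i j
    have e : ∫ t in Ioi x, Pm u t i j = (if i = j then (G i : ℂ) else 0) -
        ∫ t in Iic x, Pm u t i j := by
      rw [← horth i j]
      have := intervalIntegral.integral_Iic_add_Ioi (b := x) (nice_P hu i j).1.integrableOn
        (nice_P hu i j).1.integrableOn
      simp only [← Pm_apply']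
      rw [← this]; ring
    simp only [Matrix.sub_apply, Matrix.smul_apply, Matrix.one_apply, Matrix.add_apply, Matrix.of_apply,
      Matrix.diagonal_apply, gfun, e]
    by_cases hij : i = j
    · subst hij; simp; ring
    · simp [hij]

/-- the curve `(g, P)` -/
noncomputable def yc (u : Fin N → ℝ → Fin m → ℂ) (δ : ℝ) (x : ℝ) : MM N :=
  (fun i j => gfun u δ x i j, fun i j => Pm u x i j)

noncomputable def yc' (u du : Fin N → ℝ → Fin m → ℂ) (x : ℝ) : MM N :=
  (fun i j => Pm u x i j,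
    fun i j => (Umat du x * (Umat u x)ᴴ + Umat u x * (Umat du x)ᴴ) i j)

theorem yc_deriv (hu : ∀ j, IsH1 (u j) (du j)) (δ : ℝ) :
    ∀ᵐ t, HasDerivAt (yc u δ) (yc' u du t) t := by
  filter_upwards [ac_hasDerivAt (zc'_locInt hu) (zc_ftc hu δ)] with t ht
  have h1 : HasDerivAt (fun t => (zc u δ t).1) (zc' u du t).1 t := ht.fst
  have h2 : HasDerivAt (fun t => (zc u δ t).2) (zc' u du t).2 t := ht.snd
  refine HasDerivAt.prodMk h1 ?_
  refine hasDerivAt_pi.2 (fun j => hasDerivAt_pi.2 (fun k => ?_))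
  have h3 : ∀ j i, HasDerivAt (fun t => u j t i) (du j t i) t := fun j i =>
    hasDerivAt_pi.1 (hasDerivAt_pi.1 h2 j) i
  have h4 : HasDerivAt (fun t => ∑ i, star (u j t i) * u k t i)
      (∑ i, (star (du j t i) * u k t i + star (u j t i) * du k t i)) t :=
    HasDerivAt.fun_sum (fun i _ => ((h3 j i).star.mul (h3 k i)))
  have e1 : (fun t => Pm u t j k) = (fun t => ∑ i, star (u j t i) * u k t i) :=
    funext fun t => Pm_apply u t j k
  rw [e1]
  have e2 : (yc' u du t).2 j k = ∑ i, (star (du j t i) * u k t i + star (u j t i) * du k t i) := by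
    simp [yc', Umat, Matrix.mul_apply, Finset.sum_add_distrib]
  rw [← e2] at h4
  exact h4

theorem ac_Phi (hu : ∀ j, IsH1 (u j) (du j)) (δ : ℝ) {Φ : MM N → ℝ} (hΦ : ContDiff ℝ 1 Φ)
    (a b : ℝ) : AbsolutelyContinuousOnInterval (fun t => Φ (yc u δ t)) a b := by
  have h : ContDiff ℝ 1 (fun z : (Fin N → Fin N → ℂ) × (Fin N → Fin m → ℂ) =>
      Φ (z.1, Qf z.2)) :=
    hΦ.comp (contDiff_fst.prodMk (Qf_contDiff.comp contDiff_snd))
  have h2 := ac_comp h (zc'_locInt hu) (zc_ftc hu δ) a b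
  have e : (fun t => Φ ((zc u δ t).1, Qf (zc u δ t).2)) = fun t => Φ (yc u δ t) := by
    funext t
    congr 1
    refine Prod.ext rfl ?_
    funext j k
    simp only [zc, Qf, yc, Pm_apply]
  rw [← e]
  exact h2

end Vale.LT.Dual

namespace Vale.LT.Dual

variable {N m : ℕ} {u du : Fin N → ℝ → Fin m → ℂ}

theorem P_tendsto (hu : ∀ j, IsH1 (u j) (du j)) (j k : Fin N) :
    Tendsto (fun x => Pm u x j k) atTop (𝓝 0) ∧ Tendsto (fun x => Pm u x j k) atBot (𝓝 0) := by
  simp only [Pm_apply]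
  have h : ∀ j i, Tendsto (fun x => u j x i) atTop (𝓝 0) ∧ Tendsto (fun x => u j x i) atBot (𝓝 0) :=
    fun j i => h1_tendsto ((hu j).memLp i) ((hu j).memLp_deriv i) ((hu j).ftc i)
  constructor
  · have : Tendsto (fun x => ∑ i, star (u j x i) * u k x i) atTop (𝓝 (∑ i : Fin m, star 0 * 0)) :=
      tendsto_finsetSum _ (fun i _ => ((h j i).1.star).mul (h k i).1)
    simpa using this
  · have : Tendsto (fun x => ∑ i, star (u j x i) * u k x i) atBot (𝓝 (∑ i : Fin m, star 0 * 0)) :=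
      tendsto_finsetSum _ (fun i _ => ((h j i).2.star).mul (h k i).2)
    simpa using this

theorem yc_tendsto_top (hu : ∀ j, IsH1 (u j) (du j)) {G : Fin N → ℝ} (δ : ℝ)
    (horth : ∀ j k, (∫ x, star (u j x) ⬝ᵥ u k x) = if j = k then (G j : ℂ) else 0) :
    Tendsto (yc u δ) atTop
      (𝓝 ((fun i j => if i = j then ((G i + δ : ℝ) : ℂ) else 0), 0)) := by
  refine Tendsto.prodMk_nhds ?_ ?_
  · refine tendsto_pi_nhds.2 (fun i => tendsto_pi_nhds.2 (fun j => ?_))
    have e : ∀ x, gfun u δ x i j = (if i = j then (δ : ℂ) else 0) +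
        ((if i = j then (G i : ℂ) else 0) - ∫ t in Ioi x, Pm u t i j) := by
      intro x
      rw [← horth i j]
      have := intervalIntegral.integral_Iic_add_Ioi (b := x) (nice_P hu i j).1.integrableOn
        (nice_P hu i j).1.integrableOn
      simp only [← Pm_apply', gfun, Matrix.of_apply]
      rw [← this]; ring
    have h1 : Tendsto (fun x => (if i = j then (δ : ℂ) else 0) +
        ((if i = j then (G i : ℂ) else 0) - ∫ t in Ioi x, Pm u t i j)) atTop
        (𝓝 ((if i = j then (δ : ℂ) else 0) + ((if i = j then (G i : ℂ) else 0) - 0))) :=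
      (((tendsto_integral_Ioi_zero (f := fun t => Pm u t i j) (μ := volume)
        (tendsto_id (α := ℝ)))).const_sub _).const_add _
    have e2 : (if i = j then ((G i + δ : ℝ) : ℂ) else 0) =
        ((if i = j then (δ : ℂ) else 0) + ((if i = j then (G i : ℂ) else 0) - 0)) := by
      by_cases hij : i = j
      · simp [hij]; ring
      · simp [hij]
    rw [e2]
    exact h1.congr (fun x => (e x).symm)
  · refine tendsto_pi_nhds.2 (fun i => tendsto_pi_nhds.2 (fun j => ?_))
    exact (P_tendsto hu i j).1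

theorem yc_tendsto_bot (hu : ∀ j, IsH1 (u j) (du j)) (δ : ℝ) :
    Tendsto (yc u δ) atBot (𝓝 ((fun i j => if i = j then (δ : ℂ) else 0), 0)) := by
  refine Tendsto.prodMk_nhds ?_ ?_
  · refine tendsto_pi_nhds.2 (fun i => tendsto_pi_nhds.2 (fun j => ?_))
    have h1 : Tendsto (fun x => (if i = j then (δ : ℂ) else 0) +
        (∫ t in Iic x, Pm u t i j)) atBot (𝓝 ((if i = j then (δ : ℂ) else 0) + 0)) :=
      ((tendsto_integral_Iic_zero (f := fun t => Pm u t i j) (μ := volume)
        (tendsto_id (α := ℝ)))).const_add _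
    rw [add_zero] at h1
    exact h1
  · refine tendsto_pi_nhds.2 (fun i => tendsto_pi_nhds.2 (fun j => ?_))
    exact (P_tendsto hu i j).2

theorem trV (t : ℝ) : (Umat du t * (Umat du t)ᴴ).trace.re = ∑ j, ∑ i, ‖du j t i‖ ^ 2 := by
  simp only [Matrix.trace, Matrix.diag, Complex.re_sum]
  refine Finset.sum_congr rfl (fun j _ => ?_)
  have := Pm_apply du t j j
  unfold Pm at this
  rw [this, Complex.re_sum]
  refine Finset.sum_congr rfl (fun i _ => ?_)
  have h : star (du j t i) * du j t i = ((‖du j t i‖ ^ 2 : ℝ) : ℂ) := by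
    have := Complex.conj_mul' (du j t i)
    rw [Complex.ofReal_pow]
    exact this
  rw [h, Complex.ofReal_re]

theorem int_K (hu : ∀ j, IsH1 (u j) (du j)) (j : Fin N) :
    Integrable (fun x => ∑ i, ‖du j x i‖ ^ 2) volume :=
  integrable_finsetSum _ (fun i _ => h1_sq_int ((hu j).memLp_deriv i))

theorem dual_step (b δ ε : ℝ) (hb : 0 ≤ b) (hδ : 0 < δ) (hδ' : δ < Real.pi / 4) (hε : 0 < ε)
    (hu : ∀ j, IsH1 (u j) (du j)) (G : Fin N → ℝ) (hG0 : ∀ j, 0 ≤ G j)
    (hG : ∀ j, G j + 2 * δ ≤ Real.pi / 2)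
    (horth : ∀ j k, (∫ x, star (u j x) ⬝ᵥ u k x) = if j = k then (G j : ℂ) else 0) :
    ∫ x, (((Rmat u x) ^ 3).trace.re + b * ((Rmat u x) ^ 2).trace.re) ≤
      (∑ j, ∫ x, ∑ i, ‖du j x i‖ ^ 2)
      + ∑ j, (b ^ 2 / 4) * ((Real.tan (G j + δ) - (G j + δ)) - (Real.tan δ - δ))
      + ε * (2 + ∫ x, ((Pm u x).trace.re ^ 3 + (Pm u x).trace.re ^ 2)) := by
  obtain ⟨Φ, hΦ, hii, hiii⟩ := exists_calibration N m b δ ε hb hδ hδ' hε
  set f : ℝ → ℝ := fun t => Φ (yc u δ t) with hf
  set R : ℝ → ℝ := fun x => ((Rmat u x) ^ 3).trace.re + b * ((Rmat u x) ^ 2).trace.re with hR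
  set K : ℝ → ℝ := fun x => ∑ j, ∑ i, ‖du j x i‖ ^ 2 with hK
  set T : ℝ → ℝ := fun x => (Pm u x).trace.re ^ 3 + (Pm u x).trace.re ^ 2 with hT
  have iR : Integrable R volume := (int_trR3 hu).add ((int_trR2 hu).const_mul b)
  have iK : Integrable K volume := integrable_finsetSum _ (fun j _ => int_K hu j)
  have iT : Integrable T volume := int_trP hu
  have iKT : Integrable (fun x => K x + ε * T x) volume := iK.add (iT.const_mul ε)
  have hder : ∀ᵐ t, deriv f t + R t ≤ K t + ε * T t := by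
    filter_upwards [yc_deriv hu δ] with t ht
    have h1 : HasDerivAt f (fderiv ℝ Φ (yc u δ t) (yc' u du t)) t :=
      ((hΦ.differentiable (by norm_num) _).hasFDerivAt).comp_hasDerivAt t ht
    rw [h1.deriv]
    have h2 := hiii (gfun u δ t) (Umat u t) (Umat du t) (specIn_g hu hG horth t)
    rw [trV] at h2
    have e1 : (Umat u t * (Umat u t)ᴴ) = Pm u t := rfl
    have h3 : fderiv ℝ Φ (yc u δ t) (yc' u du t) + ((Pm u t) ^ 3).trace.re
        + b * ((Pm u t) ^ 2).trace.re ≤ K t + ε * T t := h2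
    simp only [hR, tr2, tr3]
    linarith
  have key : ∀ a c : ℝ, a ≤ c → f c - f a + ∫ x in a..c, R x ≤ ∫ x in a..c, (K x + ε * T x) := by
    intro a c hac
    have hac' := ac_Phi hu δ hΦ a c
    have e1 : ∫ x in a..c, deriv f x = f c - f a := hac'.integral_deriv_eq_sub
    rw [← e1, ← intervalIntegral.integral_add hac'.intervalIntegrable_deriv iR.intervalIntegrable]
    exact intervalIntegral.integral_mono_ae hac
      (hac'.intervalIntegrable_deriv.add iR.intervalIntegrable) iKT.intervalIntegrable hder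
  -- limits
  have t1 : Tendsto (fun n : ℝ => f n) atTop
      (𝓝 (Φ ((fun i j => if i = j then ((G i + δ : ℝ) : ℂ) else 0), 0))) :=
    (hΦ.continuous.tendsto _).comp (yc_tendsto_top hu δ horth)
  have t2 : Tendsto (fun n : ℝ => f (-n)) atTop
      (𝓝 (Φ ((fun i j => if i = j then (δ : ℂ) else 0), 0))) :=
    ((hΦ.continuous.tendsto _).comp (yc_tendsto_bot hu δ)).comp tendsto_neg_atTop_atBot
  have t3 : Tendsto (fun n : ℝ => ∫ x in (-n)..n, R x) atTop (𝓝 (∫ x, R x)) :=
    intervalIntegral_tendsto_integral iR tendsto_neg_atTop_atBot tendsto_id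
  have t4 : Tendsto (fun n : ℝ => ∫ x in (-n)..n, (K x + ε * T x)) atTop
      (𝓝 (∫ x, (K x + ε * T x))) :=
    intervalIntegral_tendsto_integral iKT tendsto_neg_atTop_atBot tendsto_id
  have main := le_of_tendsto_of_tendsto ((t1.sub t2).add t3) t4
    ((eventually_ge_atTop (0:ℝ)).mono (fun n hn => key (-n) n (by linarith)))
  have v1 := hii (fun j => G j + δ) (fun j => ⟨by linarith [hG0 j], by linarith [hG j]⟩)
  have v2 := hii (fun _ => δ) (fun j => ⟨le_rfl, by linarith⟩)
  simp only [sub_self, mul_zero, Finset.sum_const_zero, add_zero] at v2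
  have w1 := (abs_le.1 v1).1
  have w2 := (abs_le.1 v2).2
  have e5 : ∫ x, (K x + ε * T x) = (∑ j, ∫ x, ∑ i, ‖du j x i‖ ^ 2) + ε * ∫ x, T x := by
    rw [integral_add iK (iT.const_mul ε), integral_const_mul, hK,
      integral_finsetSum _ (fun j _ => int_K hu j)]
  rw [e5] at main
  nlinarith [main, w1, w2]

end Vale.LT.Dual

namespace Vale.LT

theorem dual_ineq {N m : ℕ} (b : ℝ) (hb : 0 ≤ b) (u du : Fin N → ℝ → Fin m → ℂ)
    (hu : ∀ j, IsH1 (u j) (du j)) (G : Fin N → ℝ) (hG : ∀ j, 0 ≤ G j ∧ G j < Real.pi / 2)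
    (horth : ∀ j k, (∫ x, star (u j x) ⬝ᵥ u k x) = if j = k then (G j : ℂ) else 0) :
    ∫ x, (((Rmat u x) ^ 3).trace.re + b * ((Rmat u x) ^ 2).trace.re) ≤
      (∑ j, ∫ x, ∑ i, ‖du j x i‖ ^ 2) + ∑ j, (b ^ 2 / 4) * (Real.tan (G j) - G j) := by
  set C0 : ℝ := 2 + ∫ x, ((Dual.Pm u x).trace.re ^ 3 + (Dual.Pm u x).trace.re ^ 2) with hC0
  set K0 : ℝ := ∑ j, ∫ x, ∑ i, ‖du j x i‖ ^ 2 with hK0
  have h1 : ∀ᶠ δ : ℝ in 𝓝[>] 0,
      ∫ x, (((Rmat u x) ^ 3).trace.re + b * ((Rmat u x) ^ 2).trace.re) ≤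
      K0 + ∑ j, (b ^ 2 / 4) * ((Real.tan (G j + δ) - (G j + δ)) - (Real.tan δ - δ)) + δ * C0 := by
    have hs : ∀ᶠ δ : ℝ in 𝓝[>] 0, δ < Real.pi / 4 ∧ ∀ j, G j + 2 * δ ≤ Real.pi / 2 := by
      refine Filter.Eventually.and ?_ ?_
      · exact nhdsWithin_le_nhds (gt_mem_nhds (by positivity))
      · rw [Filter.eventually_all]
        intro j
        have : ∀ᶠ δ : ℝ in 𝓝 0, δ < (Real.pi / 2 - G j) / 2 :=
          gt_mem_nhds (by linarith [(hG j).2])
        refine nhdsWithin_le_nhds (this.mono fun δ hδ => by linarith)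
    filter_upwards [hs, self_mem_nhdsWithin] with δ hδ hpos
    exact Dual.dual_step b δ δ hb hpos hδ.1 hpos hu G (fun j => (hG j).1) hδ.2 horth
  have h2 : Tendsto (fun δ : ℝ =>
      K0 + ∑ j, (b ^ 2 / 4) * ((Real.tan (G j + δ) - (G j + δ)) - (Real.tan δ - δ)) + δ * C0)
      (𝓝[>] 0) (𝓝 (K0 + ∑ j, (b ^ 2 / 4) * (Real.tan (G j) - G j))) := by
    refine tendsto_nhdsWithin_of_tendsto_nhds ?_
    have hcont : ContinuousAt (fun δ : ℝ =>
      K0 + ∑ j, (b ^ 2 / 4) * ((Real.tan (G j + δ) - (G j + δ)) - (Real.tan δ - δ)) + δ * C0) 0 := by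
      refine (continuousAt_const.add ?_).add (continuousAt_id.mul continuousAt_const)
      refine tendsto_finsetSum _ (fun j _ => ?_)
      refine ContinuousAt.mul continuousAt_const ?_
      have c1 : ContinuousAt Real.tan (G j + 0) := by
        rw [add_zero]
        refine Real.continuousAt_tan.2 ?_
        exact (Real.cos_pos_of_mem_Ioo ⟨by linarith [(hG j).1, Real.pi_pos], (hG j).2⟩).ne'
      have c2 : ContinuousAt Real.tan 0 := Real.continuousAt_tan.2 (by simp)
      have c3 : ContinuousAt (fun δ : ℝ => Real.tan (G j + δ)) 0 :=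
        ContinuousAt.comp (f := fun δ : ℝ => G j + δ) c1 (by fun_prop)
      exact (c3.sub (by fun_prop)).sub (c2.sub continuousAt_id)
    have := hcont.tendsto
    simpa using this
  exact ge_of_tendsto h2 h1

end Vale.LT
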