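import Vale.Agent.H1.LT.Defs

/-!
P371: auxiliary facts on `H¹` functions.
-/

open MeasureTheory Matrix Set
open scoped ComplexOrder

namespace Vale.LT

theorem norm_le_half_one_add_sq (t : ℝ) : t ≤ 1 / 2 + t ^ 2 / 2 := by
  nlinarith [sq_nonneg (t - 1)]

/-- scalar version of boundedness of `H¹` functions -/
theorem bounded_of_ftc {f g : ℝ → ℂ} (hf : MemLp f 2 volume) (hg : MemLp g 2 volume)
    (hfg : ∀ a b : ℝ, f b - f a = ∫ t in a..b, g t) : ∃ C, 0 ≤ C ∧ ∀ x, ‖f x‖ ≤ C := by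
  have hf2 : Integrable (fun x => ‖f x‖ ^ 2) := (memLp_two_iff_integrable_sq_norm hf.1).1 hf
  have hg2 : Integrable (fun x => ‖g x‖ ^ 2) := (memLp_two_iff_integrable_sq_norm hg.1).1 hg
  set A := ∫ x, ‖f x‖ ^ 2 with hA
  set B := ∫ x, ‖g x‖ ^ 2 with hB
  have hA0 : 0 ≤ A := integral_nonneg fun x => by positivity
  have hB0 : 0 ≤ B := integral_nonneg fun x => by positivity
  have hdiff : ∀ x y : ℝ, x ≤ y → y ≤ x + 1 → ‖f x‖ ≤ ‖f y‖ + (1 / 2 + B / 2) := by
    intro x y hxy hyx
    have h1 : ‖f y - f x‖ ≤ 1 / 2 + B / 2 := by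
      rw [hfg x y]
      have hgi : IntegrableOn (fun t => 1 / 2 + ‖g t‖ ^ 2 / 2) (Ioc x y) :=
        (integrableOn_const (by simp)).add (hg2.div_const 2).integrableOn
      calc ‖∫ t in x..y, g t‖ ≤ ∫ t in x..y, ‖g t‖ :=
            intervalIntegral.norm_integral_le_integral_norm hxy
        _ = ∫ t in Ioc x y, ‖g t‖ := intervalIntegral.integral_of_le hxy
        _ ≤ ∫ t in Ioc x y, (1 / 2 + ‖g t‖ ^ 2 / 2) := by
            refine integral_mono_of_nonneg (Filter.Eventually.of_forall fun t => norm_nonneg _)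
              hgi (Filter.Eventually.of_forall fun t => norm_le_half_one_add_sq _)
        _ = (∫ t in Ioc x y, (1 / 2 : ℝ)) + ∫ t in Ioc x y, ‖g t‖ ^ 2 / 2 :=
            integral_add (integrableOn_const (by simp)) (hg2.div_const 2).integrableOn
        _ ≤ 1 / 2 + B / 2 := by
            have h2 : (∫ t in Ioc x y, (1 / 2 : ℝ)) ≤ 1 / 2 := by
              rw [setIntegral_const]
              simp only [Real.volume_real_Ioc_of_le hxy, smul_eq_mul]
              linarith
            have h3 : ∫ t in Ioc x y, ‖g t‖ ^ 2 / 2 ≤ B / 2 := by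
              rw [integral_div]
              refine div_le_div_of_nonneg_right ?_ (by norm_num)
              exact setIntegral_le_integral hg2 (Filter.Eventually.of_forall fun t => by positivity)
            exact add_le_add h2 h3
    calc ‖f x‖ = ‖f y - (f y - f x)‖ := by congr 1; ring
      _ ≤ ‖f y‖ + ‖f y - f x‖ := norm_sub_le _ _
      _ ≤ _ := by linarith
  refine ⟨1 / 2 + A / 2 + (1 / 2 + B / 2), by positivity, fun x => ?_⟩
  have hx : x ≤ x + 1 := by linarith
  have h4 : ∫ _ in Ioc x (x + 1), ‖f x‖ = ‖f x‖ := by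
    rw [setIntegral_const]
    simp [Real.volume_real_Ioc_of_le hx]
  rw [← h4]
  have hi1 : IntegrableOn (fun t => 1 / 2 + ‖f t‖ ^ 2 / 2) (Ioc x (x + 1)) :=
    (integrableOn_const (by simp)).add (hf2.div_const 2).integrableOn
  have hi2 : IntegrableOn (fun t => 1 / 2 + ‖f t‖ ^ 2 / 2 + (1 / 2 + B / 2)) (Ioc x (x + 1)) :=
    hi1.add (integrableOn_const (by simp))
  calc ∫ _ in Ioc x (x + 1), ‖f x‖ ≤
        ∫ t in Ioc x (x + 1), (1 / 2 + ‖f t‖ ^ 2 / 2 + (1 / 2 + B / 2)) := by
        refine setIntegral_mono_on (integrableOn_const (by simp)) hi2 measurableSet_Ioc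
          (fun t ht => ?_)
        have := hdiff x t ht.1.le ht.2
        have := norm_le_half_one_add_sq ‖f t‖
        linarith
    _ = (∫ t in Ioc x (x + 1), (1 / 2 + ‖f t‖ ^ 2 / 2))
          + ∫ t in Ioc x (x + 1), (1 / 2 + B / 2) :=
        integral_add hi1 (integrableOn_const (by simp))
    _ = (∫ t in Ioc x (x + 1), (1 / 2 : ℝ)) + (∫ t in Ioc x (x + 1), ‖f t‖ ^ 2 / 2)
          + ∫ t in Ioc x (x + 1), (1 / 2 + B / 2) := by
        have h7 : ∫ t in Ioc x (x + 1), (1 / 2 + ‖f t‖ ^ 2 / 2)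
            = (∫ t in Ioc x (x + 1), (1 / 2 : ℝ)) + (∫ t in Ioc x (x + 1), ‖f t‖ ^ 2 / 2) :=
          integral_add (integrableOn_const (by simp)) (hf2.div_const 2).integrableOn
        rw [h7]
    _ ≤ _ := by
        have h3 : ∫ t in Ioc x (x + 1), ‖f t‖ ^ 2 / 2 ≤ A / 2 := by
          rw [integral_div]
          refine div_le_div_of_nonneg_right ?_ (by norm_num)
          exact setIntegral_le_integral hf2 (Filter.Eventually.of_forall fun t => by positivity)
        have h5 : (∫ t in Ioc x (x + 1), (1 / 2 : ℝ)) = 1 / 2 := by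
          rw [setIntegral_const]
          simp [Real.volume_real_Ioc_of_le hx]
        have h6 : (∫ t in Ioc x (x + 1), (1 / 2 + B / 2)) = 1 / 2 + B / 2 := by
          rw [setIntegral_const]
          simp [Real.volume_real_Ioc_of_le hx]
        rw [h5, h6]
        linarith

theorem IsH1.bounded {m : ℕ} {ψ dψ : ℝ → Fin m → ℂ} (h : IsH1 ψ dψ) :
    ∃ C, 0 ≤ C ∧ ∀ x i, ‖ψ x i‖ ≤ C := by
  choose C hC0 hC using fun i => bounded_of_ftc (h.memLp i) (h.memLp_deriv i) (h.ftc i)
  refine ⟨∑ i, C i, Finset.sum_nonneg fun i _ => hC0 i, fun x i => (hC i x).trans ?_⟩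
  exact Finset.single_le_sum (f := C) (fun i _ => hC0 i) (Finset.mem_univ i)

theorem IsH1.smul {m : ℕ} {ψ dψ : ℝ → Fin m → ℂ} (h : IsH1 ψ dψ) (c : ℂ) :
    IsH1 (fun x i => c * ψ x i) (fun x i => c * dψ x i) where
  memLp i := (h.memLp i).const_mul c
  memLp_deriv i := (h.memLp_deriv i).const_mul c
  ftc i a b := by
    rw [intervalIntegral.integral_const_mul, ← h.ftc i a b]
    ring

end Vale.LT
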