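import Mathlib

/-!
P371, Task A: the two finite-dimensional positivity lemmas.
-/

open Matrix Filter Topology
open scoped ComplexOrder

namespace Vale.LT

/-! ### multipliers of positive semidefinite matrices -/

/-- real kernels that preserve positive semidefiniteness by entrywise multiplication -/
def KMult {N : ℕ} (K : Fin N → Fin N → ℝ) : Prop :=
  ∀ P : Matrix (Fin N) (Fin N) ℂ, P.PosSemidef →
    (Matrix.of fun i k => P i k * ((K i k : ℝ) : ℂ)).PosSemidef

theorem KMult.one {N : ℕ} : KMult (fun _ _ : Fin N => 1) := by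
  intro P hP
  have : (Matrix.of fun i k => P i k * ((1 : ℝ) : ℂ)) = P := by
    ext i k; simp
  rw [this]; exact hP

theorem KMult.add {N : ℕ} {K L : Fin N → Fin N → ℝ} (hK : KMult K) (hL : KMult L) :
    KMult (fun i k => K i k + L i k) := by
  intro P hP
  have : (Matrix.of fun i k => P i k * ((K i k + L i k : ℝ) : ℂ))
      = (Matrix.of fun i k => P i k * ((K i k : ℝ) : ℂ))
        + (Matrix.of fun i k => P i k * ((L i k : ℝ) : ℂ)) := by
    ext i k; simp [mul_add]
  rw [this]; exact (hK P hP).add (hL P hP)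

theorem KMult.mul {N : ℕ} {K L : Fin N → Fin N → ℝ} (hK : KMult K) (hL : KMult L) :
    KMult (fun i k => K i k * L i k) := by
  intro P hP
  have h := hL _ (hK P hP)
  have h2 : (Matrix.of fun i k => P i k * ((K i k * L i k : ℝ) : ℂ))
      = (Matrix.of fun i k => (Matrix.of fun i k => P i k * ((K i k : ℝ) : ℂ)) i k
          * ((L i k : ℝ) : ℂ)) := by
    ext i k; simp [mul_assoc]
  rw [h2]; exact h

theorem KMult.diag {N : ℕ} (d : Fin N → ℝ) : KMult (fun i k => d i * d k) := by
  intro P hP
  have h := hP.conjTranspose_mul_mul_same (Matrix.diagonal (fun i => ((d i : ℝ) : ℂ)))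
  have h2 : (Matrix.of fun i k => P i k * ((d i * d k : ℝ) : ℂ))
      = (Matrix.diagonal (fun i => ((d i : ℝ) : ℂ)))ᴴ * P
        * Matrix.diagonal (fun i => ((d i : ℝ) : ℂ)) := by
    ext i k
    rw [Matrix.mul_diagonal, Matrix.diagonal_conjTranspose, Matrix.diagonal_mul]
    simp
    ring
  rw [h2]; exact h

theorem KMult.congr {N : ℕ} {K L : Fin N → Fin N → ℝ} (hK : KMult K)
    (h : ∀ i k, L i k = K i k) : KMult L := by
  have : L = K := by funext i k; exact h i k
  rw [this]; exact hK

theorem KMult.zero {N : ℕ} : KMult (fun _ _ : Fin N => 0) :=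
  (KMult.diag (fun _ => 0)).congr (fun _ _ => by simp)

theorem KMult.smul {N : ℕ} {K : Fin N → Fin N → ℝ} (hK : KMult K) {c : ℝ} (hc : 0 ≤ c) :
    KMult (fun i k => c * K i k) :=
  ((KMult.diag (fun _ => √c)).mul hK).congr (fun i k => by rw [Real.mul_self_sqrt hc])

theorem posSemidef_of_tendsto {N : ℕ} {M : ℕ → Matrix (Fin N) (Fin N) ℂ}
    {A : Matrix (Fin N) (Fin N) ℂ} (hM : ∀ n, (M n).PosSemidef)
    (h : ∀ i k, Tendsto (fun n => M n i k) atTop (𝓝 (A i k))) : A.PosSemidef := by
  have hlim : Tendsto M atTop (𝓝 A) := tendsto_pi_nhds.2 fun i => tendsto_pi_nhds.2 fun k => h i k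
  refine Matrix.PosSemidef.of_dotProduct_mulVec_nonneg ?_ ?_
  · have h1 : Tendsto (fun n => (M n)ᴴ) atTop (𝓝 Aᴴ) :=
      (continuous_id.matrix_conjTranspose.tendsto A).comp hlim
    have h2 : (fun n => (M n)ᴴ) = M := by
      funext n; exact (hM n).isHermitian
    rw [h2] at h1
    exact tendsto_nhds_unique h1 hlim
  · intro x
    have h1 : Tendsto (fun n => star x ⬝ᵥ (M n *ᵥ x)) atTop (𝓝 (star x ⬝ᵥ (A *ᵥ x))) := by
      have hc : Continuous fun B : Matrix (Fin N) (Fin N) ℂ => star x ⬝ᵥ (B *ᵥ x) := by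
        fun_prop
      exact (hc.tendsto A).comp hlim
    exact ge_of_tendsto' h1 fun n => (hM n).dotProduct_mulVec_nonneg x

theorem KMult.of_tendsto {N : ℕ} {K : ℕ → Fin N → Fin N → ℝ} {L : Fin N → Fin N → ℝ}
    (hK : ∀ n, KMult (K n)) (h : ∀ i k, Tendsto (fun n => K n i k) atTop (𝓝 (L i k))) :
    KMult L := by
  intro P hP
  refine posSemidef_of_tendsto (fun n => hK n P hP) (fun i k => ?_)
  exact ((Complex.continuous_ofReal.tendsto _).comp (h i k)).const_mul (P i k)

theorem KMult.geom {N : ℕ} (a : Fin N → ℝ) (ha : ∀ i, |a i| < 1) :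
    KMult (fun i k => 1 / (1 - a i * a k)) := by
  have h1 : ∀ n : ℕ, KMult (fun i k : Fin N => ∑ m ∈ Finset.range n, (a i * a k) ^ m) := by
    intro n
    induction n with
    | zero => simpa using KMult.zero
    | succ n ih =>
      refine (ih.add (KMult.diag (fun i => a i ^ n))).congr (fun i k => ?_)
      rw [Finset.sum_range_succ, mul_pow]
  refine KMult.of_tendsto h1 (fun i k => ?_)
  have h2 : |a i * a k| < 1 := by
    rw [abs_mul]
    calc |a i| * |a k| ≤ |a i| * 1 := mul_le_mul_of_nonneg_left (ha k).le (abs_nonneg _)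
      _ < 1 := by rw [mul_one]; exact ha i
  have h3 := (hasSum_geometric_of_abs_lt_one h2).tendsto_sum_nat
  rw [one_div]
  exact h3

theorem closed_midpoint {S : Set ℝ} (hS : IsClosed S) (h0 : (0 : ℝ) ∈ S) (h1 : (1 : ℝ) ∈ S)
    (hmid : ∀ s ∈ S, ∀ t ∈ S, 0 ≤ s → s ≤ t → t ≤ 1 → (s + t) / 2 ∈ S) :
    ∀ t, 0 ≤ t → t ≤ 1 → t ∈ S := by
  intro t ht0 ht1
  by_contra ht
  set A : Set ℝ := S ∩ Set.Icc 0 t with hA
  set B : Set ℝ := S ∩ Set.Icc t 1 with hB
  have hAne : A.Nonempty := ⟨0, h0, le_rfl, ht0⟩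
  have hBne : B.Nonempty := ⟨1, h1, ht1, le_rfl⟩
  have hAb : BddAbove A := ⟨t, fun x hx => hx.2.2⟩
  have hBb : BddBelow B := ⟨t, fun x hx => hx.2.1⟩
  have ha := (hS.inter isClosed_Icc).csSup_mem hAne hAb
  have hb := (hS.inter isClosed_Icc).csInf_mem hBne hBb
  set a := sSup A
  set b := sInf B
  have hat : a < t := lt_of_le_of_ne ha.2.2 (fun h => ht (h ▸ ha.1))
  have htb : t < b := lt_of_le_of_ne hb.2.1 (fun h => ht (h ▸ hb.1))
  have hm := hmid a ha.1 b hb.1 ha.2.1 (by linarith) hb.2.2
  rcases le_total ((a + b) / 2) t with h | h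
  · have : (a + b) / 2 ≤ a := le_csSup hAb ⟨hm, by linarith [ha.2.1], h⟩
    linarith
  · have : b ≤ (a + b) / 2 := csInf_le hBb ⟨hm, h, by linarith [hb.2.2]⟩
    linarith

/-- A1.  `P ∘ sin(t (g_i+g_k) + (1-t) c) / sin(g_i+g_k)` is positive semidefinite. -/
theorem psd_kernel {N : ℕ} (P : Matrix (Fin N) (Fin N) ℂ) (hP : P.PosSemidef) (g : Fin N → ℝ)
    (hg : ∀ i, 0 < g i ∧ g i < Real.pi / 2) (c : ℝ) (hc : 0 ≤ c ∧ c ≤ Real.pi)
    (t : ℝ) (ht : 0 ≤ t ∧ t ≤ 1) :
    (Matrix.of fun i k => P i k *
      ((Real.sin (t * (g i + g k) + (1 - t) * c) / Real.sin (g i + g k) : ℝ) : ℂ)).PosSemidef := by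
  have hsin : ∀ i k, 0 < Real.sin (g i + g k) := fun i k =>
    Real.sin_pos_of_pos_of_lt_pi (by linarith [(hg i).1, (hg k).1])
      (by linarith [(hg i).2, (hg k).2])
  set H : ℝ → Fin N → Fin N → ℝ := fun t i k =>
    Real.sin (t * (g i + g k) + (1 - t) * c) / Real.sin (g i + g k) with hH
  set S : Set ℝ := {t | KMult (H t)} with hS
  have hcl : IsClosed S := by
    apply IsSeqClosed.isClosed
    intro x y hx hxy
    refine KMult.of_tendsto hx (fun i k => ?_)
    have hcont : Continuous fun t => H t i k := by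
      simp only [hH]
      fun_prop
    exact (hcont.tendsto y).comp hxy
  have h1 : (1 : ℝ) ∈ S := by
    refine KMult.one.congr (fun i k => ?_)
    simp only [hH]
    rw [one_mul, sub_self, zero_mul, add_zero, div_self (hsin i k).ne']
  have h0 : (0 : ℝ) ∈ S := by
    have hpos : ∀ i, 0 < Real.cos (g i) + Real.sin (g i) := fun i =>
      add_pos (Real.cos_pos_of_mem_Ioo ⟨by linarith [(hg i).1, Real.pi_pos], (hg i).2⟩)
        (Real.sin_pos_of_pos_of_lt_pi (hg i).1 (by linarith [(hg i).2, Real.pi_pos]))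
    set u : Fin N → ℝ := fun i =>
      (Real.cos (g i) - Real.sin (g i)) / (Real.cos (g i) + Real.sin (g i)) with hu
    have hu1 : ∀ i, |u i| < 1 := by
      intro i
      have hc' : 0 < Real.cos (g i) :=
        Real.cos_pos_of_mem_Ioo ⟨by linarith [(hg i).1, Real.pi_pos], (hg i).2⟩
      have hs' : 0 < Real.sin (g i) :=
        Real.sin_pos_of_pos_of_lt_pi (hg i).1 (by linarith [(hg i).2, Real.pi_pos])
      simp only [hu]
      rw [abs_div, abs_of_pos (hpos i), div_lt_one (hpos i), abs_lt]
      constructor <;> linarith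
    have hsc : 0 ≤ Real.sin c := Real.sin_nonneg_of_nonneg_of_le_pi hc.1 hc.2
    refine ((((KMult.diag (fun i => 1 / (Real.cos (g i) + Real.sin (g i)))).mul
      (KMult.geom u hu1)).smul (c := 2) (by norm_num)).smul hsc).congr (fun i k => ?_)
    simp only [hH]
    have hi := (hpos i).ne'
    have hk := (hpos k).ne'
    have e1 : 1 - u i * u k = 2 * Real.sin (g i + g k) /
        ((Real.cos (g i) + Real.sin (g i)) * (Real.cos (g k) + Real.sin (g k))) := by
      simp only [hu]
      rw [Real.sin_add]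
      field_simp
      ring
    rw [e1]
    have hs := (hsin i k).ne'
    rw [zero_mul, zero_add, sub_zero, one_mul]
    field_simp
  have hmid : ∀ s ∈ S, ∀ t ∈ S, 0 ≤ s → s ≤ t → t ≤ 1 → (s + t) / 2 ∈ S := by
    intro s hs t ht hs0 hst ht1
    set d : ℝ := (s - t) / 2 with hd
    set x : Fin N → ℝ := fun i => d * (g i - c / 2) with hx
    have hd1 : |d| ≤ 1 / 2 := by
      rw [hd, abs_le]; constructor <;> linarith
    have hx1 : ∀ i, |x i| < Real.pi / 4 := by
      intro i
      simp only [hx]
      rw [abs_mul]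
      have h2 : |g i - c / 2| < Real.pi / 2 := by
        rw [abs_lt]
        constructor
        · linarith [(hg i).1, hc.2]
        · linarith [(hg i).2, hc.1]
      calc |d| * |g i - c / 2| ≤ 1 / 2 * |g i - c / 2| :=
            mul_le_mul_of_nonneg_right hd1 (abs_nonneg _)
        _ < 1 / 2 * (Real.pi / 2) := by linarith
        _ = Real.pi / 4 := by ring
    have hcos : ∀ i, 0 < Real.cos (x i) := fun i => by
      have := abs_lt.1 (hx1 i)
      exact Real.cos_pos_of_mem_Ioo ⟨by linarith [Real.pi_pos], by linarith [Real.pi_pos]⟩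
    have htan : ∀ i, |Real.tan (x i)| < 1 := by
      intro i
      have h3 := abs_lt.1 (hx1 i)
      rw [abs_lt]
      constructor
      · have := Real.tan_lt_tan_of_lt_of_lt_pi_div_two (x := -(Real.pi / 4)) (y := x i)
          (by linarith [Real.pi_pos]) (by linarith [Real.pi_pos]) (by linarith)
        rw [Real.tan_neg, Real.tan_pi_div_four] at this
        exact this
      · have := Real.tan_lt_tan_of_lt_of_lt_pi_div_two (x := x i) (y := Real.pi / 4)
          (by linarith [Real.pi_pos]) (by linarith [Real.pi_pos]) (by linarith)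
        rw [Real.tan_pi_div_four] at this
        exact this
    have hM := ((hs.add ht).mul ((KMult.diag (fun i => 1 / Real.cos (x i))).mul
      (KMult.geom (fun i => Real.tan (x i)) htan))).smul (c := 1 / 2) (by norm_num)
    refine hM.congr (fun i k => ?_)
    have e1 : Real.cos (x i) * Real.cos (x k) * (1 - Real.tan (x i) * Real.tan (x k))
        = Real.cos (d * (g i + g k - c)) := by
      have : d * (g i + g k - c) = x i + x k := by simp only [hx]; ring
      rw [this, Real.cos_add, Real.tan_eq_sin_div_cos, Real.tan_eq_sin_div_cos]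
      have := (hcos i).ne'
      have := (hcos k).ne'
      field_simp
    have hti : 0 < 1 - Real.tan (x i) * Real.tan (x k) := by
      have h4 : |Real.tan (x i) * Real.tan (x k)| < 1 := by
        rw [abs_mul]
        calc |Real.tan (x i)| * |Real.tan (x k)| ≤ |Real.tan (x i)| * 1 :=
              mul_le_mul_of_nonneg_left (htan k).le (abs_nonneg _)
          _ < 1 := by rw [mul_one]; exact htan i
      linarith [(abs_lt.1 h4).2]
    have hcd : 0 < Real.cos (d * (g i + g k - c)) := by
      rw [← e1]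
      exact mul_pos (mul_pos (hcos i) (hcos k)) hti
    have e2 : 1 / Real.cos (x i) * (1 / Real.cos (x k)) *
        (1 / (1 - Real.tan (x i) * Real.tan (x k))) = 1 / Real.cos (d * (g i + g k - c)) := by
      rw [← e1]
      have := (hcos i).ne'
      have := (hcos k).ne'
      have := hti.ne'
      field_simp
    rw [e2]
    simp only [hH]
    have e3 : Real.sin (s * (g i + g k) + (1 - s) * c) + Real.sin (t * (g i + g k) + (1 - t) * c)
        = 2 * Real.sin ((s + t) / 2 * (g i + g k) + (1 - (s + t) / 2) * c)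
          * Real.cos (d * (g i + g k - c)) := by
      have ha : s * (g i + g k) + (1 - s) * c
          = ((s + t) / 2 * (g i + g k) + (1 - (s + t) / 2) * c) + d * (g i + g k - c) := by
        rw [hd]; ring
      have hb : t * (g i + g k) + (1 - t) * c
          = ((s + t) / 2 * (g i + g k) + (1 - (s + t) / 2) * c) - d * (g i + g k - c) := by
        rw [hd]; ring
      rw [ha, hb, Real.sin_add, Real.sin_sub]
      ring
    rw [← add_div, e3]
    have := hcd.ne'
    have := (hsin i k).ne'
    field_simp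
  exact closed_midpoint hcl h0 h1 hmid t ht.1 ht.2 P hP

/-! ### further multipliers -/

theorem KMult.cosSub {N : ℕ} (x : Fin N → ℝ) : KMult (fun i k => Real.cos (x i - x k)) :=
  ((KMult.diag (fun i => Real.cos (x i))).add (KMult.diag (fun i => Real.sin (x i)))).congr
    (fun _ _ => Real.cos_sub _ _)

theorem sinc_two_mul (y : ℝ) : Real.sinc (2 * y) = Real.cos y * Real.sinc y := by
  by_cases hy : y = 0
  · subst hy; simp
  · rw [Real.sinc_of_ne_zero hy, Real.sinc_of_ne_zero (by positivity), Real.sin_two_mul]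
    field_simp

theorem KMult.sincSub {N : ℕ} (x : Fin N → ℝ) : KMult (fun i k => Real.sinc (x i - x k)) := by
  let C : ℕ → ℝ → ℝ := fun n z => ∏ m ∈ Finset.range n, Real.cos (z / 2 ^ (m + 1))
  have hC : ∀ n z, Real.sinc z = C n z * Real.sinc (z / 2 ^ n) := by
    intro n z
    induction n with
    | zero => simp [C]
    | succ n ih =>
      rw [ih]
      have h1 : z / 2 ^ n = 2 * (z / 2 ^ (n + 1)) := by
        rw [pow_succ]; field_simp
      simp only [C]
      rw [Finset.prod_range_succ, h1, sinc_two_mul]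
      ring
  have hK : ∀ n, KMult (fun i k : Fin N => C n (x i - x k)) := by
    intro n
    induction n with
    | zero => simpa [C] using KMult.one
    | succ n ih =>
      refine (ih.mul (KMult.cosSub (fun i => x i / 2 ^ (n + 1)))).congr (fun i k => ?_)
      simp only [C]
      rw [Finset.prod_range_succ, sub_div]
  refine KMult.of_tendsto hK (fun i k => ?_)
  set z := x i - x k
  have hz : Tendsto (fun n : ℕ => z / 2 ^ n) atTop (𝓝 0) := by
    have := (tendsto_pow_atTop_nhds_zero_of_lt_one (r := (1 / 2 : ℝ)) (by norm_num)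
      (by norm_num)).const_mul z
    rw [mul_zero] at this
    refine this.congr fun n => ?_
    rw [one_div, inv_pow]; rfl
  have hs : Tendsto (fun n : ℕ => Real.sinc (z / 2 ^ n)) atTop (𝓝 1) := by
    have := (Real.continuous_sinc.tendsto 0).comp hz
    rwa [Real.sinc_zero] at this
  have hd : Tendsto (fun n : ℕ => Real.sinc z / Real.sinc (z / 2 ^ n)) atTop
      (𝓝 (Real.sinc z / 1)) := tendsto_const_nhds.div hs one_ne_zero
  rw [div_one] at hd
  refine hd.congr' ?_
  have hne : ∀ᶠ n : ℕ in atTop, Real.sinc (z / 2 ^ n) ≠ 0 := hs.eventually_ne one_ne_zero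
  filter_upwards [hne] with n hn
  rw [hC n z, mul_div_assoc, div_self hn, mul_one]

/-! ### the integral formula -/

/-- `A(a,b) = ∫₀¹ sin 2(ta+(1-t)b) dt` -/
noncomputable def kA (a b : ℝ) : ℝ := Real.sin (a + b) * Real.sinc (a - b)

/-- the integrand -/
noncomputable def kI (a b c L : ℝ) : ℝ :=
  4 * L * (1 - L) * Real.sin (L * (a + b) + 2 * (1 - L) * c) * Real.sinc (L * (a - b))

theorem kA_mul {a b : ℝ} (h : a ≠ b) :
    kA a b = (Real.cos (2 * b) - Real.cos (2 * a)) / (2 * (a - b)) := by
  have h1 : a - b ≠ 0 := sub_ne_zero.2 h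
  unfold kA
  rw [Real.sinc_of_ne_zero h1]
  have h2 : Real.cos (2 * b) - Real.cos (2 * a) = 2 * (Real.sin (a + b) * Real.sin (a - b)) := by
    have e1 : Real.cos (2 * b) = Real.cos ((a + b) - (a - b)) := by congr 1; ring
    have e2 : Real.cos (2 * a) = Real.cos ((a + b) + (a - b)) := by congr 1; ring
    rw [e1, e2, Real.cos_sub (a + b), Real.cos_add (a + b)]; ring
  rw [h2]
  field_simp

theorem kJ {x c : ℝ} (h : x ≠ c) :
    ∫ L in (0 : ℝ)..1, 2 * (1 - L) * Real.cos (2 * (L * x + (1 - L) * c))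
      = (Real.cos (2 * c) - Real.cos (2 * x)) / (2 * (x - c) ^ 2)
        - Real.sin (2 * c) / (x - c) := by
  have hxc : x - c ≠ 0 := sub_ne_zero.2 h
  have hder : ∀ L ∈ Set.uIcc (0 : ℝ) 1, HasDerivAt
      (fun L => (1 - L) * Real.sin (2 * (L * x + (1 - L) * c)) / (x - c)
        - Real.cos (2 * (L * x + (1 - L) * c)) / (2 * (x - c) ^ 2))
      (2 * (1 - L) * Real.cos (2 * (L * x + (1 - L) * c))) L := by
    intro L _
    have hθ : HasDerivAt (fun L : ℝ => 2 * (L * x + (1 - L) * c)) (2 * (x - c)) L := by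
      have h1 : HasDerivAt (fun L : ℝ => L * x + (1 - L) * c) (x - c) L := by
        have := ((hasDerivAt_id L).mul_const x).add (((hasDerivAt_id L).const_sub 1).mul_const c)
        simp only [one_mul, neg_mul] at this
        convert! this using 1
      exact h1.const_mul 2
    have h2 := ((hasDerivAt_id L).const_sub 1).mul hθ.sin
    have h3 := (h2.div_const (x - c)).sub (hθ.cos.div_const (2 * (x - c) ^ 2))
    convert! h3 using 1
    simp only [id]
    field_simp
    ring
  rw [intervalIntegral.integral_eq_sub_of_hasDerivAt hder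
    (Continuous.intervalIntegrable (by fun_prop) _ _)]
  simp only [sub_self, zero_mul, zero_div, one_mul, add_zero, sub_zero, zero_add]
  ring

theorem kN_generic {a b c : ℝ} (hab : a ≠ b) (hac : a ≠ c) (hbc : b ≠ c) :
    kA a c + kA b c - kA a b - Real.sin (2 * c)
      = (a - c) * (b - c) * ∫ L in (0 : ℝ)..1, kI a b c L := by
  have h1 : a - b ≠ 0 := sub_ne_zero.2 hab
  have h2 : a - c ≠ 0 := sub_ne_zero.2 hac
  have h3 : b - c ≠ 0 := sub_ne_zero.2 hbc
  have hI : ∀ L, kI a b c L = (2 * (1 - L) * Real.cos (2 * (L * b + (1 - L) * c))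
      - 2 * (1 - L) * Real.cos (2 * (L * a + (1 - L) * c))) / (a - b) := by
    intro L
    unfold kI
    by_cases hL : L = 0
    · subst hL; simp
    · rw [Real.sinc_of_ne_zero (mul_ne_zero hL h1)]
      have e1 : Real.cos (2 * (L * b + (1 - L) * c))
          = Real.cos ((L * (a + b) + 2 * (1 - L) * c) - L * (a - b)) := by congr 1; ring
      have e2 : Real.cos (2 * (L * a + (1 - L) * c))
          = Real.cos ((L * (a + b) + 2 * (1 - L) * c) + L * (a - b)) := by congr 1; ring
      rw [e1, e2, Real.cos_sub (L * (a + b) + 2 * (1 - L) * c),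
        Real.cos_add (L * (a + b) + 2 * (1 - L) * c)]
      field_simp
      ring
  have hint : ∫ L in (0 : ℝ)..1, kI a b c L
      = ((∫ L in (0 : ℝ)..1, 2 * (1 - L) * Real.cos (2 * (L * b + (1 - L) * c)))
        - ∫ L in (0 : ℝ)..1, 2 * (1 - L) * Real.cos (2 * (L * a + (1 - L) * c))) / (a - b) := by
    simp only [hI]
    rw [intervalIntegral.integral_div, intervalIntegral.integral_sub
      (Continuous.intervalIntegrable (by fun_prop) _ _)
      (Continuous.intervalIntegrable (by fun_prop) _ _)]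
  rw [hint, kJ hac, kJ hbc, kA_mul hab, kA_mul hac, kA_mul hbc]
  field_simp
  ring

theorem continuous_kI (a c : ℝ) :
    Continuous fun p : (ℝ × ℝ) => kI a p.1 c p.2 := by
  unfold kI
  have h := Real.continuous_sinc
  fun_prop

theorem continuous_kI' (a b c : ℝ) : Continuous fun L : ℝ => kI a b c L := by
  unfold kI
  have h := Real.continuous_sinc
  fun_prop

theorem kA_symm (a b : ℝ) : kA a b = kA b a := by
  unfold kA
  rw [add_comm, ← Real.sinc_neg, neg_sub]

theorem kA_self (a : ℝ) : kA a a = Real.sin (2 * a) := by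
  unfold kA
  rw [sub_self, Real.sinc_zero, mul_one, two_mul]

theorem kN_all (a b c : ℝ) :
    kA a c + kA b c - kA a b - Real.sin (2 * c)
      = (a - c) * (b - c) * ∫ L in (0 : ℝ)..1, kI a b c L := by
  by_cases hac : a = c
  · subst hac
    rw [kA_self, kA_symm a b]
    ring
  have hA1 : Continuous fun b => kA a c + kA b c - kA a b - Real.sin (2 * c) := by
    unfold kA
    have h := Real.continuous_sinc
    fun_prop
  have hA2 : Continuous fun b => (a - c) * (b - c) * ∫ L in (0 : ℝ)..1, kI a b c L := by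
    have h1 : Continuous fun b => ∫ L in (0 : ℝ)..1, kI a b c L :=
      intervalIntegral.continuous_parametric_intervalIntegral_of_continuous'
        (continuous_kI a c) 0 1
    fun_prop
  have hd : Dense (({a, c} : Set ℝ)ᶜ) := (Set.toFinite _).countable.dense_compl ℝ
  refine congrFun (Continuous.ext_on hd hA1 hA2 (fun x hx => ?_)) b
  simp only [Set.mem_compl_iff, Set.mem_insert_iff, Set.mem_singleton_iff, not_or] at hx
  exact kN_generic (Ne.symm hx.1) hac hx.2

theorem sum_cyc {N : ℕ} (f : Fin N → Fin N → Fin N → ℝ) :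
    ∑ i, ∑ k, ∑ l, f i k l = ∑ i, ∑ k, ∑ l, f k l i := by
  rw [Finset.sum_comm (s := Finset.univ) (t := Finset.univ)
    (f := fun i k => ∑ l, f k l i)]
  refine Finset.sum_congr rfl fun k _ => ?_
  rw [Finset.sum_comm]

/-- the quadratic form estimate for one value of the interpolation parameter -/
theorem quad_L {N : ℕ} (P : Matrix (Fin N) (Fin N) ℂ) (hP : P.PosSemidef) (g : Fin N → ℝ)
    (hg : ∀ i, 0 < g i ∧ g i < Real.pi / 2) (l : Fin N) (L : ℝ) (hL : 0 ≤ L ∧ L ≤ 1) :
    0 ≤ ∑ i, ∑ k, (P i k * P k l * P l i).re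
      / (Real.sin (g i + g k) * Real.sin (g k + g l) * Real.sin (g l + g i))
      * ((g i - g l) * (g k - g l) * kI (g i) (g k) (g l) L) := by
  have h1 : KMult (fun i k : Fin N => Real.sin (L * (g i + g k) + (1 - L) * (2 * g l))
      / Real.sin (g i + g k)) := fun P hP =>
    psd_kernel P hP g hg (2 * g l) ⟨by linarith [(hg l).1], by linarith [(hg l).2]⟩ L hL
  have h2 : KMult (fun i k : Fin N => Real.sinc (L * g i - L * g k)) :=
    KMult.sincSub (fun i => L * g i)
  have h3 : 0 ≤ 4 * L * (1 - L) := mul_nonneg (by linarith [hL.1]) (by linarith [hL.2])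
  have h4 := (((KMult.diag (fun i => g i - g l)).mul (h1.mul h2)).smul h3) P hP
  have h5 := h4.dotProduct_mulVec_nonneg
    (fun i => P i l / ((Real.sin (g i + g l) : ℝ) : ℂ))
  have h6 := (Complex.le_def.1 h5).1
  have h7 : (star (fun i => P i l / ((Real.sin (g i + g l) : ℝ) : ℂ)) ⬝ᵥ
      (Matrix.of (fun i k => P i k * ((4 * L * (1 - L) * ((g i - g l) * (g k - g l) *
        (Real.sin (L * (g i + g k) + (1 - L) * (2 * g l)) / Real.sin (g i + g k) *
          Real.sinc (L * g i - L * g k))) : ℝ) : ℂ)) *ᵥ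
        (fun i => P i l / ((Real.sin (g i + g l) : ℝ) : ℂ)))).re
      = ∑ i, ∑ k, (P i k * P k l * P l i).re
      / (Real.sin (g i + g k) * Real.sin (g k + g l) * Real.sin (g l + g i))
      * ((g i - g l) * (g k - g l) * kI (g i) (g k) (g l) L) := by
    simp only [dotProduct, Matrix.mulVec, Finset.mul_sum, Complex.re_sum, Matrix.of_apply,
      Pi.star_apply]
    refine Finset.sum_congr rfl fun i _ => Finset.sum_congr rfl fun k _ => ?_
    have hh : star (P i l) = P l i := hP.isHermitian.apply l i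
    have e1 : star (P i l / ((Real.sin (g i + g l) : ℝ) : ℂ)) *
        (P i k * ((4 * L * (1 - L) * ((g i - g l) * (g k - g l) *
        (Real.sin (L * (g i + g k) + (1 - L) * (2 * g l)) / Real.sin (g i + g k) *
          Real.sinc (L * g i - L * g k))) : ℝ) : ℂ) *
          (P k l / ((Real.sin (g k + g l) : ℝ) : ℂ)))
        = (P i k * P k l * P l i) * (((4 * L * (1 - L) * ((g i - g l) * (g k - g l) *
        (Real.sin (L * (g i + g k) + (1 - L) * (2 * g l)) / Real.sin (g i + g k) *
          Real.sinc (L * g i - L * g k)))) / (Real.sin (g i + g l) * Real.sin (g k + g l)) : ℝ)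
            : ℂ) := by
      rw [star_div₀, hh]
      have : star ((Real.sin (g i + g l) : ℝ) : ℂ) = ((Real.sin (g i + g l) : ℝ) : ℂ) :=
        Complex.conj_ofReal _
      rw [this]
      push_cast
      ring
    rw [e1, Complex.re_mul_ofReal]
    unfold kI
    rw [add_comm (g l) (g i)]
    have e2 : L * g i - L * g k = L * (g i - g k) := by ring
    have e3 : L * (g i + g k) + (1 - L) * (2 * g l) = L * (g i + g k) + 2 * (1 - L) * g l := by
      ring
    rw [e2, e3]
    ring
  rw [h7] at h6
  exact h6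

/-- A2.  the cubic form behind the sharp dual inequality is nonnegative. -/
theorem cubic_nonneg {N : ℕ} (P : Matrix (Fin N) (Fin N) ℂ) (hP : P.PosSemidef)
    (g : Fin N → ℝ) (hg : ∀ i, 0 < g i ∧ g i < Real.pi / 2) :
    0 ≤ ∑ i, ∑ k, ∑ l, (P i k * P k l * P l i).re *
      ((Real.sinc (g i - g k) - Real.cos (g i - g k)) /
        (Real.sin (g i + g l) * Real.sin (g k + g l))) := by
  have hsin : ∀ i k, 0 < Real.sin (g i + g k) := fun i k =>
    Real.sin_pos_of_pos_of_lt_pi (by linarith [(hg i).1, (hg k).1])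
      (by linarith [(hg i).2, (hg k).2])
  set T : Fin N → Fin N → Fin N → ℝ := fun i k l => (P i k * P k l * P l i).re
      / (Real.sin (g i + g k) * Real.sin (g k + g l) * Real.sin (g l + g i)) with hT
  have hTc : ∀ i k l, T k l i = T i k l := by
    intro i k l
    simp only [hT]
    congr 1
    · congr 1; ring
    · ring
  -- positivity of the `N` sums
  have hN : ∀ l, 0 ≤ ∑ i, ∑ k, T i k l *
      (kA (g i) (g l) + kA (g k) (g l) - kA (g i) (g k) - Real.sin (2 * g l)) := by
    intro l
    have e : ∑ i, ∑ k, T i k l *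
        (kA (g i) (g l) + kA (g k) (g l) - kA (g i) (g k) - Real.sin (2 * g l))
        = ∫ L in (0 : ℝ)..1, ∑ i, ∑ k, T i k l *
          ((g i - g l) * (g k - g l) * kI (g i) (g k) (g l) L) := by
      have hc : ∀ i k, Continuous fun L : ℝ => T i k l *
          ((g i - g l) * (g k - g l) * kI (g i) (g k) (g l) L) := by
        intro i k
        have := continuous_kI' (g i) (g k) (g l)
        fun_prop
      rw [intervalIntegral.integral_finsetSum]
      · refine Finset.sum_congr rfl fun i _ => ?_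
        rw [intervalIntegral.integral_finsetSum]
        · refine Finset.sum_congr rfl fun k _ => ?_
          rw [intervalIntegral.integral_const_mul, intervalIntegral.integral_const_mul, kN_all]
        · intro k _
          exact (hc i k).intervalIntegrable _ _
      · intro i _
        exact (continuous_finsetSum _ fun k _ => hc i k).intervalIntegrable _ _
    rw [e]
    refine intervalIntegral.integral_nonneg (by norm_num) (fun L hL => ?_)
    exact quad_L P hP g hg l L hL
  have hN' : 0 ≤ ∑ i, ∑ k, ∑ l, T i k l *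
      (kA (g i) (g l) + kA (g k) (g l) - kA (g i) (g k) - Real.sin (2 * g l)) := by
    have e : ∑ i, ∑ k, ∑ l, T i k l *
      (kA (g i) (g l) + kA (g k) (g l) - kA (g i) (g k) - Real.sin (2 * g l))
      = ∑ l, ∑ i, ∑ k, T i k l *
      (kA (g i) (g l) + kA (g k) (g l) - kA (g i) (g k) - Real.sin (2 * g l)) := by
      rw [Finset.sum_comm (s := Finset.univ) (t := Finset.univ)
        (f := fun l i => ∑ k, T i k l *
        (kA (g i) (g l) + kA (g k) (g l) - kA (g i) (g k) - Real.sin (2 * g l)))]
      refine Finset.sum_congr rfl fun i _ => ?_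
      rw [Finset.sum_comm]
    rw [e]
    exact Finset.sum_nonneg fun l _ => hN l
  -- cyclic relabelling
  have hX1 : ∑ i, ∑ k, ∑ l, T i k l * kA (g i) (g k)
      = ∑ i, ∑ k, ∑ l, T i k l * kA (g k) (g l) := by
    rw [sum_cyc (fun i k l => T i k l * kA (g i) (g k))]
    simp only [hTc]
  have hX2 : ∑ i, ∑ k, ∑ l, T i k l * kA (g k) (g l)
      = ∑ i, ∑ k, ∑ l, T i k l * kA (g i) (g l) := by
    rw [sum_cyc (fun i k l => T i k l * kA (g k) (g l))]
    simp only [hTc]
    refine Finset.sum_congr rfl fun i _ => Finset.sum_congr rfl fun k _ =>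
      Finset.sum_congr rfl fun l _ => ?_
    rw [kA_symm]
  have hY1 : ∑ i, ∑ k, ∑ l, T i k l * Real.sin (2 * g i)
      = ∑ i, ∑ k, ∑ l, T i k l * Real.sin (2 * g k) := by
    rw [sum_cyc (fun i k l => T i k l * Real.sin (2 * g i))]
    simp only [hTc]
  have hY2 : ∑ i, ∑ k, ∑ l, T i k l * Real.sin (2 * g k)
      = ∑ i, ∑ k, ∑ l, T i k l * Real.sin (2 * g l) := by
    rw [sum_cyc (fun i k l => T i k l * Real.sin (2 * g k))]
    simp only [hTc]
  have hL : ∑ i, ∑ k, ∑ l, T i k l *
      (kA (g i) (g l) + kA (g k) (g l) - kA (g i) (g k) - Real.sin (2 * g l))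
      = ∑ i, ∑ k, ∑ l, T i k l * kA (g i) (g l) + ∑ i, ∑ k, ∑ l, T i k l * kA (g k) (g l)
        - ∑ i, ∑ k, ∑ l, T i k l * kA (g i) (g k)
        - ∑ i, ∑ k, ∑ l, T i k l * Real.sin (2 * g l) := by
    simp only [← Finset.sum_add_distrib, ← Finset.sum_sub_distrib]
    refine Finset.sum_congr rfl fun i _ => Finset.sum_congr rfl fun k _ =>
      Finset.sum_congr rfl fun l _ => ?_
    ring
  have hR : ∑ i, ∑ k, ∑ l, (P i k * P k l * P l i).re *
      ((Real.sinc (g i - g k) - Real.cos (g i - g k)) /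
        (Real.sin (g i + g l) * Real.sin (g k + g l)))
      = ∑ i, ∑ k, ∑ l, T i k l * kA (g i) (g k)
        - (∑ i, ∑ k, ∑ l, T i k l * Real.sin (2 * g i)
          + ∑ i, ∑ k, ∑ l, T i k l * Real.sin (2 * g k)) / 2 := by
    simp only [← Finset.sum_add_distrib, ← Finset.sum_sub_distrib, Finset.sum_div]
    refine Finset.sum_congr rfl fun i _ => Finset.sum_congr rfl fun k _ =>
      Finset.sum_congr rfl fun l _ => ?_
    have h1 := (hsin i k).ne'
    have h2 := (hsin k l).ne'
    have h3 := (hsin l i).ne'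
    have e1 : Real.sin (2 * g i) + Real.sin (2 * g k)
        = 2 * (Real.sin (g i + g k) * Real.cos (g i - g k)) := by
      have e1 : Real.sin (2 * g i) = Real.sin ((g i + g k) + (g i - g k)) := by congr 1; ring
      have e2 : Real.sin (2 * g k) = Real.sin ((g i + g k) - (g i - g k)) := by congr 1; ring
      rw [e1, e2, Real.sin_sub (g i + g k), Real.sin_add (g i + g k)]; ring
    have e2 : T i k l * kA (g i) (g k)
        - (T i k l * Real.sin (2 * g i) + T i k l * Real.sin (2 * g k)) / 2
        = T i k l * (kA (g i) (g k) - (Real.sin (2 * g i) + Real.sin (2 * g k)) / 2) := by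
      ring
    rw [e2, e1]
    simp only [hT, kA]
    rw [add_comm (g i) (g l)]
    field_simp
  rw [hR]
  rw [hL] at hN'
  linarith

end Vale.LT
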