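import Vale.Agent.H1.LT.TraceFun
import Vale.Agent.H1.LT.H1Aux

/-!
P371, Task F: the lower bound (Keller's one-bound-state potential
`W = (γ^2 - 1/4) sech^2 x` in the first channel, eigenfunction `sech^(γ-1/2)`,
eigenvalue `-(γ-1/2)^2`).
-/

open MeasureTheory Matrix Set
open scoped ENNReal ComplexOrder

namespace Vale.LT

/-- the real beta integral -/
theorem real_beta (α β : ℝ) (hα : 0 < α) (hβ : 0 < β) :
    ∫ y in Ioo (0 : ℝ) 1, y ^ (α - 1) * (1 - y) ^ (β - 1)
      = Real.Gamma α * Real.Gamma β / Real.Gamma (α + β) := by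
  have h := ProbabilityTheory.beta_eq_betaIntegralReal α β hα hβ
  unfold ProbabilityTheory.beta at h
  rw [h, Complex.betaIntegral, intervalIntegral.integral_of_le zero_le_one,
    integral_Ioc_eq_integral_Ioo]
  have h2 : ∫ x in Ioo (0 : ℝ) 1, (x : ℂ) ^ ((α : ℂ) - 1) * (1 - (x : ℂ)) ^ ((β : ℂ) - 1)
      = ∫ x in Ioo (0 : ℝ) 1, ((x ^ (α - 1) * (1 - x) ^ (β - 1) : ℝ) : ℂ) := by
    refine setIntegral_congr_fun measurableSet_Ioo (fun x hx => ?_)
    rw [Complex.ofReal_mul, Complex.ofReal_cpow hx.1.le,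
      Complex.ofReal_cpow (by linarith [hx.2])]
    push_cast
    rfl
  have h3 : ∫ x in Ioo (0 : ℝ) 1, ((x ^ (α - 1) * (1 - x) ^ (β - 1) : ℝ) : ℂ)
      = ((∫ x in Ioo (0 : ℝ) 1, x ^ (α - 1) * (1 - x) ^ (β - 1) : ℝ) : ℂ) := integral_ofReal
  rw [h2, h3, Complex.ofReal_re]

theorem sigmoid_two_mul (x : ℝ) :
    Real.sigmoid (2 * x) * (1 - Real.sigmoid (2 * x)) = (1 / Real.cosh x) ^ 2 / 4 := by
  rw [← Real.sigmoid_neg, Real.sigmoid_def, Real.sigmoid_def, Real.cosh_eq]
  have e1 : Real.exp (-(2 * x)) = Real.exp (-x) * Real.exp (-x) := by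
    rw [← Real.exp_add]; congr 1; ring
  have e2 : Real.exp (-(-(2 * x))) = Real.exp x * Real.exp x := by
    rw [← Real.exp_add]; congr 1; ring
  have e3 : Real.exp x * Real.exp (-x) = 1 := by rw [← Real.exp_add]; simp
  rw [e1, e2]
  have h1 := Real.exp_pos x
  have h2 := Real.exp_pos (-x)
  set p := Real.exp x
  set q := Real.exp (-x)
  have h3 : 0 < 1 + q * q := by positivity
  have h4 : 0 < 1 + p * p := by positivity
  have h5 : 0 < p + q := by positivity
  have h6 : (1 + q * q) * (1 + p * p) = (p + q) ^ 2 := by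
    linear_combination (p * q - 1) * e3
  rw [← mul_inv, h6]
  field_simp
  ring

/-- F1. the integral. -/
theorem integral_sech_rpow (a : ℝ) (ha : 0 < a) :
    ∫ x : ℝ, (1 / Real.cosh x) ^ a = √Real.pi * Real.Gamma (a / 2) / Real.Gamma ((a + 1) / 2) := by
  have hd : ∀ x ∈ (univ : Set ℝ), HasDerivWithinAt (fun x => Real.sigmoid (2 * x))
      (Real.sigmoid (2 * x) * (1 - Real.sigmoid (2 * x)) * 2) univ x := by
    intro x _
    have h1 : HasDerivAt (fun x : ℝ => 2 * x) 2 x := by
      simpa using (hasDerivAt_id x).const_mul 2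
    exact ((Real.hasDerivAt_sigmoid (2 * x)).comp x h1).hasDerivWithinAt
  have hinj : InjOn (fun x : ℝ => Real.sigmoid (2 * x)) univ := by
    intro x _ y _ h
    have := Real.sigmoid_injective h
    linarith
  have himg : (fun x : ℝ => Real.sigmoid (2 * x)) '' univ = Ioo 0 1 := by
    rw [image_univ, ← Real.range_sigmoid]
    ext y
    constructor
    · rintro ⟨x, hx⟩; exact ⟨2 * x, hx⟩
    · rintro ⟨x, hx⟩; exact ⟨x / 2, by simpa [mul_div_cancel₀] using hx⟩
  have key := integral_image_eq_integral_abs_deriv_smul MeasurableSet.univ hd hinj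
    (fun y => y ^ (a / 2 - 1) * (1 - y) ^ (a / 2 - 1))
  rw [himg, real_beta (a / 2) (a / 2) (by positivity) (by positivity)] at key
  have hpt : ∀ x : ℝ, |Real.sigmoid (2 * x) * (1 - Real.sigmoid (2 * x)) * 2| •
      (Real.sigmoid (2 * x) ^ (a / 2 - 1) * (1 - Real.sigmoid (2 * x)) ^ (a / 2 - 1))
      = (2 : ℝ) ^ (1 - a) * (1 / Real.cosh x) ^ a := by
    intro x
    have h0 := Real.sigmoid_pos (2 * x)
    have h1 := Real.sigmoid_lt_one (2 * x)
    have h2 : 0 < 1 - Real.sigmoid (2 * x) := by linarith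
    rw [smul_eq_mul, ← Real.mul_rpow h0.le h2.le, abs_of_pos (by positivity)]
    set z := Real.sigmoid (2 * x) * (1 - Real.sigmoid (2 * x)) with hz
    have hz0 : 0 < z := mul_pos h0 h2
    have hc : 0 < 1 / Real.cosh x := by have := Real.cosh_pos x; positivity
    rw [Real.rpow_sub_one hz0.ne']
    have e1 : z ^ (a / 2) = (2 : ℝ) ^ (-a) * (1 / Real.cosh x) ^ a := by
      rw [hz, sigmoid_two_mul]
      rw [show (1 / Real.cosh x) ^ 2 / 4 = ((1 / 2) * (1 / Real.cosh x)) ^ 2 by ring]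
      rw [← Real.rpow_natCast, ← Real.rpow_mul (by positivity), Real.mul_rpow (by norm_num) hc.le]
      have : ((2 : ℕ) : ℝ) * (a / 2) = a := by push_cast; ring
      rw [this, one_div, Real.inv_rpow (by norm_num), Real.rpow_neg (by norm_num)]
    rw [e1, Real.rpow_sub (by norm_num), Real.rpow_one, Real.rpow_neg (by norm_num)]
    field_simp
  simp only [hpt] at key
  rw [setIntegral_univ, integral_const_mul] at key
  have hdup := Real.Gamma_mul_Gamma_add_half (a / 2)
  have e2 : 2 * (a / 2) = a := by ring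
  have e3 : a / 2 + a / 2 = a := by ring
  have e4 : a / 2 + 1 / 2 = (a + 1) / 2 := by ring
  rw [e2, e4] at hdup
  rw [e3] at key
  have g1 : 0 < Real.Gamma a := Real.Gamma_pos_of_pos ha
  have g2 : 0 < Real.Gamma (a / 2) := Real.Gamma_pos_of_pos (by positivity)
  have g3 : 0 < Real.Gamma ((a + 1) / 2) := Real.Gamma_pos_of_pos (by positivity)
  have g4 : (0 : ℝ) < 2 ^ (1 - a) := by positivity
  have e5 : ∫ x : ℝ, (1 / Real.cosh x) ^ a
      = Real.Gamma (a / 2) * Real.Gamma (a / 2) / Real.Gamma a / 2 ^ (1 - a) := by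
    rw [key]; field_simp
  rw [e5]
  field_simp
  linear_combination hdup

theorem integral_sech_pos (a : ℝ) (ha : 0 < a) : 0 < ∫ x : ℝ, (1 / Real.cosh x) ^ a := by
  rw [integral_sech_rpow a ha]
  have g2 : 0 < Real.Gamma (a / 2) := Real.Gamma_pos_of_pos (by positivity)
  have g3 : 0 < Real.Gamma ((a + 1) / 2) := Real.Gamma_pos_of_pos (by positivity)
  have := Real.pi_pos
  positivity

theorem integrable_sech_rpow (a : ℝ) (ha : 0 < a) :
    Integrable (fun x : ℝ => (1 / Real.cosh x) ^ a) := by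
  by_contra h
  have := integral_sech_pos a ha
  rw [integral_undef h] at this
  exact lt_irrefl _ this

theorem Lone_one : Lone 1 = 4 / (3 * √3 * Real.pi) := by
  unfold Lone Lcl
  have g1 : Real.Gamma (1 + 1) = 1 := by
    rw [Real.Gamma_add_one one_ne_zero, Real.Gamma_one, mul_one]
  have g2 : Real.Gamma (1 + 3 / 2) = 3 / 4 * √Real.pi := by
    rw [show (1 + 3 / 2 : ℝ) = (1 / 2 + 1) + 1 by norm_num, Real.Gamma_add_one (by norm_num),
      Real.Gamma_add_one (by norm_num), Real.Gamma_one_half_eq]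
    ring
  rw [g1, g2]
  have e1 : (((1 : ℝ) - 1 / 2) / (1 + 1 / 2)) ^ ((1 : ℝ) - 1 / 2) = 1 / √3 := by
    rw [show ((1 : ℝ) - 1 / 2) / (1 + 1 / 2) = 1 / 3 by norm_num,
      show (1 : ℝ) - 1 / 2 = 1 / 2 by norm_num, ← Real.sqrt_eq_rpow, Real.sqrt_div zero_le_one,
      Real.sqrt_one]
  rw [e1]
  have hpi : √Real.pi * √Real.pi = Real.pi := Real.mul_self_sqrt Real.pi_pos.le
  have h1 : 0 < √Real.pi := Real.sqrt_pos.2 Real.pi_pos
  have h2 : 0 < √(3 : ℝ) := Real.sqrt_pos.2 (by norm_num)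
  have h3 := Real.pi_pos
  field_simp
  nlinarith [hpi]

/-! ### powers of `sech` -/

/-- `sech ^ κ` -/
noncomputable def sk (κ x : ℝ) : ℝ := (1 / Real.cosh x) ^ κ

theorem sech_pos (x : ℝ) : 0 < 1 / Real.cosh x := by
  have := Real.cosh_pos x
  positivity

theorem sech_le_one (x : ℝ) : 1 / Real.cosh x ≤ 1 := by
  rw [div_le_one (Real.cosh_pos x)]
  exact Real.one_le_cosh x

theorem sk_pos (κ x : ℝ) : 0 < sk κ x := Real.rpow_pos_of_pos (sech_pos x) _

theorem hasDerivAt_tanh' (x : ℝ) : HasDerivAt Real.tanh ((1 / Real.cosh x) ^ 2) x := by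
  have h1 := (Real.hasDerivAt_sinh x).div (Real.hasDerivAt_cosh x) (Real.cosh_pos x).ne'
  have h2 : (fun x => Real.sinh x / Real.cosh x) = Real.tanh := by
    funext y; rw [Real.tanh_eq_sinh_div_cosh]
  have h3 : (Real.sinh / Real.cosh) = Real.tanh := by
    funext y; rw [Real.tanh_eq_sinh_div_cosh]; rfl
  rw [h3] at h1
  convert! h1 using 1
  have h4 := Real.cosh_sq x
  have h5 := (Real.cosh_pos x).ne'
  field_simp
  linear_combination -h4

theorem hasDerivAt_sk (κ x : ℝ) : HasDerivAt (sk κ) (-κ * sk κ x * Real.tanh x) x := by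
  have h0 : sk κ = fun x => Real.exp (-κ * Real.log (Real.cosh x)) := by
    funext y
    unfold sk
    rw [Real.rpow_def_of_pos (sech_pos y), one_div, Real.log_inv]
    congr 1; ring
  have h1 := (((Real.hasDerivAt_cosh x).log (Real.cosh_pos x).ne').const_mul (-κ)).exp
  rw [h0]
  convert! h1 using 1
  simp only
  rw [Real.tanh_eq_sinh_div_cosh]
  ring

theorem hasDerivAt_dsk (κ x : ℝ) : HasDerivAt (fun x => -κ * sk κ x * Real.tanh x)
    (κ ^ 2 * sk κ x - κ * (κ + 1) * (1 / Real.cosh x) ^ 2 * sk κ x) x := by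
  have h1 := ((hasDerivAt_sk κ x).const_mul (-κ)).mul (hasDerivAt_tanh' x)
  convert! h1 using 1
  have h2 : Real.tanh x ^ 2 = 1 - (1 / Real.cosh x) ^ 2 := by
    rw [Real.tanh_eq_sinh_div_cosh]
    have h4 := Real.cosh_sq x
    have h5 := (Real.cosh_pos x).ne'
    field_simp
    linear_combination -h4
  linear_combination (-κ ^ 2 * sk κ x) * h2

theorem continuous_sk (κ : ℝ) : Continuous (sk κ) :=
  continuous_iff_continuousAt.2 fun x => (hasDerivAt_sk κ x).continuousAt

theorem continuous_tanh' : Continuous Real.tanh :=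
  continuous_iff_continuousAt.2 fun x => (hasDerivAt_tanh' x).continuousAt

theorem abs_tanh_le_one (x : ℝ) : |Real.tanh x| ≤ 1 := by
  rw [← sq_le_one_iff_abs_le_one, Real.tanh_eq_sinh_div_cosh, div_pow,
    div_le_one (by have := Real.cosh_pos x; positivity)]
  have h4 := Real.cosh_sq x
  linarith

theorem integrable_sk_sq {κ : ℝ} (hκ : 0 < κ) : Integrable (fun x => sk κ x ^ 2) := by
  have h := integrable_sech_rpow (2 * κ) (by positivity)
  refine h.congr (Filter.Eventually.of_forall fun x => ?_)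
  simp only [sk]
  rw [← Real.rpow_natCast, ← Real.rpow_mul (sech_pos x).le]
  congr 1
  push_cast; ring

theorem memLp_sk {κ : ℝ} (hκ : 0 < κ) : MemLp (sk κ) 2 volume :=
  (memLp_two_iff_integrable_sq (continuous_sk κ).aestronglyMeasurable).2 (integrable_sk_sq hκ)

theorem memLp_dsk {κ : ℝ} (hκ : 0 < κ) :
    MemLp (fun x => -κ * sk κ x * Real.tanh x) 2 volume := by
  have hc : Continuous (fun x => -κ * sk κ x * Real.tanh x) :=
    (continuous_const.mul (continuous_sk κ)).mul continuous_tanh'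
  refine ((memLp_sk hκ).const_mul κ).of_le hc.aestronglyMeasurable
    (Filter.Eventually.of_forall fun x => ?_)
  rw [norm_mul, norm_mul, norm_mul, norm_neg]
  have := abs_tanh_le_one x
  calc ‖κ‖ * ‖sk κ x‖ * ‖Real.tanh x‖ ≤ ‖κ‖ * ‖sk κ x‖ * 1 :=
        mul_le_mul_of_nonneg_left this (by positivity)
    _ = _ := mul_one _

theorem memLp_wsk {κ : ℝ} (hκ : 0 < κ) :
    MemLp (fun x => κ * (κ + 1) * (1 / Real.cosh x) ^ 2 * sk κ x) 2 volume := by
  have hc : Continuous (fun x => κ * (κ + 1) * (1 / Real.cosh x) ^ 2 * sk κ x) := by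
    have h1 : Continuous (fun x => 1 / Real.cosh x) :=
      continuous_const.div Real.continuous_cosh fun x => (Real.cosh_pos x).ne'
    exact (continuous_const.mul (h1.pow 2)).mul (continuous_sk κ)
  refine ((memLp_sk hκ).const_mul (κ * (κ + 1))).of_le hc.aestronglyMeasurable
    (Filter.Eventually.of_forall fun x => ?_)
  have h1 := sech_pos x
  have h2 := sech_le_one x
  have h3 := sk_pos κ x
  rw [Real.norm_of_nonneg (by positivity), Real.norm_of_nonneg (by positivity)]
  have h4 : (1 / Real.cosh x) ^ 2 ≤ 1 := pow_le_one₀ h1.le h2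
  calc κ * (κ + 1) * (1 / Real.cosh x) ^ 2 * sk κ x ≤ κ * (κ + 1) * 1 * sk κ x := by gcongr
    _ = _ := by rw [mul_one]

theorem tendsto_cosh_cocompact : Filter.Tendsto Real.cosh (Filter.cocompact ℝ) Filter.atTop := by
  refine Filter.tendsto_atTop_mono (f := fun x => ‖x‖ / 2) (fun x => ?_) ?_
  · have h1 : |x| ≤ Real.exp |x| := by
      have := Real.add_one_le_exp |x|
      linarith
    rw [← Real.cosh_abs, Real.cosh_eq, Real.norm_eq_abs]
    have := Real.exp_pos (-|x|)
    linarith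
  · exact (tendsto_norm_cocompact_atTop).atTop_div_const (by norm_num)

theorem tendsto_sk {κ : ℝ} (hκ : 0 < κ) :
    Filter.Tendsto (sk κ) (Filter.cocompact ℝ) (nhds 0) := by
  have h1 := (tendsto_rpow_neg_atTop hκ).comp tendsto_cosh_cocompact
  refine h1.congr fun x => ?_
  simp only [Function.comp, sk]
  rw [one_div, Real.inv_rpow (Real.cosh_pos x).le, Real.rpow_neg (Real.cosh_pos x).le]

/-! ### integration by parts -/

theorem ac_of_ftc {f g : ℝ → ℝ} (hg : LocallyIntegrable g)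
    (hf : ∀ a b : ℝ, f b - f a = ∫ t in a..b, g t) (a b : ℝ) :
    AbsolutelyContinuousOnInterval f a b := by
  have hi : IntervalIntegrable g volume a b :=
    intervalIntegrable_iff.2 ((hg.integrableOn_isCompact isCompact_uIcc).mono_set uIoc_subset_uIcc)
  have h1 := hi.absolutelyContinuousOnInterval_intervalIntegral (c := a) (by simp)
  have h2 : AbsolutelyContinuousOnInterval (fun _ : ℝ => f a) a b :=
    ((LipschitzWith.const (f a)).lipschitzOnWith (s := uIcc a b)).absolutelyContinuousOnInterval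
  have h3 : f = (fun _ : ℝ => f a) + fun x => ∫ t in a..x, g t := by
    funext x
    simp only [Pi.add_apply]
    rw [← hf a x]; ring
  rw [h3]
  exact h2.add h1

theorem ibp_real {f g h k : ℝ → ℝ} (hg : LocallyIntegrable g)
    (hf : ∀ a b : ℝ, f b - f a = ∫ t in a..b, g t) (hh : ∀ x, HasDerivAt h (k x) x)
    (hk : Continuous k) (a b : ℝ) :
    ∫ x in a..b, (g x * h x + f x * k x) = f b * h b - f a * h a := by
  have hf' := ac_of_ftc hg hf a b
  have hh' : AbsolutelyContinuousOnInterval h a b := by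
    refine ac_of_ftc hk.locallyIntegrable (fun a b => ?_) a b
    exact (intervalIntegral.integral_eq_sub_of_hasDerivAt (fun x _ => hh x)
      (hk.intervalIntegrable _ _)).symm
  rw [← hf'.integral_deriv_mul_eq_sub hh']
  refine intervalIntegral.integral_congr_ae ?_
  filter_upwards [_root_.LocallyIntegrable.ae_hasDerivAt_integral hg] with x hx _
  have h1 : f = fun x => f a + ∫ t in a..x, g t := by
    funext x; rw [← hf a x]; ring
  have h2 : HasDerivAt f (g x) x := by
    rw [h1]; exact (hx a).const_add (f a)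
  rw [h2.deriv, (hh x).deriv]

theorem ibp_complex {f g : ℝ → ℂ} {h k : ℝ → ℝ} (hg : LocallyIntegrable g)
    (hf : ∀ a b : ℝ, f b - f a = ∫ t in a..b, g t) (hh : ∀ x, HasDerivAt h (k x) x)
    (hk : Continuous k) (a b : ℝ) :
    ∫ x in a..b, (g x * (h x : ℂ) + f x * (k x : ℂ)) = f b * h b - f a * h a := by
  have hi : ∀ a b, IntervalIntegrable g volume a b := fun a b =>
    intervalIntegrable_iff.2 ((hg.integrableOn_isCompact isCompact_uIcc).mono_set uIoc_subset_uIcc)
  have hfc : Continuous f := by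
    have h1 : f = fun x => f 0 + ∫ t in (0 : ℝ)..x, g t := by
      funext x; rw [← hf 0 x]; ring
    rw [h1]
    exact continuous_const.add (intervalIntegral.continuous_primitive hi 0)
  have hhc : Continuous h := continuous_iff_continuousAt.2 fun x => (hh x).continuousAt
  have hI : IntervalIntegrable (fun x => g x * (h x : ℂ) + f x * (k x : ℂ)) volume a b :=
    ((hi a b).mul_continuousOn (Complex.continuous_ofReal.comp hhc).continuousOn).add
      ((hfc.mul (Complex.continuous_ofReal.comp hk)).intervalIntegrable _ _)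
  have hgre : LocallyIntegrable (fun x => (g x).re) := fun x => by
    obtain ⟨s, hs, h⟩ := hg x
    exact ⟨s, hs, Integrable.re h⟩
  have hgim : LocallyIntegrable (fun x => (g x).im) := fun x => by
    obtain ⟨s, hs, h⟩ := hg x
    exact ⟨s, hs, Integrable.im h⟩
  have hfre : ∀ a b : ℝ, (f b).re - (f a).re = ∫ t in a..b, (g t).re := by
    intro a b
    rw [← Complex.sub_re, hf a b]
    exact (Complex.reCLM.intervalIntegral_comp_comm (hi a b)).symm
  have hfim : ∀ a b : ℝ, (f b).im - (f a).im = ∫ t in a..b, (g t).im := by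
    intro a b
    rw [← Complex.sub_im, hf a b]
    exact (Complex.imCLM.intervalIntegral_comp_comm (hi a b)).symm
  apply Complex.ext
  · have h1 : (∫ x in a..b, (g x * (h x : ℂ) + f x * (k x : ℂ))).re
        = ∫ x in a..b, (g x * (h x : ℂ) + f x * (k x : ℂ)).re :=
      (Complex.reCLM.intervalIntegral_comp_comm hI).symm
    rw [h1]
    have h2 := ibp_real hgre hfre hh hk a b
    simpa using h2
  · have h1 : (∫ x in a..b, (g x * (h x : ℂ) + f x * (k x : ℂ))).im
        = ∫ x in a..b, (g x * (h x : ℂ) + f x * (k x : ℂ)).im :=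
      (Complex.imCLM.intervalIntegral_comp_comm hI).symm
    rw [h1]
    have h2 := ibp_real hgim hfim hh hk a b
    simpa using h2

theorem ibp_line {f g : ℝ → ℂ} {h k : ℝ → ℝ} (hf2 : MemLp f 2 volume) (hg2 : MemLp g 2 volume)
    (hh2 : MemLp h 2 volume) (hk2 : MemLp k 2 volume)
    (hf : ∀ a b : ℝ, f b - f a = ∫ t in a..b, g t) (hh : ∀ x, HasDerivAt h (k x) x)
    (hk : Continuous k) (hlim : Filter.Tendsto h (Filter.cocompact ℝ) (nhds 0)) :
    ∫ x, g x * (h x : ℂ) = - ∫ x, f x * (k x : ℂ) := by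
  have hg : LocallyIntegrable g := hg2.locallyIntegrable (by norm_num)
  obtain ⟨C, hC0, hC⟩ := bounded_of_ftc hf2 hg2 hf
  have hI1 : Integrable (fun x => g x * (h x : ℂ)) := hg2.integrable_mul hh2.ofReal
  have hI2 : Integrable (fun x => f x * (k x : ℂ)) := hf2.integrable_mul hk2.ofReal
  have h0 : Filter.Tendsto (fun x => f x * (h x : ℂ)) (Filter.cocompact ℝ) (nhds 0) := by
    rw [tendsto_zero_iff_norm_tendsto_zero]
    refine squeeze_zero (g := fun x => C * ‖h x‖) (fun x => norm_nonneg _) (fun x => ?_) ?_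
    · rw [norm_mul, Complex.norm_real]
      exact mul_le_mul_of_nonneg_right (hC x) (norm_nonneg _)
    · have := (hlim.norm).const_mul C
      simpa using this
  have h1 : Filter.Tendsto (fun n : ℕ => ∫ x in (-(n : ℝ))..(n : ℝ),
      (g x * (h x : ℂ) + f x * (k x : ℂ))) Filter.atTop
      (nhds (∫ x, (g x * (h x : ℂ) + f x * (k x : ℂ)))) :=
    intervalIntegral_tendsto_integral (hI1.add hI2)
      (Filter.tendsto_neg_atTop_atBot.comp tendsto_natCast_atTop_atTop)
      tendsto_natCast_atTop_atTop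
  have h2 : Filter.Tendsto (fun n : ℕ => ∫ x in (-(n : ℝ))..(n : ℝ),
      (g x * (h x : ℂ) + f x * (k x : ℂ))) Filter.atTop (nhds 0) := by
    simp only [ibp_complex hg hf hh hk]
    have h3 : Filter.Tendsto (fun n : ℕ => f n * (h n : ℂ)) Filter.atTop (nhds 0) :=
      h0.comp (tendsto_natCast_atTop_atTop.mono_right atTop_le_cocompact)
    have h4 : Filter.Tendsto (fun n : ℕ => f (-(n : ℝ)) * (h (-(n : ℝ)) : ℂ)) Filter.atTop
        (nhds 0) :=
      h0.comp ((Filter.tendsto_neg_atTop_atBot.comp tendsto_natCast_atTop_atTop).mono_right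
        atBot_le_cocompact)
    simpa using h3.sub h4
  have h5 := tendsto_nhds_unique h1 h2
  rw [integral_add hI1 hI2] at h5
  exact eq_neg_of_add_eq_zero_left h5

/-! ### traces of diagonal matrices -/

theorem trFun_diagonal {m : ℕ} (f : ℝ → ℝ) (d : Fin m → ℝ) :
    trFun f (Matrix.diagonal (fun i => ((d i : ℝ) : ℂ))) = ∑ i, f (d i) := by
  have hH : (Matrix.diagonal (fun i => ((d i : ℝ) : ℂ))).IsHermitian := by
    rw [Matrix.IsHermitian, Matrix.diagonal_conjTranspose]
    congr 1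
    funext i
    simp [Complex.conj_ofReal]
  rw [trFun_of_isHermitian f hH]
  have h1 := hH.roots_charpoly_eq_eigenvalues
  rw [Matrix.charpoly_diagonal, Polynomial.roots_prod _ _ (by
    simp [Finset.prod_ne_zero_iff, Polynomial.X_sub_C_ne_zero])] at h1
  simp only [Polynomial.roots_X_sub_C, Multiset.bind_singleton] at h1
  have h2 := congrArg (fun s => (Multiset.map (fun z : ℂ => f z.re) s).sum) h1
  simp only [Multiset.map_map, Function.comp_def] at h2
  have h3 : (Multiset.map (fun i => f (hH.eigenvalues i)) Finset.univ.val).sum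
      = (Multiset.map (fun i => f (d i)) Finset.univ.val).sum := by
    simpa using h2.symm
  exact h3

/-! ### the Keller potential -/

/-- Keller's potential -/
noncomputable def kW (κ : ℝ) (x : ℝ) : ℝ := κ * (κ + 1) * (1 / Real.cosh x) ^ 2

theorem kW_nonneg {κ : ℝ} (hκ : 0 < κ) (x : ℝ) : 0 ≤ kW κ x := by
  unfold kW
  have := sech_pos x
  positivity

theorem continuous_kW (κ : ℝ) : Continuous (kW κ) := by
  have h1 : Continuous (fun x => 1 / Real.cosh x) :=
    continuous_const.div Real.continuous_cosh fun x => (Real.cosh_pos x).ne'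
  exact continuous_const.mul (h1.pow 2)

theorem kW_rpow {κ : ℝ} (hκ : 0 < κ) (p x : ℝ) :
    kW κ x ^ p = (κ * (κ + 1)) ^ p * (1 / Real.cosh x) ^ (2 * p) := by
  unfold kW
  have := sech_pos x
  rw [Real.mul_rpow (by positivity) (by positivity), Real.rpow_mul this.le]
  norm_num

/-- the matrix potential with Keller's potential in the channel `i0` -/
noncomputable def kWm {m : ℕ} (i0 : Fin m) (κ x : ℝ) : Matrix (Fin m) (Fin m) ℂ :=
  Matrix.diagonal (fun i => ((if i = i0 then kW κ x else 0 : ℝ) : ℂ))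

theorem kWm_posSemidef {m : ℕ} (i0 : Fin m) {κ : ℝ} (hκ : 0 < κ) (x : ℝ) :
    (kWm i0 κ x).PosSemidef := by
  unfold kWm
  rw [Matrix.posSemidef_diagonal_iff]
  intro i
  rw [Complex.zero_le_real]
  split_ifs
  · exact kW_nonneg hκ x
  · exact le_rfl

theorem trPow_kWm {m : ℕ} (i0 : Fin m) {κ : ℝ} (hκ : 0 < κ) {p : ℝ} (hp : 0 < p) (x : ℝ) :
    trPow p (kWm i0 κ x) = (κ * (κ + 1)) ^ p * (1 / Real.cosh x) ^ (2 * p) := by
  rw [trPow_eq_trFun]
  unfold kWm
  rw [trFun_diagonal, Finset.sum_eq_single i0]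
  · rw [if_pos rfl, kW_rpow hκ]
  · intro b _ hb
    rw [if_neg hb, Real.zero_rpow hp.ne']
  · simp

theorem isPotential_kWm {m : ℕ} (i0 : Fin m) {κ : ℝ} (hκ : 0 < κ) {p : ℝ} (hp : 0 < p) :
    IsPotential p (kWm i0 κ) where
  measurable i j := by
    unfold kWm
    by_cases hij : i = j
    · subst hij
      simp only [Matrix.diagonal_apply_eq]
      by_cases hi : i = i0
      · simp only [hi, if_true]
        exact Complex.measurable_ofReal.comp (continuous_kW κ).measurable
      · simp only [hi, if_false]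
        exact measurable_const
    · simp only [Matrix.diagonal_apply_ne _ hij]
      exact measurable_const
  posSemidef x := kWm_posSemidef i0 hκ x
  integrable := by
    simp only [trPow_kWm i0 hκ hp]
    exact (integrable_sech_rpow (2 * p) (by positivity)).const_mul _

theorem integral_trPow_kWm {m : ℕ} (i0 : Fin m) {κ : ℝ} (hκ : 0 < κ) {p : ℝ} (hp : 0 < p) :
    ∫ x, trPow p (kWm i0 κ x) = (κ * (κ + 1)) ^ p *
      (√Real.pi * Real.Gamma p / Real.Gamma (p + 1 / 2)) := by
  simp only [trPow_kWm i0 hκ hp]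
  rw [integral_const_mul, integral_sech_rpow (2 * p) (by positivity)]
  have e1 : 2 * p / 2 = p := by ring
  have e2 : (2 * p + 1) / 2 = p + 1 / 2 := by ring
  rw [e1, e2]

/-- Keller's eigenfunction -/
noncomputable def kψ {m : ℕ} (i0 : Fin m) (c κ : ℝ) (x : ℝ) (i : Fin m) : ℂ :=
  if i = i0 then (c : ℂ) * (sk κ x : ℂ) else 0

/-- and its derivative -/
noncomputable def kdψ {m : ℕ} (i0 : Fin m) (c κ : ℝ) (x : ℝ) (i : Fin m) : ℂ :=
  if i = i0 then (c : ℂ) * ((-κ * sk κ x * Real.tanh x : ℝ) : ℂ) else 0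

theorem isH1_kψ {m : ℕ} (i0 : Fin m) (c : ℝ) {κ : ℝ} (hκ : 0 < κ) :
    IsH1 (kψ i0 c κ) (kdψ i0 c κ) where
  memLp i := by
    unfold kψ
    by_cases hi : i = i0
    · simp only [hi, if_true]
      exact (memLp_sk hκ).ofReal.const_mul (c : ℂ)
    · simp only [hi, if_false]
      exact MemLp.zero'
  memLp_deriv i := by
    unfold kdψ
    by_cases hi : i = i0
    · simp only [hi, if_true]
      exact (memLp_dsk hκ).ofReal.const_mul (c : ℂ)
    · simp only [hi, if_false]
      exact MemLp.zero'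
  ftc i a b := by
    unfold kψ kdψ
    by_cases hi : i = i0
    · simp only [hi, if_true]
      have hc : Continuous (fun x => -κ * sk κ x * Real.tanh x) :=
        (continuous_const.mul (continuous_sk κ)).mul continuous_tanh'
      have h1 := intervalIntegral.integral_eq_sub_of_hasDerivAt (a := a) (b := b)
        (fun x _ => hasDerivAt_sk κ x) (hc.intervalIntegrable _ _)
      rw [intervalIntegral.integral_const_mul, intervalIntegral.integral_ofReal, h1]
      push_cast
      ring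
    · simp only [hi, if_false]
      simp

theorem star_dot_kψ {m : ℕ} (i0 : Fin m) (v : Fin m → ℂ) (z : ℂ) :
    star v ⬝ᵥ (fun i => if i = i0 then z else 0) = star (v i0) * z := by
  simp [dotProduct]

theorem isEigen_kψ {m : ℕ} (i0 : Fin m) (c : ℝ) {κ : ℝ} (hκ : 0 < κ) :
    IsEigen (kWm i0 κ) (-κ ^ 2) (kψ i0 c κ) := by
  refine ⟨kdψ i0 c κ, isH1_kψ i0 c hκ, fun φ dφ hφ => ?_⟩
  have e1 : ∀ x, star (dφ x) ⬝ᵥ kdψ i0 c κ x
      = (c : ℂ) * (star (dφ x i0) * ((-κ * sk κ x * Real.tanh x : ℝ) : ℂ)) := by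
    intro x
    have := star_dot_kψ i0 (dφ x) ((c : ℂ) * ((-κ * sk κ x * Real.tanh x : ℝ) : ℂ))
    unfold kdψ
    rw [this]; ring
  have e2 : ∀ x, star (φ x) ⬝ᵥ (kWm i0 κ x).mulVec (kψ i0 c κ x)
      = (c : ℂ) * (star (φ x i0) *
        ((κ * (κ + 1) * (1 / Real.cosh x) ^ 2 * sk κ x : ℝ) : ℂ)) := by
    intro x
    have h1 : (kWm i0 κ x).mulVec (kψ i0 c κ x)
        = fun i => if i = i0 then ((kW κ x : ℝ) : ℂ) * ((c : ℂ) * (sk κ x : ℂ)) else 0 := by
      funext i
      unfold kWm kψ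
      rw [Matrix.mulVec_diagonal]
      split_ifs <;> simp
    rw [h1, star_dot_kψ]
    unfold kW
    push_cast
    ring
  have e3 : ∀ x, star (φ x) ⬝ᵥ kψ i0 c κ x = (c : ℂ) * (star (φ x i0) * (sk κ x : ℂ)) := by
    intro x
    have := star_dot_kψ i0 (φ x) ((c : ℂ) * (sk κ x : ℂ))
    unfold kψ
    rw [this]; ring
  simp only [e1, e2, e3]
  rw [integral_const_mul, integral_const_mul, integral_const_mul]
  have hf2 : MemLp (fun x => star (φ x i0)) 2 volume := (hφ.memLp i0).star
  have hg2 : MemLp (fun x => star (dφ x i0)) 2 volume := (hφ.memLp_deriv i0).star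
  have hf : ∀ a b : ℝ, star (φ b i0) - star (φ a i0) = ∫ t in a..b, star (dφ t i0) := by
    intro a b
    rw [← star_sub, hφ.ftc i0 a b]
    have hi : IntervalIntegrable (fun t => dφ t i0) volume a b :=
      intervalIntegrable_iff.2 ((((hφ.memLp_deriv i0).locallyIntegrable
        (by norm_num)).integrableOn_isCompact isCompact_uIcc).mono_set uIoc_subset_uIcc)
    exact (Complex.conjCLE.toContinuousLinearMap.intervalIntegral_comp_comm hi).symm
  have hk2 : MemLp (fun x => κ ^ 2 * sk κ x - κ * (κ + 1) * (1 / Real.cosh x) ^ 2 * sk κ x) 2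
      volume := ((memLp_sk hκ).const_mul (κ ^ 2)).sub (memLp_wsk hκ)
  have hkc : Continuous
      (fun x => κ ^ 2 * sk κ x - κ * (κ + 1) * (1 / Real.cosh x) ^ 2 * sk κ x) := by
    have h1 : Continuous (fun x => 1 / Real.cosh x) :=
      continuous_const.div Real.continuous_cosh fun x => (Real.cosh_pos x).ne'
    exact (continuous_const.mul (continuous_sk κ)).sub
      ((continuous_const.mul (h1.pow 2)).mul (continuous_sk κ))
  have hlim : Filter.Tendsto (fun x => -κ * sk κ x * Real.tanh x) (Filter.cocompact ℝ)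
      (nhds 0) := by
    rw [tendsto_zero_iff_norm_tendsto_zero]
    have h1 := ((tendsto_sk hκ).norm).const_mul κ
    rw [norm_zero, mul_zero] at h1
    refine squeeze_zero (fun x => norm_nonneg _) (fun x => ?_) h1
    rw [norm_mul, norm_mul, norm_neg, Real.norm_of_nonneg hκ.le]
    have := abs_tanh_le_one x
    calc κ * ‖sk κ x‖ * ‖Real.tanh x‖ ≤ κ * ‖sk κ x‖ * 1 :=
          mul_le_mul_of_nonneg_left this (by positivity)
      _ = _ := mul_one _
  have hibp := ibp_line hf2 hg2 (memLp_dsk hκ) hk2 hf (fun x => hasDerivAt_dsk κ x) hkc hlim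
  rw [hibp]
  have hI1 : Integrable (fun x => star (φ x i0) * (sk κ x : ℂ)) :=
    hf2.integrable_mul (memLp_sk hκ).ofReal
  have hI2 : Integrable (fun x => star (φ x i0) *
      ((κ * (κ + 1) * (1 / Real.cosh x) ^ 2 * sk κ x : ℝ) : ℂ)) :=
    hf2.integrable_mul (memLp_wsk hκ).ofReal
  have h5 : ∫ x, star (φ x i0) *
      ((κ ^ 2 * sk κ x - κ * (κ + 1) * (1 / Real.cosh x) ^ 2 * sk κ x : ℝ) : ℂ)
      = (κ : ℂ) ^ 2 * (∫ x, star (φ x i0) * (sk κ x : ℂ))
        - ∫ x, star (φ x i0) *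
          ((κ * (κ + 1) * (1 / Real.cosh x) ^ 2 * sk κ x : ℝ) : ℂ) := by
    rw [← integral_const_mul, ← integral_sub (hI1.const_mul _) hI2]
    congr 1
    funext x
    push_cast
    ring
  rw [h5]
  push_cast
  ring

/-- the one-element negative system -/
noncomputable def kSys {m : ℕ} (i0 : Fin m) {κ : ℝ} (hκ : 0 < κ) : NegSystem (kWm i0 κ) 1 where
  lam _ := -κ ^ 2
  psi _ := kψ i0 (1 / √(∫ x, sk κ x ^ 2)) κ
  neg _ := by
    have : 0 < κ ^ 2 := by positivity
    linarith
  eigen _ := isEigen_kψ i0 _ hκ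
  orthonormal j k := by
    rw [if_pos (Subsingleton.elim j k)]
    set c : ℝ := 1 / √(∫ x, sk κ x ^ 2) with hc
    have hpos : 0 < ∫ x, sk κ x ^ 2 := by
      have h := integral_sech_pos (2 * κ) (by positivity)
      have h2 : ∫ x : ℝ, (1 / Real.cosh x) ^ (2 * κ) = ∫ x, sk κ x ^ 2 := by
        congr 1
        funext x
        simp only [sk]
        rw [← Real.rpow_natCast, ← Real.rpow_mul (sech_pos x).le]
        congr 1
        push_cast; ring
      rwa [h2] at h
    have e3 : ∀ x, star (kψ i0 c κ x) ⬝ᵥ kψ i0 c κ x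
        = ((c ^ 2 * sk κ x ^ 2 : ℝ) : ℂ) := by
      intro x
      have h1 := star_dot_kψ i0 (kψ i0 c κ x) ((c : ℂ) * (sk κ x : ℂ))
      have h2 : kψ i0 c κ x = fun i => if i = i0 then (c : ℂ) * (sk κ x : ℂ) else 0 := rfl
      rw [← h2] at h1
      rw [h1]
      unfold kψ
      rw [if_pos rfl, star_mul', RCLike.star_def, Complex.conj_ofReal, Complex.conj_ofReal]
      push_cast
      ring
    simp only [e3]
    have h3 : ∫ x, ((c ^ 2 * sk κ x ^ 2 : ℝ) : ℂ) = ((∫ x, c ^ 2 * sk κ x ^ 2 : ℝ) : ℂ) :=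
      integral_ofReal
    rw [h3, integral_const_mul, hc, div_pow, Real.sq_sqrt hpos.le, one_pow,
      one_div_mul_cancel hpos.ne', Complex.ofReal_one]

/-- F2. lower bound. -/
theorem Lone_le_LTconst (γ : ℝ) (hγ : 1 / 2 < γ) (m : ℕ) (hm : 1 ≤ m) :
    ENNReal.ofReal (Lone γ) ≤ LTconst γ m := by
  set κ : ℝ := γ - 1 / 2 with hκd
  have hκ : 0 < κ := by rw [hκd]; linarith
  have hp : 0 < γ + 1 / 2 := by linarith
  set i0 : Fin m := ⟨0, hm⟩
  have hint := integral_trPow_kWm i0 hκ hp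
  have g1 : 0 < Real.Gamma (γ + 1 / 2) := Real.Gamma_pos_of_pos hp
  have g2 : 0 < Real.Gamma (γ + 1) := Real.Gamma_pos_of_pos (by linarith)
  have hpi := Real.sqrt_pos.2 Real.pi_pos
  have hγ1 : γ + 1 / 2 + 1 / 2 = γ + 1 := by ring
  rw [hγ1] at hint
  have hpos : 0 < ∫ x, trPow (γ + 1 / 2) (kWm i0 κ x) := by
    rw [hint]; positivity
  have h1 : ENNReal.ofReal ((κ ^ 2) ^ γ) ≤ trNeg γ (kWm i0 κ) := by
    unfold trNeg
    refine le_iSup_of_le 1 (le_iSup_of_le (kSys i0 hκ) (ENNReal.ofReal_le_ofReal ?_))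
    simp [kSys]
  have h2 : trNeg γ (kWm i0 κ) / ENNReal.ofReal (∫ x, trPow (γ + 1 / 2) (kWm i0 κ x))
      ≤ LTconst γ m := by
    unfold LTconst
    exact le_iSup_of_le (kWm i0 κ) (le_iSup_of_le (isPotential_kWm i0 hκ hp)
      (le_iSup_of_le hpos le_rfl))
  refine le_trans ?_ h2
  have h3 : Lone γ = (κ ^ 2) ^ γ / ∫ x, trPow (γ + 1 / 2) (kWm i0 κ x) := by
    rw [hint]
    unfold Lone Lcl
    have e1 : γ - 1 / 2 = κ := rfl
    have e2 : γ + 1 / 2 = κ + 1 := by rw [hκd]; ring
    have e3 : Real.Gamma (γ + 3 / 2) = (κ + 1) * Real.Gamma (κ + 1) := by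
      rw [← Real.Gamma_add_one (by linarith)]
      congr 1
      rw [hκd]; ring
    rw [e3, e1, e2]
    rw [e2] at g1
    have e4 : (κ ^ 2) ^ γ = κ ^ κ * κ ^ (κ + 1) := by
      rw [← Real.rpow_natCast, ← Real.rpow_mul hκ.le, ← Real.rpow_add hκ]
      congr 1
      rw [hκd]; push_cast; ring
    have e5 : (κ * (κ + 1)) ^ (κ + 1) = κ ^ (κ + 1) * ((κ + 1) ^ κ * (κ + 1)) := by
      rw [Real.mul_rpow hκ.le (by positivity), Real.rpow_add_one (by positivity) κ (x := κ + 1)]
    rw [e4, e5, Real.div_rpow hκ.le (by positivity)]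
    field_simp
  rw [h3, ENNReal.ofReal_div_of_pos hpos]
  exact ENNReal.div_le_div_right h1 _

end Vale.LT
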