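import Vale.Agent.H1.LT.Defs

/-!
P371, Task D: traces of functions of Hermitian matrices.
-/

open MeasureTheory Matrix
open scoped ComplexOrder

namespace Vale.LT

/-- `tr f(A)` for Hermitian `A`. -/
noncomputable def trFun {m : ℕ} (f : ℝ → ℝ) (A : Matrix (Fin m) (Fin m) ℂ) : ℝ :=
  open Classical in
  if hA : A.IsHermitian then ∑ i, f (hA.eigenvalues i) else 0

theorem trPow_eq_trFun {m : ℕ} (p : ℝ) (A : Matrix (Fin m) (Fin m) ℂ) :
    trPow p A = trFun (fun t => t ^ p) A := by
  rfl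

theorem trFun_of_isHermitian {m : ℕ} (f : ℝ → ℝ) {A : Matrix (Fin m) (Fin m) ℂ}
    (hA : A.IsHermitian) : trFun f A = ∑ i, f (hA.eigenvalues i) := by
  rw [trFun, dif_pos hA]

theorem herm_decomp {m : ℕ} {A : Matrix (Fin m) (Fin m) ℂ} (hA : A.IsHermitian) :
    A = (hA.eigenvectorUnitary : Matrix (Fin m) (Fin m) ℂ) *
      diagonal (fun i => ((hA.eigenvalues i : ℝ) : ℂ)) *
      star (hA.eigenvectorUnitary : Matrix (Fin m) (Fin m) ℂ) := by
  have h1 := hA.spectral_theorem
  rw [Unitary.conjStarAlgAut_apply] at h1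
  exact h1

theorem unitary_mul_star {m : ℕ} (U : unitaryGroup (Fin m) ℂ) :
    (U : Matrix (Fin m) (Fin m) ℂ) * star (U : Matrix (Fin m) (Fin m) ℂ) = 1 :=
  (mem_unitaryGroup_iff (A := (U : Matrix (Fin m) (Fin m) ℂ))).1 U.2

theorem unitary_star_mul {m : ℕ} (U : unitaryGroup (Fin m) ℂ) :
    star (U : Matrix (Fin m) (Fin m) ℂ) * (U : Matrix (Fin m) (Fin m) ℂ) = 1 :=
  (mem_unitaryGroup_iff' (A := (U : Matrix (Fin m) (Fin m) ℂ))).1 U.2

theorem trFun_pow {m : ℕ} (A : Matrix (Fin m) (Fin m) ℂ) (hA : A.IsHermitian) (n : ℕ) :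
    trFun (fun t => t ^ n) A = ((A ^ n).trace).re := by
  rw [trFun_of_isHermitian _ hA]
  have h2 : (A ^ n).trace = ∑ i, ((hA.eigenvalues i : ℂ)) ^ n := by
    have h1 := hA.spectral_theorem
    have h3 : A ^ n = (Unitary.conjStarAlgAut ℂ (Matrix (Fin m) (Fin m) ℂ)
        hA.eigenvectorUnitary) ((diagonal (RCLike.ofReal ∘ hA.eigenvalues)) ^ n) := by
      rw [map_pow, ← h1]
    rw [h3, Unitary.conjStarAlgAut_apply, Matrix.trace_mul_cycle, unitary_star_mul, one_mul,
      diagonal_pow, trace_diagonal]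
    simp
  rw [h2]
  simp [← Complex.ofReal_pow]

/-- D1. Young's inequality for traces. -/
theorem trace_young {m : ℕ} (W R : Matrix (Fin m) (Fin m) ℂ) (hW : W.PosSemidef)
    (hR : R.PosSemidef) (f h : ℝ → ℝ) (hfh : ∀ x y, 0 ≤ x → 0 ≤ y → x * y ≤ f x + h y) :
    ((W * R).trace).re ≤ trFun f W + trFun h R := by
  have hWh := hW.isHermitian
  have hRh := hR.isHermitian
  rw [trFun_of_isHermitian _ hWh, trFun_of_isHermitian _ hRh]
  set U : Matrix (Fin m) (Fin m) ℂ := (hWh.eigenvectorUnitary : Matrix (Fin m) (Fin m) ℂ) with hU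
  set V : Matrix (Fin m) (Fin m) ℂ := (hRh.eigenvectorUnitary : Matrix (Fin m) (Fin m) ℂ) with hV
  set l := hWh.eigenvalues with hl
  set k := hRh.eigenvalues with hk
  set Q : Matrix (Fin m) (Fin m) ℂ := star U * V with hQ
  have hUU : U * star U = 1 := unitary_mul_star _
  have hUU' : star U * U = 1 := unitary_star_mul _
  have hVV : V * star V = 1 := unitary_mul_star _
  have hVV' : star V * V = 1 := unitary_star_mul _
  have hQQ : Q * star Q = 1 := by
    rw [hQ, star_mul, star_star]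
    calc star U * V * (star V * U) = star U * (V * star V) * U := by simp only [mul_assoc]
      _ = 1 := by rw [hVV, mul_one, hUU']
  have hQQ' : star Q * Q = 1 := by
    rw [hQ, star_mul, star_star]
    calc star V * U * (star U * V) = star V * (U * star U) * V := by simp only [mul_assoc]
      _ = 1 := by rw [hUU, mul_one, hVV']
  have hrow : ∀ i, ∑ j, ‖Q i j‖ ^ 2 = 1 := by
    intro i
    have h1 : (Q * star Q) i i = 1 := by rw [hQQ]; simp
    rw [mul_apply] at h1
    have h2 : ∀ j, Q i j * (star Q) j i = ((‖Q i j‖ ^ 2 : ℝ) : ℂ) := by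
      intro j
      rw [star_apply, Complex.star_def, Complex.mul_conj, Complex.normSq_eq_norm_sq]
    simp_rw [h2] at h1
    exact_mod_cast h1
  have hcol : ∀ j, ∑ i, ‖Q i j‖ ^ 2 = 1 := by
    intro j
    have h1 : (star Q * Q) j j = 1 := by rw [hQQ']; simp
    rw [mul_apply] at h1
    have h2 : ∀ i, (star Q) j i * Q i j = ((‖Q i j‖ ^ 2 : ℝ) : ℂ) := by
      intro i
      rw [star_apply, Complex.star_def, mul_comm, Complex.mul_conj, Complex.normSq_eq_norm_sq]
    simp_rw [h2] at h1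
    exact_mod_cast h1
  have hT : (W * R).trace = ∑ i, ∑ j, (((‖Q i j‖ ^ 2 * (l i * k j)) : ℝ) : ℂ) := by
    have e1 : W = U * diagonal (fun i => ((l i : ℝ) : ℂ)) * star U := herm_decomp hWh
    have e2 : R = V * diagonal (fun i => ((k i : ℝ) : ℂ)) * star V := herm_decomp hRh
    have e3 : W * R = U * (diagonal (fun i => ((l i : ℝ) : ℂ)) *
        (Q * diagonal (fun i => ((k i : ℝ) : ℂ)) * star Q)) * star U := by
      conv_lhs => rw [e1, e2]
      rw [hQ, star_mul, star_star]
      calc U * diagonal (fun i => ((l i : ℝ) : ℂ)) * star U *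
          (V * diagonal (fun i => ((k i : ℝ) : ℂ)) * star V)
          = U * diagonal (fun i => ((l i : ℝ) : ℂ)) * star U *
          (V * diagonal (fun i => ((k i : ℝ) : ℂ)) * star V) * (U * star U) := by
            rw [hUU, mul_one]
        _ = _ := by simp only [mul_assoc]
    rw [e3, Matrix.trace_mul_cycle, hUU', one_mul, Matrix.trace]
    refine Finset.sum_congr rfl fun i _ => ?_
    rw [diag_apply, diagonal_mul, mul_apply, Finset.mul_sum]
    refine Finset.sum_congr rfl fun j _ => ?_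
    rw [mul_diagonal, star_apply, Complex.star_def]
    have : Q i j * (k j : ℂ) * (starRingEnd ℂ) (Q i j)
        = ((‖Q i j‖ ^ 2 : ℝ) : ℂ) * (k j : ℂ) := by
      rw [mul_right_comm, Complex.mul_conj, Complex.normSq_eq_norm_sq]
    rw [this]
    push_cast
    ring
  rw [hT]
  have hre : (∑ i, ∑ j, (((‖Q i j‖ ^ 2 * (l i * k j)) : ℝ) : ℂ)).re
      = ∑ i, ∑ j, ‖Q i j‖ ^ 2 * (l i * k j) := by
    rw [← Complex.ofReal_re (∑ i, ∑ j, ‖Q i j‖ ^ 2 * (l i * k j))]
    congr 1
    push_cast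
    rfl
  rw [hre]
  have hl0 : ∀ i, 0 ≤ l i := fun i => hW.eigenvalues_nonneg i
  have hk0 : ∀ i, 0 ≤ k i := fun i => hR.eigenvalues_nonneg i
  calc ∑ i, ∑ j, ‖Q i j‖ ^ 2 * (l i * k j)
      ≤ ∑ i, ∑ j, ‖Q i j‖ ^ 2 * (f (l i) + h (k j)) := by
        refine Finset.sum_le_sum fun i _ => Finset.sum_le_sum fun j _ => ?_
        exact mul_le_mul_of_nonneg_left (hfh _ _ (hl0 i) (hk0 j)) (by positivity)
    _ = ∑ i, ∑ j, ‖Q i j‖ ^ 2 * f (l i) + ∑ i, ∑ j, ‖Q i j‖ ^ 2 * h (k j) := by
        simp_rw [mul_add, Finset.sum_add_distrib]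
    _ = ∑ i, f (l i) + ∑ j, h (k j) := by
        congr 1
        · refine Finset.sum_congr rfl fun i _ => ?_
          rw [← Finset.sum_mul, hrow i, one_mul]
        · rw [Finset.sum_comm]
          refine Finset.sum_congr rfl fun j _ => ?_
          rw [← Finset.sum_mul, hcol j, one_mul]

theorem measurable_matrix_pow {m : ℕ} (W : ℝ → Matrix (Fin m) (Fin m) ℂ)
    (hW : ∀ i j, Measurable (fun x => W x i j)) (n : ℕ) :
    ∀ i j, Measurable (fun x => (W x ^ n) i j) := by
  induction n with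
  | zero =>
    intro i j
    simp only [pow_zero]
    exact measurable_const
  | succ n ih =>
    intro i j
    simp only [pow_succ, mul_apply]
    exact Finset.measurable_fun_sum _ fun k _ => (ih i k).mul (hW k j)

theorem measurable_trFun_poly {m : ℕ} (p : Polynomial ℝ)
    (W : ℝ → Matrix (Fin m) (Fin m) ℂ) (hW : ∀ i j, Measurable (fun x => W x i j))
    (hH : ∀ x, (W x).IsHermitian) : Measurable (fun x => trFun (fun t => p.eval t) (W x)) := by
  have h1 : (fun x => trFun (fun t => p.eval t) (W x))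
      = fun x => ∑ n ∈ Finset.range (p.natDegree + 1), p.coeff n * (((W x) ^ n).trace).re := by
    funext x
    rw [trFun_of_isHermitian _ (hH x)]
    have h2 : ∀ n, (((W x) ^ n).trace).re = ∑ i, ((hH x).eigenvalues i) ^ n := by
      intro n
      rw [← trFun_pow _ (hH x), trFun_of_isHermitian _ (hH x)]
    simp_rw [h2, Finset.mul_sum]
    rw [Finset.sum_comm]
    refine Finset.sum_congr rfl fun i _ => ?_
    rw [Polynomial.eval_eq_sum_range]
  rw [h1]
  refine Finset.measurable_fun_sum _ fun n _ => ?_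
  refine Measurable.const_mul ?_ _
  refine Complex.measurable_re.comp ?_
  unfold Matrix.trace
  exact Finset.measurable_fun_sum _ fun i _ => measurable_matrix_pow W hW n i i

/-- D2. measurability. -/
theorem measurable_trFun {m : ℕ} (f : ℝ → ℝ) (hf : Continuous f)
    (W : ℝ → Matrix (Fin m) (Fin m) ℂ) (hW : ∀ i j, Measurable (fun x => W x i j))
    (hH : ∀ x, (W x).IsHermitian) : Measurable (fun x => trFun f (W x)) := by
  have hp : ∀ n : ℕ, ∃ p : Polynomial ℝ, ∀ x ∈ Set.Icc (-(n : ℝ)) n,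
      |p.eval x - f x| < 1 / ((n : ℝ) + 1) := fun n =>
    exists_polynomial_near_of_continuousOn _ _ f hf.continuousOn _ (by positivity)
  choose p hp using hp
  refine measurable_of_tendsto_metrizable (f := fun n x => trFun (fun t => (p n).eval t) (W x))
    (fun n => measurable_trFun_poly (p n) W hW hH) ?_
  rw [tendsto_pi_nhds]
  intro x
  simp_rw [trFun_of_isHermitian _ (hH x)]
  refine tendsto_finsetSum _ fun i _ => ?_
  set t := (hH x).eigenvalues i
  rw [tendsto_iff_norm_sub_tendsto_zero]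
  refine squeeze_zero' (Filter.Eventually.of_forall fun n => norm_nonneg _) ?_
    (tendsto_one_div_add_atTop_nhds_zero_nat (𝕜 := ℝ))
  filter_upwards [Filter.eventually_ge_atTop (⌈|t|⌉₊)] with n hn
  have h3 : |t| ≤ n := (Nat.le_ceil _).trans (by exact_mod_cast hn)
  rw [Real.norm_eq_abs]
  exact (hp n t ⟨by linarith [neg_abs_le t], by linarith [le_abs_self t]⟩).le

/-- D3. the entries of a positive semidefinite matrix are bounded by its eigenvalue sum. -/
theorem norm_entry_le {m : ℕ} (A : Matrix (Fin m) (Fin m) ℂ) (hA : A.PosSemidef) (i j : Fin m) :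
    ‖A i j‖ ≤ trFun (fun t => t) A := by
  have hAh := hA.isHermitian
  rw [trFun_of_isHermitian _ hAh]
  set U : Matrix (Fin m) (Fin m) ℂ := (hAh.eigenvectorUnitary : Matrix (Fin m) (Fin m) ℂ) with hU
  have e1 : A i j = ∑ k, U i k * ((hAh.eigenvalues k : ℝ) : ℂ) * star (U j k) := by
    conv_lhs => rw [herm_decomp hAh]
    rw [mul_apply]
    refine Finset.sum_congr rfl fun k _ => ?_
    rw [mul_diagonal, star_apply]
  rw [e1]
  refine (norm_sum_le _ _).trans (Finset.sum_le_sum fun k _ => ?_)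
  have h0 := hA.eigenvalues_nonneg k
  have hb1 : ‖U i k‖ ≤ 1 := entry_norm_bound_of_unitary hAh.eigenvectorUnitary.2 i k
  have hb2 : ‖U j k‖ ≤ 1 := entry_norm_bound_of_unitary hAh.eigenvectorUnitary.2 j k
  rw [norm_mul, norm_mul, norm_star, Complex.norm_real, Real.norm_eq_abs, abs_of_nonneg h0]
  calc ‖U i k‖ * hAh.eigenvalues k * ‖U j k‖ ≤ 1 * hAh.eigenvalues k * 1 := by gcongr
    _ = hAh.eigenvalues k := by ring

/-- D4. Monotonicity and nonnegativity. -/
theorem trFun_mono {m : ℕ} (f h : ℝ → ℝ) (A : Matrix (Fin m) (Fin m) ℂ) (hA : A.PosSemidef)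
    (hfh : ∀ t, 0 ≤ t → f t ≤ h t) : trFun f A ≤ trFun h A := by
  rw [trFun_of_isHermitian _ hA.isHermitian, trFun_of_isHermitian _ hA.isHermitian]
  exact Finset.sum_le_sum fun i _ => hfh _ (hA.eigenvalues_nonneg i)

end Vale.LT
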