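import Vale.Agent.H1.LT.Dual
import Vale.Agent.H1.LT.TraceFun
import Vale.Agent.H1.LT.H1Aux

/-!
P371, Task E: the primal inequality for eigenvalue systems.
-/

open MeasureTheory Matrix
open scoped ComplexOrder

namespace Vale.LT

/-- the maximizer of `w x - x^3 - b x^2` over `x ≥ 0`. -/
noncomputable def xs (b w : ℝ) : ℝ := (√(b ^ 2 + 3 * w) - b) / 3

/-- the Legendre transform of `x^3 + b x^2`. -/
noncomputable def fs (b w : ℝ) : ℝ := w * xs b w - xs b w ^ 3 - b * xs b w ^ 2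

theorem xs_nonneg (b w : ℝ) (hw : 0 ≤ w) : 0 ≤ xs b w := by
  unfold xs
  have : b ≤ √(b ^ 2 + 3 * w) := Real.le_sqrt_of_sq_le (by linarith)
  linarith

theorem xs_eq (b w : ℝ) (hw : 0 ≤ w) : w = 3 * xs b w ^ 2 + 2 * b * xs b w := by
  unfold xs
  have h := Real.sq_sqrt (show 0 ≤ b ^ 2 + 3 * w by positivity)
  nlinarith [h]

theorem young_fs (b w y : ℝ) (hb : 0 ≤ b) (hw : 0 ≤ w) (hy : 0 ≤ y) :
    w * y ≤ fs b w + (y ^ 3 + b * y ^ 2) := by
  have h1 := xs_nonneg b w hw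
  have h2 := xs_eq b w hw
  unfold fs
  set x := xs b w
  have h3 : (w * x - x ^ 3 - b * x ^ 2) + (y ^ 3 + b * y ^ 2) - w * y
      = (y - x) ^ 2 * (y + 2 * x + b) := by
    rw [h2]; ring
  have h4 : 0 ≤ (y - x) ^ 2 * (y + 2 * x + b) := by positivity
  linarith

/-- integrability of the potential term -/
theorem integrable_pot {m : ℕ} (p : ℝ) (hp : 1 ≤ p) (W : ℝ → Matrix (Fin m) (Fin m) ℂ)
    (hW : IsPotential p W) {ψ dψ : ℝ → Fin m → ℂ} (h : IsH1 ψ dψ) :
    Integrable (fun x => star (ψ x) ⬝ᵥ (W x).mulVec (ψ x)) := by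
  obtain ⟨C, hC0, hC⟩ := h.bounded
  have hent : ∀ x i k, ‖W x i k‖ ≤ m + trPow p (W x) := by
    intro x i k
    refine (norm_entry_le (W x) (hW.posSemidef x) i k).trans ?_
    have h1 : trFun (fun t => t) (W x) ≤ trFun (fun t => 1 + t ^ p) (W x) := by
      refine trFun_mono _ _ _ (hW.posSemidef x) (fun t ht => ?_)
      rcases le_total t 1 with h1 | h1
      · have := Real.rpow_nonneg ht p
        linarith
      · have : t ^ (1 : ℝ) ≤ t ^ p := Real.rpow_le_rpow_of_exponent_le h1 hp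
        rw [Real.rpow_one] at this
        linarith
    refine h1.trans (le_of_eq ?_)
    have hH := (hW.posSemidef x).isHermitian
    simp [trFun, trPow, hH, Finset.sum_add_distrib]
  simp only [dotProduct, Matrix.mulVec, Finset.mul_sum]
  refine integrable_finsetSum _ fun i _ => integrable_finsetSum _ fun k _ => ?_
  have hi2 : Integrable (fun x => ‖ψ x i‖ ^ 2) :=
    (memLp_two_iff_integrable_sq_norm (h.memLp i).1).1 (h.memLp i)
  have hk2 : Integrable (fun x => ‖ψ x k‖ ^ 2) :=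
    (memLp_two_iff_integrable_sq_norm (h.memLp k).1).1 (h.memLp k)
  have hdom : Integrable (fun x => (m : ℝ) * (‖ψ x i‖ ^ 2 + ‖ψ x k‖ ^ 2)
      + C ^ 2 * trPow p (W x)) :=
    ((hi2.add hk2).const_mul _).add (hW.integrable.const_mul _)
  refine hdom.mono' ?_ (Filter.Eventually.of_forall fun x => ?_)
  · exact ((h.memLp i).1.star).mul ((hW.measurable i k).aestronglyMeasurable.mul (h.memLp k).1)
  · rw [norm_mul, norm_mul, Pi.star_apply, norm_star]
    have h1 := hent x i k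
    have h2 := hC x i
    have h3 := hC x k
    have h4 : 0 ≤ trPow p (W x) := by
      have hH := (hW.posSemidef x).isHermitian
      simp only [trPow, hH, dite_true]
      exact Finset.sum_nonneg fun j _ =>
        Real.rpow_nonneg ((hW.posSemidef x).eigenvalues_nonneg j) _
    calc ‖ψ x i‖ * (‖W x i k‖ * ‖ψ x k‖) = ‖W x i k‖ * (‖ψ x i‖ * ‖ψ x k‖) := by ring
      _ ≤ (m + trPow p (W x)) * (‖ψ x i‖ * ‖ψ x k‖) := by gcongr
      _ = m * (‖ψ x i‖ * ‖ψ x k‖) + trPow p (W x) * (‖ψ x i‖ * ‖ψ x k‖) := by ring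
      _ ≤ m * (‖ψ x i‖ ^ 2 + ‖ψ x k‖ ^ 2) + trPow p (W x) * (C * C) := by
          gcongr
          nlinarith [sq_nonneg (‖ψ x i‖ - ‖ψ x k‖), sq_nonneg (‖ψ x i‖ + ‖ψ x k‖),
            norm_nonneg (ψ x i), norm_nonneg (ψ x k)]
      _ = _ := by ring

theorem star_dot_self {m : ℕ} (v : Fin m → ℂ) :
    star v ⬝ᵥ v = ((∑ i, ‖v i‖ ^ 2 : ℝ) : ℂ) := by
  simp only [dotProduct, Pi.star_apply, Complex.ofReal_sum, RCLike.star_def]
  refine Finset.sum_congr rfl fun i _ => ?_
  rw [mul_comm, Complex.mul_conj, Complex.normSq_eq_norm_sq]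

/-- the trace of `W R` -/
theorem trace_mul_Rmat {N m : ℕ} (W : Matrix (Fin m) (Fin m) ℂ) (u : Fin N → ℝ → Fin m → ℂ)
    (x : ℝ) : (W * Rmat u x).trace = ∑ j, star (u j x) ⬝ᵥ W.mulVec (u j x) := by
  unfold Rmat
  rw [Finset.mul_sum, Matrix.trace_sum]
  refine Finset.sum_congr rfl fun j _ => ?_
  rw [Matrix.mul_vecMulVec, Matrix.trace_vecMulVec, dotProduct_comm]

theorem Rmat_posSemidef {N m : ℕ} (u : Fin N → ℝ → Fin m → ℂ) (x : ℝ) :
    (Rmat u x).PosSemidef :=
  Matrix.posSemidef_sum _ fun _ _ => Matrix.posSemidef_vecMulVec_self_star _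

/-- E.  The sharp inequality for every `b ≥ 0`, in terms of a finite orthonormal system of
eigenfunctions. -/
theorem primal_ineq {m n : ℕ} (p : ℝ) (hp : 1 ≤ p) (W : ℝ → Matrix (Fin m) (Fin m) ℂ)
    (hW : IsPotential p W) (b : ℝ) (hb : 0 ≤ b)
    (hint : Integrable (fun x => trFun (fs b) (W x)))
    (S : NegSystem W n) (G : Fin n → ℝ) (hG : ∀ j, 0 ≤ G j ∧ G j < Real.pi / 2) :
    ∑ j, (G j * |S.lam j| - (b ^ 2 / 4) * (Real.tan (G j) - G j)) ≤
      ∫ x, trFun (fs b) (W x) := by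
  choose dψ hH1 hE using S.eigen
  set u : Fin n → ℝ → Fin m → ℂ := fun j x i => ((√(G j) : ℝ) : ℂ) * S.psi j x i with hu
  set du : Fin n → ℝ → Fin m → ℂ := fun j x i => ((√(G j) : ℝ) : ℂ) * dψ j x i with hdu
  have hu1 : ∀ j, IsH1 (u j) (du j) := fun j => (hH1 j).smul _
  have hsq : ∀ j, ((√(G j) : ℝ) : ℂ) * ((√(G j) : ℝ) : ℂ) = ((G j : ℝ) : ℂ) := fun j => by
    rw [← Complex.ofReal_mul, Real.mul_self_sqrt (hG j).1]
  have hstar : ∀ j (v : Fin m → ℂ), star (fun i => ((√(G j) : ℝ) : ℂ) * v i)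
      = ((√(G j) : ℝ) : ℂ) • star v := by
    intro j v
    funext i
    simp [Complex.conj_ofReal, mul_comm]
  have horth : ∀ j k, (∫ x, star (u j x) ⬝ᵥ u k x) = if j = k then (G j : ℂ) else 0 := by
    intro j k
    have h1 : ∀ x, star (u j x) ⬝ᵥ u k x = ((√(G j) : ℝ) : ℂ) * ((√(G k) : ℝ) : ℂ)
        * (star (S.psi j x) ⬝ᵥ S.psi k x) := by
      intro x
      simp only [hu]
      rw [hstar]
      have : (fun i => ((√(G k) : ℝ) : ℂ) * S.psi k x i) = ((√(G k) : ℝ) : ℂ) • S.psi k x := rfl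
      rw [this, smul_dotProduct, dotProduct_smul, smul_eq_mul, smul_eq_mul, mul_assoc]
    simp only [h1]
    rw [integral_const_mul, S.orthonormal]
    split_ifs with h
    · subst h
      rw [mul_one, hsq]
    · rw [mul_zero]
  have hdual := dual_ineq b hb u du hu1 G hG horth
  have hRint := integrable_R u du hu1
  -- the eigenvalue equations
  have heig : ∀ j, G j * |S.lam j| = (∫ x, (star (u j x) ⬝ᵥ (W x).mulVec (u j x)).re)
      - ∫ x, ∑ i, ‖du j x i‖ ^ 2 := by
    intro j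
    have h1 := hE j (S.psi j) (dψ j) (hH1 j)
    rw [S.orthonormal, if_pos rfl, mul_one] at h1
    have h2 : ∫ x, star (dψ j x) ⬝ᵥ dψ j x = ((∫ x, ∑ i, ‖dψ j x i‖ ^ 2 : ℝ) : ℂ) := by
      simp only [star_dot_self]
      exact integral_ofReal
    rw [h2] at h1
    have h3 := congrArg Complex.re h1
    rw [Complex.sub_re, Complex.ofReal_re, Complex.ofReal_re] at h3
    have h4 : (∫ x, star (S.psi j x) ⬝ᵥ (W x).mulVec (S.psi j x)).re
        = ∫ x, (star (S.psi j x) ⬝ᵥ (W x).mulVec (S.psi j x)).re :=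
      (integral_re (integrable_pot p hp W hW (hH1 j))).symm
    rw [h4] at h3
    have h5 : ∀ x, (star (u j x) ⬝ᵥ (W x).mulVec (u j x)).re
        = G j * (star (S.psi j x) ⬝ᵥ (W x).mulVec (S.psi j x)).re := by
      intro x
      simp only [hu]
      rw [hstar]
      have : (fun i => ((√(G j) : ℝ) : ℂ) * S.psi j x i) = ((√(G j) : ℝ) : ℂ) • S.psi j x := rfl
      rw [this, smul_dotProduct, Matrix.mulVec_smul, dotProduct_smul, smul_eq_mul, smul_eq_mul,
        ← mul_assoc, hsq, Complex.re_ofReal_mul]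
    have h6 : ∀ x, ∑ i, ‖du j x i‖ ^ 2 = G j * ∑ i, ‖dψ j x i‖ ^ 2 := by
      intro x
      rw [Finset.mul_sum]
      refine Finset.sum_congr rfl fun i _ => ?_
      simp only [hdu]
      rw [norm_mul, mul_pow, Complex.norm_real, Real.norm_of_nonneg (Real.sqrt_nonneg _),
        Real.sq_sqrt (hG j).1]
    simp only [h5, h6]
    rw [integral_const_mul, integral_const_mul, abs_of_neg (S.neg j), ← mul_sub]
    congr 1
    linarith
  -- the sum
  have hpotint : ∀ j, Integrable (fun x => (star (u j x) ⬝ᵥ (W x).mulVec (u j x)).re) :=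
    fun j => (integrable_pot p hp W hW (hu1 j)).re
  have hsum : ∑ j, ∫ x, (star (u j x) ⬝ᵥ (W x).mulVec (u j x)).re
      = ∫ x, ((W x * Rmat u x).trace).re := by
    rw [← integral_finsetSum _ fun j _ => hpotint j]
    congr 1
    funext x
    rw [trace_mul_Rmat, Complex.re_sum]
  have hyoung : ∫ x, ((W x * Rmat u x).trace).re ≤
      ∫ x, (trFun (fs b) (W x) + (((Rmat u x) ^ 3).trace.re + b * ((Rmat u x) ^ 2).trace.re)) := by
    refine integral_mono ?_ (hint.add (hRint.1.add (hRint.2.const_mul b))) (fun x => ?_)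
    · have : (fun x => ((W x * Rmat u x).trace).re)
          = fun x => ∑ j, (star (u j x) ⬝ᵥ (W x).mulVec (u j x)).re := by
        funext x
        rw [trace_mul_Rmat, Complex.re_sum]
      rw [this]
      exact integrable_finsetSum _ fun j _ => hpotint j
    · have h1 := trace_young (W x) (Rmat u x) (hW.posSemidef x) (Rmat_posSemidef u x) (fs b)
        (fun y => y ^ 3 + b * y ^ 2) (fun w y hw hy => young_fs b w y hb hw hy)
      have h2 : trFun (fun y => y ^ 3 + b * y ^ 2) (Rmat u x)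
          = ((Rmat u x) ^ 3).trace.re + b * ((Rmat u x) ^ 2).trace.re := by
        have hH := (Rmat_posSemidef u x).isHermitian
        rw [← trFun_pow _ hH, ← trFun_pow _ hH]
        simp [trFun, hH, Finset.sum_add_distrib, Finset.mul_sum]
      rw [h2] at h1
      exact h1
  have hadd : ∫ x, (trFun (fs b) (W x) + (((Rmat u x) ^ 3).trace.re
      + b * ((Rmat u x) ^ 2).trace.re)) = (∫ x, trFun (fs b) (W x))
        + ∫ x, (((Rmat u x) ^ 3).trace.re + b * ((Rmat u x) ^ 2).trace.re) :=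
    integral_add hint (hRint.1.add (hRint.2.const_mul b))
  rw [Finset.sum_sub_distrib, Finset.sum_congr rfl fun j _ => heig j, Finset.sum_sub_distrib,
    hsum]
  rw [hadd] at hyoung
  linarith

theorem fs_zero (w : ℝ) (hw : 0 ≤ w) : fs 0 w = 2 / (3 * √3) * w ^ (3 / 2 : ℝ) := by
  unfold fs xs
  have h3 : (√3 : ℝ) ^ 2 = 3 := Real.sq_sqrt (by norm_num)
  have h3' : (0 : ℝ) < √3 := Real.sqrt_pos.2 (by norm_num)
  have hs : (√w) ^ 2 = w := Real.sq_sqrt hw
  have e1 : √(0 ^ 2 + 3 * w) = √3 * √w := by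
    rw [← Real.sqrt_mul (by norm_num)]; congr 1; ring
  have e2 : w ^ (3 / 2 : ℝ) = w * √w := by
    rw [show (3 / 2 : ℝ) = 1 + 1 / 2 by norm_num, Real.rpow_add_of_nonneg hw (by norm_num)
      (by norm_num), Real.rpow_one, Real.sqrt_eq_rpow]
  rw [e1, e2]
  have e3 : (√3 * √w - 0) / 3 = √w / √3 := by
    field_simp
    linear_combination √w * h3
  rw [e3]
  have e4 : (√w / √3) ^ 3 = w * √w / (3 * √3) := by
    rw [div_pow]
    congr 1
    · calc √w ^ 3 = √w ^ 2 * √w := by ring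
        _ = _ := by rw [hs]
    · calc √3 ^ 3 = √3 ^ 2 * √3 := by ring
        _ = _ := by rw [h3]
  rw [e4]
  field_simp
  ring

/-- E2.  `γ = 1`. -/
theorem trNeg_one_le {m : ℕ} (W : ℝ → Matrix (Fin m) (Fin m) ℂ) (hW : IsPotential (3 / 2) W) :
    trNeg 1 W ≤ ENNReal.ofReal (4 / (3 * √3 * Real.pi) * ∫ x, trPow (3 / 2) (W x)) := by
  unfold trNeg
  refine iSup_le fun n => iSup_le fun S => ENNReal.ofReal_le_ofReal ?_
  have h3' : (0 : ℝ) < √3 := Real.sqrt_pos.2 (by norm_num)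
  have hf : ∀ x, trFun (fs 0) (W x) = 2 / (3 * √3) * trPow (3 / 2) (W x) := by
    intro x
    have hH := (hW.posSemidef x).isHermitian
    simp only [trFun, trPow, hH, dite_true, Finset.mul_sum]
    exact Finset.sum_congr rfl fun j _ => fs_zero _ ((hW.posSemidef x).eigenvalues_nonneg j)
  have hint : Integrable (fun x => trFun (fs 0) (W x)) := by
    simp only [hf]
    exact hW.integrable.const_mul _
  have hmain : ∀ G : ℝ, 0 ≤ G → G < Real.pi / 2 →
      G * ∑ j, |S.lam j| ≤ 2 / (3 * √3) * ∫ x, trPow (3 / 2) (W x) := by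
    intro G hG0 hG1
    have h := primal_ineq (3 / 2) (by norm_num) W hW 0 le_rfl hint S (fun _ => G)
      (fun _ => ⟨hG0, hG1⟩)
    simp only [hf] at h
    rw [integral_const_mul] at h
    rw [Finset.mul_sum]
    simpa using h
  have hlim : Real.pi / 2 * ∑ j, |S.lam j| ≤ 2 / (3 * √3) * ∫ x, trPow (3 / 2) (W x) := by
    have hcont : Filter.Tendsto (fun G : ℝ => G * ∑ j, |S.lam j|)
        (nhdsWithin (Real.pi / 2) (Set.Iio (Real.pi / 2)))
        (nhds (Real.pi / 2 * ∑ j, |S.lam j|)) :=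
      ((continuous_id.mul continuous_const).tendsto _).mono_left nhdsWithin_le_nhds
    refine le_of_tendsto hcont ?_
    have h0 : (0 : ℝ) < Real.pi / 2 := by positivity
    filter_upwards [self_mem_nhdsWithin, mem_nhdsWithin_of_mem_nhds (lt_mem_nhds h0)] with G h1 h2
    exact hmain G h2.le h1
  have e1 : ∑ j, |S.lam j| ^ (1 : ℝ) = ∑ j, |S.lam j| := by
    simp
  rw [e1]
  have hpi := Real.pi_pos
  have e2 : 4 / (3 * √3 * Real.pi) * ∫ x, trPow (3 / 2) (W x)
      = 2 / Real.pi * (2 / (3 * √3) * ∫ x, trPow (3 / 2) (W x)) := by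
    field_simp
    ring
  rw [e2]
  calc ∑ j, |S.lam j| = 2 / Real.pi * (Real.pi / 2 * ∑ j, |S.lam j|) := by field_simp
    _ ≤ _ := by gcongr

theorem LTconst_one_le (m : ℕ) : LTconst 1 m ≤ ENNReal.ofReal (4 / (3 * √3 * Real.pi)) := by
  unfold LTconst
  refine iSup_le fun W => iSup_le fun hW => iSup_le fun hpos => ?_
  have e : (1 + 1 / 2 : ℝ) = 3 / 2 := by norm_num
  rw [e] at hW hpos ⊢
  have h := trNeg_one_le W hW
  rw [ENNReal.ofReal_mul (by positivity)] at h
  exact ENNReal.div_le_of_le_mul h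

end Vale.LT
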