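import Vale.Agent.H1.LT.UpperAux2

/-!
P371, Task G: explicit integrals, third part.
-/

open MeasureTheory Set
open scoped ENNReal

namespace Vale.LT

/-- The value of `∫_0^∞ (√(t²+1) - t) t^(a-1) dt`. -/
noncomputable def Kc (a : ℝ) : ℝ :=
  (2 : ℝ) ^ (-a - 1) / a *
        (Real.Gamma ((1 - a) / 2) * Real.Gamma (a + 1) / Real.Gamma ((a + 3) / 2))

theorem Kc_pos (a : ℝ) (ha : 0 < a) (ha' : a < 1) : 0 < Kc a := by
  have h1 : 0 < Real.Gamma ((1 - a) / 2) := Real.Gamma_pos_of_pos (by linarith)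
  have h2 : 0 < Real.Gamma (a + 1) := Real.Gamma_pos_of_pos (by linarith)
  have h3 : 0 < Real.Gamma ((a + 3) / 2) := Real.Gamma_pos_of_pos (by linarith)
  unfold Kc
  positivity

theorem lintegral_sqrt_sub (a : ℝ) (ha : 0 < a) (ha' : a < 1) :
    ∫⁻ t in Ioi (0 : ℝ), ENNReal.ofReal ((√(t ^ 2 + 1) - t) * t ^ (a - 1)) =
      ENNReal.ofReal (Kc a) := by
  have himg : (fun v : ℝ => (1 - v) / (2 * √v)) '' Ioo 0 1 = Ioi 0 := by
    ext t
    constructor
    · rintro ⟨v, ⟨hv0, hv1⟩, rfl⟩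
      have h1 : 0 < √v := Real.sqrt_pos.2 hv0
      have h2 : 0 < 1 - v := by linarith
      show 0 < (1 - v) / (2 * √v)
      positivity
    · intro ht
      have ht' : 0 < t := ht
      have h1 : √(t ^ 2 + 1) ^ 2 = t ^ 2 + 1 := Real.sq_sqrt (by positivity)
      have h2 : 0 < √(t ^ 2 + 1) := Real.sqrt_pos.2 (by positivity)
      have h3 : t < √(t ^ 2 + 1) := Real.lt_sqrt_of_sq_lt (by linarith)
      have h4 : √(t ^ 2 + 1) - t < 1 := by nlinarith
      have h5 : 0 < √(t ^ 2 + 1) - t := by linarith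
      refine ⟨(√(t ^ 2 + 1) - t) ^ 2, ⟨by positivity, by nlinarith⟩, ?_⟩
      show (1 - (√(t ^ 2 + 1) - t) ^ 2) / (2 * √((√(t ^ 2 + 1) - t) ^ 2)) = t
      rw [Real.sqrt_sq h5.le, div_eq_iff (by positivity)]
      nlinarith
  have hinj : InjOn (fun v : ℝ => (1 - v) / (2 * √v)) (Ioo 0 1) := by
    rintro v ⟨hv0, hv1⟩ w ⟨hw0, hw1⟩ h
    have hp : 0 < √v := Real.sqrt_pos.2 hv0
    have hq : 0 < √w := Real.sqrt_pos.2 hw0
    have hp2 : √v ^ 2 = v := Real.sq_sqrt hv0.le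
    have hq2 : √w ^ 2 = w := Real.sq_sqrt hw0.le
    have h' : (1 - v) / (2 * √v) = (1 - w) / (2 * √w) := h
    rw [div_eq_div_iff (by positivity) (by positivity)] at h'
    have h3 : (√w - √v) * (1 + √v * √w) = 0 := by
      rw [← hp2, ← hq2] at h'
      have e1 : √(√v ^ 2) = √v := by rw [hp2]
      have e2 : √(√w ^ 2) = √w := by rw [hq2]
      rw [e1, e2] at h'
      nlinarith
    have h4 : √w - √v = 0 := by
      rcases mul_eq_zero.1 h3 with h | h
      · exact h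
      · exfalso; nlinarith [mul_pos hp hq]
    have h5 : √v = √w := by linarith
    rw [← hp2, ← hq2, h5]
  have hder : ∀ v ∈ Ioo (0 : ℝ) 1, HasDerivWithinAt (fun v : ℝ => (1 - v) / (2 * √v))
      (-((1 + v) / (4 * v * √v))) (Ioo 0 1) v := by
    rintro v ⟨hv0, hv1⟩
    have hp : 0 < √v := Real.sqrt_pos.2 hv0
    have hp2 : √v ^ 2 = v := Real.sq_sqrt hv0.le
    have h1 : HasDerivAt (fun v => √v) (1 / (2 * √v)) v := Real.hasDerivAt_sqrt hv0.ne'
    have h2 := ((hasDerivAt_id v).const_sub 1).div (h1.const_mul 2) (by positivity)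
    refine (h2.congr_deriv ?_).hasDerivWithinAt
    simp only [id]
    have : (2 * √v) ^ 2 = 4 * v := by rw [mul_pow, hp2]; norm_num
    rw [this]
    field_simp
    rw [hp2]
    ring
  conv_lhs => rw [← himg]
  rw [lintegral_image_eq_lintegral_abs_deriv_mul measurableSet_Ioo hder hinj]
  have hcong : ∀ v ∈ Ioo (0 : ℝ) 1,
      ENNReal.ofReal |-((1 + v) / (4 * v * √v))| *
        ENNReal.ofReal ((√(((1 - v) / (2 * √v)) ^ 2 + 1) - (1 - v) / (2 * √v)) *
          ((1 - v) / (2 * √v)) ^ (a - 1)) =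
      ENNReal.ofReal (2 ^ (-a - 1)) *
        (ENNReal.ofReal (v ^ ((1 - a) / 2 - 1) * (1 - v) ^ (a - 1)) +
         ENNReal.ofReal (v ^ ((3 - a) / 2 - 1) * (1 - v) ^ (a - 1))) := by
    rintro v ⟨hv0, hv1⟩
    have hp : 0 < √v := Real.sqrt_pos.2 hv0
    have hp2 : √v ^ 2 = v := Real.sq_sqrt hv0.le
    have h1v : 0 < 1 - v := by linarith
    rw [← ENNReal.ofReal_mul (abs_nonneg _), ← ENNReal.ofReal_add (by positivity) (by positivity),
      ← ENNReal.ofReal_mul (by positivity)]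
    congr 1
    rw [abs_neg, abs_of_nonneg (by positivity)]
    have hs : √(((1 - v) / (2 * √v)) ^ 2 + 1) = (1 + v) / (2 * √v) := by
      have : ((1 - v) / (2 * √v)) ^ 2 + 1 = ((1 + v) / (2 * √v)) ^ 2 := by
        rw [div_pow, div_pow, mul_pow, hp2]
        field_simp
        ring
      rw [this, Real.sqrt_sq (by positivity)]
    rw [hs]
    have hsr : √v = v ^ (1 / 2 : ℝ) := Real.sqrt_eq_rpow _
    have e1 : (1 + v) / (2 * √v) - (1 - v) / (2 * √v) = √v := by
      have : v = √v * √v := by rw [← sq, hp2]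
      field_simp
      rw [hp2]
      ring
    rw [e1]
    have e2 : ((1 - v) / (2 * √v)) ^ (a - 1) =
        (1 - v) ^ (a - 1) * 2 ^ (-(a - 1)) * v ^ (-((a - 1) / 2)) := by
      rw [Real.div_rpow h1v.le (by positivity), Real.mul_rpow (by norm_num) (by positivity),
        hsr, ← Real.rpow_mul hv0.le, Real.rpow_neg (by norm_num), Real.rpow_neg hv0.le,
        show (1 / 2 * (a - 1)) = (a - 1) / 2 by ring]
      field_simp
    rw [e2]
    have e3 : (2 : ℝ) ^ (-a - 1) = 2 ^ (-(a - 1)) / 4 := by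
      rw [show (-a - 1 : ℝ) = -(a - 1) - 2 by ring, Real.rpow_sub (by norm_num)]
      norm_num
    have e4 : v ^ ((1 - a) / 2 - 1) = v ^ (-((a - 1) / 2)) / v := by
      rw [show ((1 - a) / 2 - 1) = -((a - 1) / 2) - 1 by ring, Real.rpow_sub hv0, Real.rpow_one]
    have e5 : v ^ ((3 - a) / 2 - 1) = v ^ (-((a - 1) / 2)) := by
      congr 1; ring
    rw [e3, e4, e5]
    field_simp
  rw [setLIntegral_congr_fun measurableSet_Ioo hcong,
    lintegral_const_mul' _ _ ENNReal.ofReal_ne_top, lintegral_add_left (by fun_prop),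
    lintegral_beta _ _ (by linarith) ha, lintegral_beta _ _ (by linarith) ha]
  have g1 : 0 < Real.Gamma ((1 - a) / 2) := Real.Gamma_pos_of_pos (by linarith)
  have g2 : 0 < Real.Gamma a := Real.Gamma_pos_of_pos ha
  have g3 : 0 < Real.Gamma ((1 + a) / 2) := Real.Gamma_pos_of_pos (by linarith)
  have g4 : 0 < Real.Gamma ((3 - a) / 2) := Real.Gamma_pos_of_pos (by linarith)
  have g5 : 0 < Real.Gamma ((a + 3) / 2) := Real.Gamma_pos_of_pos (by linarith)
  rw [show (1 - a) / 2 + a = (1 + a) / 2 by ring, show (3 - a) / 2 + a = (a + 3) / 2 by ring,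
    ← ENNReal.ofReal_add (by positivity) (by positivity), ← ENNReal.ofReal_mul (by positivity)]
  congr 1
  have r1 : Real.Gamma ((3 - a) / 2) = (1 - a) / 2 * Real.Gamma ((1 - a) / 2) := by
    rw [← Real.Gamma_add_one (by intro h0; linarith)]
    congr 1; ring
  have r2 : Real.Gamma ((a + 3) / 2) = (1 + a) / 2 * Real.Gamma ((1 + a) / 2) := by
    rw [← Real.Gamma_add_one (by intro h0; linarith)]
    congr 1; ring
  have r3 : Real.Gamma (a + 1) = a * Real.Gamma a := Real.Gamma_add_one ha.ne'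
  unfold Kc
  rw [r1, r2, r3]
  field_simp
  ring

/-- G2.  `∫_0^∞ (√(t²+1) - t) t^(a-1) dt = 2^(-a-1) B((1-a)/2, a+1) / a`. -/
theorem integral_sqrt (a : ℝ) (ha : 0 < a) (ha' : a < 1) :
    ∫ t in Ioi (0 : ℝ), (√(t ^ 2 + 1) - t) * t ^ (a - 1) =
      (2 : ℝ) ^ (-a - 1) / a *
        (Real.Gamma ((1 - a) / 2) * Real.Gamma (a + 1) / Real.Gamma ((a + 3) / 2)) := by
  rw [integral_eq_lintegral_of_nonneg_ae, lintegral_sqrt_sub a ha ha',
    ENNReal.toReal_ofReal (Kc_pos a ha ha').le]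
  · rfl
  · refine (ae_restrict_iff' measurableSet_Ioi).2 (Filter.Eventually.of_forall fun t ht => ?_)
    have ht' : 0 < t := ht
    have h3 : t < √(t ^ 2 + 1) := Real.lt_sqrt_of_sq_lt (by linarith)
    have : 0 ≤ √(t ^ 2 + 1) - t := by linarith
    exact mul_nonneg this (by positivity)
  · apply Measurable.aestronglyMeasurable
    fun_prop

theorem lintegral_xs (a w : ℝ) (ha : 0 < a) (ha' : a < 1) (hw : 0 < w) :
    ∫⁻ b in Ioi (0 : ℝ), ENNReal.ofReal ((√(b ^ 2 + 3 * w) - b) / 3 * b ^ (a - 1)) =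
      ENNReal.ofReal (Kc a / 3 * (3 * w) ^ ((a + 1) / 2)) := by
  have hc : 0 < √(3 * w) := Real.sqrt_pos.2 (by positivity)
  have hc2 : √(3 * w) ^ 2 = 3 * w := Real.sq_sqrt (by positivity)
  rw [lintegral_Ioi_comp_mul _ (√(3 * w)) hc]
  have h1 : ∀ t ∈ Ioi (0 : ℝ), ENNReal.ofReal ((√((√(3 * w) * t) ^ 2 + 3 * w) - √(3 * w) * t) / 3 *
      (√(3 * w) * t) ^ (a - 1)) =
      ENNReal.ofReal (√(3 * w) ^ a / 3) *
        ENNReal.ofReal ((√(t ^ 2 + 1) - t) * t ^ (a - 1)) := by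
    intro t ht
    have ht' : 0 < t := ht
    rw [← ENNReal.ofReal_mul (by positivity)]
    congr 1
    have e1 : √((√(3 * w) * t) ^ 2 + 3 * w) = √(3 * w) * √(t ^ 2 + 1) := by
      rw [← Real.sqrt_mul (by positivity), mul_pow, hc2]
      congr 1; ring
    rw [e1, Real.mul_rpow hc.le ht'.le, Real.rpow_sub hc, Real.rpow_one]
    field_simp
  rw [setLIntegral_congr_fun measurableSet_Ioi h1, lintegral_const_mul' _ _ ENNReal.ofReal_ne_top,
    lintegral_sqrt_sub a ha ha', ← ENNReal.ofReal_mul (by positivity),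
    ← ENNReal.ofReal_mul hc.le]
  congr 1
  have e2 : √(3 * w) * √(3 * w) ^ a = (3 * w) ^ ((a + 1) / 2) := by
    have : √(3 * w) * √(3 * w) ^ a = √(3 * w) ^ (a + 1) := by
      rw [Real.rpow_add hc, Real.rpow_one]; ring
    rw [this, Real.sqrt_eq_rpow, ← Real.rpow_mul (by positivity)]
    congr 1; ring
  rw [← e2]
  ring

end Vale.LT
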