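import Vale.Agent.H1.LT.Primal
import Vale.Agent.H1.LT.UpperAux3

/-!
P371, Task G: the bound for `1 < γ < 3/2` by superposition over `b`.
(`integral_arctan` is in `UpperAux2`, `integral_sqrt` in `UpperAux3`.)
-/

open MeasureTheory Matrix Set
open scoped ENNReal ComplexOrder

namespace Vale.LT

/-- The explicit upper bound. Here `B(3/2-γ, 2γ-1) = Γ(3/2-γ) Γ(2γ-1) / Γ(γ+1/2)`. -/
noncomputable def Uconst (γ : ℝ) : ℝ :=
  (2 * γ / (2 * γ + 1)) * (3 : ℝ) ^ (γ - 3 / 2) * (16 : ℝ) ^ (1 - γ) *
    (Real.cos (Real.pi * (γ - 1)) / Real.pi) *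
    (Real.Gamma (3 / 2 - γ) * Real.Gamma (2 * γ - 1) / Real.Gamma (γ + 1 / 2))

theorem continuous_fs_left (w : ℝ) : Continuous (fun b => fs b w) := by
  unfold fs xs
  fun_prop

theorem continuous_fs_right (b : ℝ) : Continuous (fs b) := by
  unfold fs xs
  fun_prop

theorem fs_nonneg (b w : ℝ) (hb : 0 ≤ b) (hw : 0 ≤ w) : 0 ≤ fs b w := by
  have := young_fs b w 0 hb hw le_rfl
  simpa using this

theorem fs_le (b w p : ℝ) (hb : 0 < b) (hw : 0 ≤ w) (hp : 3 / 2 ≤ p) (hp2 : p ≤ 2) :
    fs b w ≤ (1 / (4 * b) + 1) * w ^ p := by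
  have hx := xs_nonneg b w hw
  unfold fs
  set x := xs b w
  have hwp : 0 ≤ w ^ p := Real.rpow_nonneg hw p
  have hbp : 0 ≤ 1 / (4 * b) * w ^ p := by positivity
  rcases le_or_gt w 1 with h1 | h1
  · have e1 : w * x - x ^ 3 - b * x ^ 2 ≤ w ^ 2 / (4 * b) := by
      rw [le_div_iff₀ (by positivity)]
      have : 0 ≤ x ^ 3 * (4 * b) := by positivity
      nlinarith [sq_nonneg (w - 2 * b * x)]
    have e2 : w ^ 2 ≤ w ^ p := by
      rcases hw.eq_or_lt with h0 | h0
      · rw [← h0, Real.zero_rpow (by linarith)]; norm_num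
      · rw [← Real.rpow_two]
        exact Real.rpow_le_rpow_of_exponent_ge h0 h1 hp2
    have e3 : w ^ 2 / (4 * b) ≤ 1 / (4 * b) * w ^ p := by
      rw [div_eq_mul_one_div, mul_comm]
      exact mul_le_mul_of_nonneg_left e2 (by positivity)
    nlinarith
  · have e1 : w * x - x ^ 3 - b * x ^ 2 ≤ w ^ (3 / 2 : ℝ) := by
      have hs : √w ^ 2 = w := Real.sq_sqrt hw
      have hs0 : 0 ≤ √w := Real.sqrt_nonneg w
      have e4 : w ^ (3 / 2 : ℝ) = w * √w := by
        rw [Real.sqrt_eq_rpow, show (3 / 2 : ℝ) = 1 + 1 / 2 by norm_num,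
          Real.rpow_add (by linarith), Real.rpow_one]
      rw [e4]
      have hb2 : 0 ≤ b * x ^ 2 := by positivity
      rcases le_or_gt x (√w) with h2 | h2
      · have : w * x ≤ w * √w := mul_le_mul_of_nonneg_left h2 hw
        have : 0 ≤ x ^ 3 := by positivity
        linarith
      · have h3 : w ≤ x ^ 2 := by rw [← hs]; exact pow_le_pow_left₀ hs0 h2.le 2
        have h4 : w * x ≤ x ^ 2 * x := mul_le_mul_of_nonneg_right h3 hx
        have h5 : 0 ≤ w * √w := by positivity
        nlinarith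
    have e2 : w ^ (3 / 2 : ℝ) ≤ w ^ p := Real.rpow_le_rpow_of_exponent_le h1.le hp
    nlinarith

theorem fs_lintegral (b w : ℝ) (hb : 0 < b) (hw : 0 < w) :
    ENNReal.ofReal (fs b w) = ∫⁻ v in Ioo 0 w, ENNReal.ofReal ((√(b ^ 2 + 3 * v) - b) / 3) := by
  rw [lintegral_ftc (fun v => fs b v) (fun v => (√(b ^ 2 + 3 * v) - b) / 3) w hw]
  · have : fs b 0 = 0 := by
      unfold fs xs
      rw [mul_zero, add_zero, Real.sqrt_sq hb.le]
      ring
    simp only [this, sub_zero]
  · exact (continuous_fs_right b).continuousOn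
  · intro v hv
    have hv0 : 0 < v := hv.1
    have hr : 0 < √(b ^ 2 + 3 * v) := Real.sqrt_pos.2 (by positivity)
    have hr2 : √(b ^ 2 + 3 * v) ^ 2 = b ^ 2 + 3 * v := Real.sq_sqrt (by positivity)
    have h0 : HasDerivAt (fun v : ℝ => b ^ 2 + 3 * v) 3 v := by
      simpa using ((hasDerivAt_id v).const_mul 3).const_add (b ^ 2)
    have h1 : HasDerivAt (fun v => √(b ^ 2 + 3 * v)) (3 / (2 * √(b ^ 2 + 3 * v))) v :=
      h0.sqrt (by positivity)
    have hx : HasDerivAt (fun v => xs b v) (1 / (2 * √(b ^ 2 + 3 * v))) v := by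
      unfold xs
      refine ((h1.sub_const b).div_const 3).congr_deriv ?_
      field_simp
    have h2 := (((hasDerivAt_id v).mul hx).sub (hx.pow 3)).sub ((hx.pow 2).const_mul b)
    unfold fs
    refine h2.congr_deriv ?_
    have hxe : xs b v = (√(b ^ 2 + 3 * v) - b) / 3 := rfl
    simp only [id]
    rw [hxe]
    set r := √(b ^ 2 + 3 * v) with hrdef
    have hv3 : v = (r ^ 2 - b ^ 2) / 3 := by rw [hr2]; ring
    rw [hv3]
    field_simp
    ring
  · intro v hv
    have : 0 ≤ xs b v := xs_nonneg b v hv.1.le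
    exact this

/-- the constant on the right side. -/
noncomputable def c2 (a : ℝ) : ℝ := Kc a / 3 * 3 ^ ((a + 1) / 2) / ((a + 3) / 2)

/-- the constant on the left side. -/
noncomputable def c1 (a : ℝ) : ℝ := 2 ^ a * (Jc a / a) / (a / 2 + 1)

theorem lintegral_fs (a w : ℝ) (ha : 0 < a) (ha' : a < 1) (hw : 0 ≤ w) :
    ∫⁻ b in Ioi (0 : ℝ), ENNReal.ofReal (fs b w * b ^ (a - 1)) =
      ENNReal.ofReal (c2 a * w ^ ((a + 3) / 2)) := by
  have hK := Kc_pos a ha ha'
  rcases hw.eq_or_lt with h0 | hw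
  · rw [← h0, Real.zero_rpow (by linarith), mul_zero, ENNReal.ofReal_zero]
    have : ∀ b ∈ Ioi (0 : ℝ), ENNReal.ofReal (fs b 0 * b ^ (a - 1)) = 0 := by
      intro b hb
      have hb' : 0 < b := hb
      have : fs b 0 = 0 := by
        unfold fs xs
        rw [mul_zero, add_zero, Real.sqrt_sq hb'.le]
        ring
      rw [this, zero_mul, ENNReal.ofReal_zero]
    rw [setLIntegral_congr_fun measurableSet_Ioi this, lintegral_zero]
  have h1 : ∀ b ∈ Ioi (0 : ℝ), ENNReal.ofReal (fs b w * b ^ (a - 1)) =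
      ∫⁻ v in Ioo 0 w, ENNReal.ofReal ((√(b ^ 2 + 3 * v) - b) / 3 * b ^ (a - 1)) := by
    intro b hb
    have hb' : 0 < b := hb
    rw [mul_comm, ENNReal.ofReal_mul (by positivity), fs_lintegral b w hb' hw,
      ← lintegral_const_mul' _ _ ENNReal.ofReal_ne_top]
    refine lintegral_congr fun u => ?_
    rw [← ENNReal.ofReal_mul (by positivity), mul_comm]
  rw [setLIntegral_congr_fun measurableSet_Ioi h1, lintegral_lintegral_swap]
  · have h2 : ∀ v ∈ Ioo (0 : ℝ) w,
        ∫⁻ b in Ioi (0 : ℝ), ENNReal.ofReal ((√(b ^ 2 + 3 * v) - b) / 3 * b ^ (a - 1)) =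
        ENNReal.ofReal (Kc a / 3 * 3 ^ ((a + 1) / 2)) * ENNReal.ofReal (v ^ ((a + 1) / 2)) := by
      intro v hv
      rw [lintegral_xs a v ha ha' hv.1, ← ENNReal.ofReal_mul (by positivity)]
      congr 1
      rw [Real.mul_rpow (by norm_num) hv.1.le]
      ring
    rw [setLIntegral_congr_fun measurableSet_Ioo h2,
      lintegral_const_mul' _ _ ENNReal.ofReal_ne_top,
      lintegral_rpow_Ioo w ((a + 1) / 2) hw (by linarith),
      ← ENNReal.ofReal_mul (by positivity)]
    congr 1
    unfold c2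
    rw [show (a + 1) / 2 + 1 = (a + 3) / 2 by ring]
    ring
  · apply Measurable.aemeasurable
    unfold Function.uncurry
    fun_prop

theorem c2_div_c1 (γ : ℝ) (h1 : 1 < γ) (h2 : γ < 3 / 2) :
    c2 (2 * γ - 2) = Uconst γ * c1 (2 * γ - 2) := by
  have hcos : 0 < Real.cos (Real.pi * (γ - 1)) := by
    apply Real.cos_pos_of_mem_Ioo
    constructor <;> nlinarith [Real.pi_pos]
  have g1 : 0 < Real.Gamma (γ + 1 / 2) := Real.Gamma_pos_of_pos (by linarith)
  have hpi := Real.pi_pos
  unfold c2 c1 Uconst Kc Jc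
  rw [show Real.pi * (2 * γ - 2) / 2 = Real.pi * (γ - 1) by ring,
    show (1 - (2 * γ - 2)) / 2 = 3 / 2 - γ by ring,
    show (2 * γ - 2 + 1) = 2 * γ - 1 by ring,
    show (2 * γ - 2 + 3) / 2 = γ + 1 / 2 by ring,
    show (2 * γ - 1) / 2 = (γ - 3 / 2) + 1 by ring,
    show (2 * γ - 2) / 2 + 1 = γ by ring,
    show (-(2 * γ - 2) - 1) = 2 * (1 - γ) - 1 by ring,
    show (2 * γ - 2) = -(2 * (1 - γ)) by ring]
  rw [Real.rpow_add (by norm_num : (0:ℝ) < 3), Real.rpow_sub (by norm_num : (0:ℝ) < 2),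
    Real.rpow_neg (by norm_num : (0:ℝ) ≤ 2), Real.rpow_one, Real.rpow_one]
  have e16 : (16 : ℝ) ^ (1 - γ) = (2 ^ (2 * (1 - γ))) * (2 ^ (2 * (1 - γ))) := by
    rw [← Real.rpow_add (by norm_num), show (16 : ℝ) = 2 ^ (4 : ℝ) by norm_num,
      ← Real.rpow_mul (by norm_num)]
    congr 1; ring
  rw [e16]
  have hne : (2 : ℝ) ^ (2 * (1 - γ)) ≠ 0 := by positivity
  have hg : (γ - 1) ≠ 0 := by intro h; linarith
  have hg0 : γ ≠ 0 := by intro h; linarith
  have hg' : (1 - γ) ≠ 0 := by intro h; linarith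
  have h21 : (2 * γ + 1) ≠ 0 := by intro h; linarith
  have h22 : (γ + 1 / 2) ≠ 0 := by intro h; linarith
  field_simp

theorem system_bound (γ : ℝ) (h1 : 1 < γ) (h2 : γ < 3 / 2) {m n : ℕ}
    (W : ℝ → Matrix (Fin m) (Fin m) ℂ) (hW : IsPotential (γ + 1 / 2) W) (S : NegSystem W n) :
    ENNReal.ofReal (∑ j, |S.lam j| ^ γ) ≤
      ENNReal.ofReal (Uconst γ) * ENNReal.ofReal (∫ x, trPow (γ + 1 / 2) (W x)) := by
  set a := 2 * γ - 2 with ha_def
  have ha : 0 < a := by linarith
  have ha' : a < 1 := by linarith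
  have hH : ∀ x, (W x).IsHermitian := fun x => (hW.posSemidef x).isHermitian
  have hlam : ∀ j, 0 < |S.lam j| := fun j => abs_pos.2 (S.neg j).ne
  have hJ := Jc_pos a (by linarith) ha'
  have hK := Kc_pos a ha ha'
  have hc1 : 0 < c1 a := by unfold c1; positivity
  have hc2 : 0 < c2 a := by unfold c2; positivity
  -- nonnegativity
  have hLnn : ∀ b ∈ Ioi (0 : ℝ), ∀ j, 0 ≤ Lb b |S.lam j| := by
    intro b hb j
    have hb' : 0 < b := hb
    by_contra hneg
    push Not at hneg
    have := Lb_lintegral |S.lam j| b (hlam j) hb'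
    unfold Lb at hneg
    have hy : 0 ≤ 2 * √|S.lam j| / b := by positivity
    have htan : Real.arctan (2 * √|S.lam j| / b) ≤ 2 * √|S.lam j| / b := by
      rcases hy.eq_or_lt with h | h
      · rw [← h]; simp
      · have h3 := Real.arctan_lt_pi_div_two (2 * √|S.lam j| / b)
        have h4 : 0 < Real.arctan (2 * √|S.lam j| / b) := Real.arctan_pos.2 h
        have h5 := Real.lt_tan h4 h3
        rw [Real.tan_arctan] at h5
        exact h5.le
    -- use the integral representation of the derivative: compare with the concave bound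
    have hmono : 0 ≤ Lb b |S.lam j| := by
      have hc : ContinuousOn (fun σ => Lb b σ) (Icc 0 |S.lam j|) := by
        unfold Lb
        exact Continuous.continuousOn (by fun_prop)
      have hd : ∀ σ ∈ interior (Icc 0 |S.lam j|), 0 ≤ deriv (fun σ => Lb b σ) σ := by
        intro σ hσ
        rw [interior_Icc] at hσ
        have hσ0 : 0 < σ := hσ.1
        have hsq : 0 < √σ := Real.sqrt_pos.2 hσ0
        have h1 : HasDerivAt (fun σ => √σ) (1 / (2 * √σ)) σ := Real.hasDerivAt_sqrt hσ0.ne'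
        have h2 : HasDerivAt (fun σ => 2 * √σ / b) (1 / (√σ * b)) σ := by
          have := (h1.const_mul 2).div_const b
          refine this.congr_deriv ?_
          field_simp
        have h3 : HasDerivAt (fun σ => Real.arctan (2 * √σ / b))
            (1 / (1 + (2 * √σ / b) ^ 2) * (1 / (√σ * b))) σ := h2.arctan
        have h4 := ((hasDerivAt_id σ).mul h3).sub ((h2.sub h3).const_mul (b ^ 2 / 4))
        have hs2 : √σ ^ 2 = σ := Real.sq_sqrt hσ0.le
        have h5 : HasDerivAt (fun σ => Lb b σ) (Real.arctan (2 * √σ / b)) σ := by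
          unfold Lb
          refine h4.congr_deriv ?_
          simp only [id]
          rw [show (2 * √σ / b) ^ 2 = 4 * σ / b ^ 2 by rw [div_pow, mul_pow, hs2]; norm_num]
          have : (b ^ 2 + 4 * σ) ≠ 0 := by positivity
          field_simp
          ring
        rw [h5.deriv]
        exact Real.arctan_nonneg.2 (by positivity)
      have hdiff : DifferentiableOn ℝ (fun σ => Lb b σ) (interior (Icc 0 |S.lam j|)) := by
        intro σ hσ
        rw [interior_Icc] at hσ
        have hσ0 : σ ≠ 0 := hσ.1.ne'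
        unfold Lb
        have h1 : DifferentiableAt ℝ (fun σ : ℝ => √σ) σ := (Real.hasDerivAt_sqrt hσ0).differentiableAt
        have h2 : DifferentiableAt ℝ (fun σ : ℝ => 2 * √σ / b) σ := (h1.const_mul 2).div_const b
        have h3 : DifferentiableAt ℝ (fun σ : ℝ => Real.arctan (2 * √σ / b)) σ := h2.arctan
        exact ((differentiableAt_id.mul h3).sub ((h2.sub h3).const_mul _)).differentiableWithinAt
      have := monotoneOn_of_deriv_nonneg (convex_Icc 0 |S.lam j|) hc hdiff hd
        (left_mem_Icc.2 (hlam j).le) (right_mem_Icc.2 (hlam j).le) (hlam j).le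
      have h0 : Lb b 0 = 0 := by simp [Lb]
      simpa [h0] using this
    exact absurd hmono (not_le.2 hneg)
  have hFnn : ∀ b ∈ Ioi (0 : ℝ), ∀ x, 0 ≤ trFun (fs b) (W x) := by
    intro b hb x
    have hb' : 0 < b := hb
    rw [trFun_of_isHermitian _ (hH x)]
    exact Finset.sum_nonneg fun i _ => fs_nonneg b _ hb'.le ((hW.posSemidef x).eigenvalues_nonneg i)
  have hint : ∀ b ∈ Ioi (0 : ℝ), Integrable (fun x => trFun (fs b) (W x)) := by
    intro b hb
    have hb' : 0 < b := hb
    refine Integrable.mono' (hW.integrable.const_mul (1 / (4 * b) + 1))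
      (measurable_trFun (fs b) (continuous_fs_right b) W hW.measurable hH).aestronglyMeasurable
      (Filter.Eventually.of_forall fun x => ?_)
    rw [Real.norm_eq_abs, abs_of_nonneg (hFnn b hb x), trPow_eq_trFun,
      trFun_of_isHermitian _ (hH x), trFun_of_isHermitian _ (hH x), Finset.mul_sum]
    exact Finset.sum_le_sum fun i _ => fs_le b _ _ hb' ((hW.posSemidef x).eigenvalues_nonneg i)
      (by linarith) (by linarith)
  -- the inequality for every `b`
  have hb_ineq : ∀ b ∈ Ioi (0 : ℝ), ∑ j, Lb b |S.lam j| ≤ ∫ x, trFun (fs b) (W x) := by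
    intro b hb
    have hb' : 0 < b := hb
    have := primal_ineq (γ + 1 / 2) (by linarith) W hW b hb'.le (hint b hb) S
      (fun j => Real.arctan (2 * √|S.lam j| / b))
      (fun j => ⟨Real.arctan_nonneg.2 (by positivity), Real.arctan_lt_pi_div_two _⟩)
    refine le_trans (le_of_eq ?_) this
    refine Finset.sum_congr rfl fun j _ => ?_
    unfold Lb
    rw [Real.tan_arctan]
    ring
  -- integrate
  have hmain : ∫⁻ b in Ioi (0 : ℝ), ENNReal.ofReal ((∑ j, Lb b |S.lam j|) * b ^ (a - 1)) ≤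
      ∫⁻ b in Ioi (0 : ℝ), ∫⁻ x, ENNReal.ofReal (trFun (fs b) (W x) * b ^ (a - 1)) := by
    refine setLIntegral_mono' measurableSet_Ioi fun b hb => ?_
    have hb' : 0 < b := hb
    have hbp : 0 ≤ b ^ (a - 1) := by positivity
    calc ENNReal.ofReal ((∑ j, Lb b |S.lam j|) * b ^ (a - 1))
        ≤ ENNReal.ofReal ((∫ x, trFun (fs b) (W x)) * b ^ (a - 1)) :=
          ENNReal.ofReal_le_ofReal (mul_le_mul_of_nonneg_right (hb_ineq b hb) hbp)
      _ = ENNReal.ofReal (∫ x, trFun (fs b) (W x)) * ENNReal.ofReal (b ^ (a - 1)) :=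
          ENNReal.ofReal_mul (integral_nonneg fun x => hFnn b hb x)
      _ = (∫⁻ x, ENNReal.ofReal (trFun (fs b) (W x))) * ENNReal.ofReal (b ^ (a - 1)) := by
          rw [ofReal_integral_eq_lintegral_ofReal (hint b hb)
            (Filter.Eventually.of_forall fun x => hFnn b hb x)]
      _ = ∫⁻ x, ENNReal.ofReal (trFun (fs b) (W x) * b ^ (a - 1)) := by
          rw [← lintegral_mul_const' _ _ ENNReal.ofReal_ne_top]
          refine lintegral_congr fun x => ?_
          rw [ENNReal.ofReal_mul (hFnn b hb x)]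
  -- left side
  have hL : ∫⁻ b in Ioi (0 : ℝ), ENNReal.ofReal ((∑ j, Lb b |S.lam j|) * b ^ (a - 1)) =
      ENNReal.ofReal (c1 a) * ENNReal.ofReal (∑ j, |S.lam j| ^ γ) := by
    have e1 : ∀ b ∈ Ioi (0 : ℝ), ENNReal.ofReal ((∑ j, Lb b |S.lam j|) * b ^ (a - 1)) =
        ∑ j, ENNReal.ofReal (Lb b |S.lam j| * b ^ (a - 1)) := by
      intro b hb
      have hb' : 0 < b := hb
      rw [Finset.sum_mul, ENNReal.ofReal_sum_of_nonneg]
      intro j _
      exact mul_nonneg (hLnn b hb j) (by positivity)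
    rw [setLIntegral_congr_fun measurableSet_Ioi e1, lintegral_finsetSum]
    · have e2 : ∀ j, ∫⁻ b in Ioi (0 : ℝ), ENNReal.ofReal (Lb b |S.lam j| * b ^ (a - 1)) =
          ENNReal.ofReal (c1 a) * ENNReal.ofReal (|S.lam j| ^ γ) := by
        intro j
        rw [lintegral_Lb a _ ha ha' (hlam j), ← ENNReal.ofReal_mul hc1.le]
        congr 1
        unfold c1
        rw [show a / 2 + 1 = γ by rw [ha_def]; ring]
        ring
      simp_rw [e2]
      rw [← Finset.mul_sum, ENNReal.ofReal_sum_of_nonneg]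
      intro j _
      positivity
    · intro j _
      unfold Lb
      fun_prop
  -- right side
  have hR : ∫⁻ b in Ioi (0 : ℝ), ∫⁻ x, ENNReal.ofReal (trFun (fs b) (W x) * b ^ (a - 1)) =
      ENNReal.ofReal (c2 a) * ENNReal.ofReal (∫ x, trPow (γ + 1 / 2) (W x)) := by
    rw [lintegral_lintegral_swap]
    · have e1 : ∀ x, ∫⁻ b in Ioi (0 : ℝ), ENNReal.ofReal (trFun (fs b) (W x) * b ^ (a - 1)) =
          ENNReal.ofReal (c2 a) * ENNReal.ofReal (trPow (γ + 1 / 2) (W x)) := by
        intro x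
        have hev := fun i => (hW.posSemidef x).eigenvalues_nonneg i
        have e2 : ∀ b ∈ Ioi (0 : ℝ), ENNReal.ofReal (trFun (fs b) (W x) * b ^ (a - 1)) =
            ∑ i, ENNReal.ofReal (fs b ((hH x).eigenvalues i) * b ^ (a - 1)) := by
          intro b hb
          have hb' : 0 < b := hb
          rw [trFun_of_isHermitian _ (hH x), Finset.sum_mul, ENNReal.ofReal_sum_of_nonneg]
          intro i _
          exact mul_nonneg (fs_nonneg b _ hb'.le (hev i)) (by positivity)
        rw [setLIntegral_congr_fun measurableSet_Ioi e2, lintegral_finsetSum]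
        · have e3 : ∀ i, ∫⁻ b in Ioi (0 : ℝ),
              ENNReal.ofReal (fs b ((hH x).eigenvalues i) * b ^ (a - 1)) =
              ENNReal.ofReal (c2 a) * ENNReal.ofReal (((hH x).eigenvalues i) ^ (γ + 1 / 2)) := by
            intro i
            rw [lintegral_fs a _ ha ha' (hev i), ← ENNReal.ofReal_mul hc2.le,
              show (a + 3) / 2 = γ + 1 / 2 by rw [ha_def]; ring]
          simp_rw [e3]
          rw [← Finset.mul_sum, trPow_eq_trFun, trFun_of_isHermitian _ (hH x),
            ENNReal.ofReal_sum_of_nonneg]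
          intro i _
          exact Real.rpow_nonneg (hev i) _
        · intro i _
          have := continuous_fs_left ((hH x).eigenvalues i)
          have := this.measurable
          fun_prop
      simp_rw [e1]
      rw [lintegral_const_mul' _ _ ENNReal.ofReal_ne_top,
        ofReal_integral_eq_lintegral_ofReal hW.integrable]
      refine Filter.Eventually.of_forall fun x => ?_
      show 0 ≤ trPow (γ + 1 / 2) (W x)
      rw [trPow_eq_trFun, trFun_of_isHermitian _ (hH x)]
      exact Finset.sum_nonneg fun i _ => Real.rpow_nonneg ((hW.posSemidef x).eigenvalues_nonneg i) _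
    · have hmeas : Measurable (Function.uncurry fun b x => trFun (fs b) (W x)) := by
        apply measurable_uncurry_of_continuous_of_measurable
        · intro x
          have : (fun b => trFun (fs b) (W x)) = fun b => ∑ i, fs b ((hH x).eigenvalues i) := by
            funext b
            rw [trFun_of_isHermitian _ (hH x)]
          rw [this]
          exact continuous_finsetSum _ fun i _ => continuous_fs_left _
        · intro b
          exact measurable_trFun (fs b) (continuous_fs_right b) W hW.measurable hH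
      apply Measurable.aemeasurable
      refine ENNReal.measurable_ofReal.comp ?_
      have h2 : Measurable (fun p : ℝ × ℝ => p.1 ^ (a - 1)) := by fun_prop
      exact hmeas.mul h2
  rw [hL, hR] at hmain
  have hc2' : c2 a = Uconst γ * c1 a := c2_div_c1 γ h1 h2
  have hU : 0 ≤ Uconst γ := by
    by_contra h
    push Not at h
    have : c2 a < 0 := by rw [hc2']; exact mul_neg_of_neg_of_pos h hc1
    linarith
  rw [hc2', ENNReal.ofReal_mul hU, mul_comm (ENNReal.ofReal (Uconst γ)), mul_assoc] at hmain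
  exact (ENNReal.mul_le_mul_iff_right (by simpa using hc1) ENNReal.ofReal_ne_top).1 hmain

/-- G3. -/
theorem LTconst_le_Uconst (γ : ℝ) (h1 : 1 < γ) (h2 : γ < 3 / 2) (m : ℕ) :
    LTconst γ m ≤ ENNReal.ofReal (Uconst γ) := by
  unfold LTconst
  refine iSup_le fun W => iSup_le fun hW => iSup_le fun hpos => ?_
  refine ENNReal.div_le_of_le_mul ?_
  unfold trNeg
  exact iSup_le fun n => iSup_le fun S => system_bound γ h1 h2 W hW S

end Vale.LT
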