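import Mathlib

/-!
P371, Task G: explicit integrals.
-/

open MeasureTheory Set
open scoped ENNReal

namespace Vale.LT

theorem lintegral_beta (α β : ℝ) (hα : 0 < α) (hβ : 0 < β) :
    ∫⁻ x in Ioo (0 : ℝ) 1, ENNReal.ofReal (x ^ (α - 1) * (1 - x) ^ (β - 1)) =
      ENNReal.ofReal (Real.Gamma α * Real.Gamma β / Real.Gamma (α + β)) := by
  have h1 := ProbabilityTheory.lintegral_betaPDF_eq_one hα hβ
  rw [ProbabilityTheory.lintegral_betaPDF] at h1
  have hb := ProbabilityTheory.beta_pos hα hβ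
  have h2 : ∫⁻ x in Ioo (0 : ℝ) 1, ENNReal.ofReal (1 / ProbabilityTheory.beta α β * x ^ (α - 1) *
      (1 - x) ^ (β - 1)) = ENNReal.ofReal (1 / ProbabilityTheory.beta α β) *
      ∫⁻ x in Ioo (0 : ℝ) 1, ENNReal.ofReal (x ^ (α - 1) * (1 - x) ^ (β - 1)) := by
    rw [← lintegral_const_mul' _ _ ENNReal.ofReal_ne_top]
    refine lintegral_congr fun x => ?_
    rw [← ENNReal.ofReal_mul (by positivity), mul_assoc]
  rw [h2] at h1
  have h3 : ENNReal.ofReal (ProbabilityTheory.beta α β) *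
      (ENNReal.ofReal (1 / ProbabilityTheory.beta α β) *
      ∫⁻ x in Ioo (0 : ℝ) 1, ENNReal.ofReal (x ^ (α - 1) * (1 - x) ^ (β - 1)))
      = ENNReal.ofReal (ProbabilityTheory.beta α β) := by rw [h1, mul_one]
  rw [← mul_assoc, ← ENNReal.ofReal_mul hb.le, mul_one_div_cancel hb.ne', ENNReal.ofReal_one,
    one_mul] at h3
  rw [h3]
  rfl

/-- change of variables `t = √(1/v - 1)`. -/
theorem lintegral_rpow_div_one_add_sq (a : ℝ) (ha : -1 < a) (ha' : a < 1) :
    ∫⁻ t in Ioi (0 : ℝ), ENNReal.ofReal (t ^ a / (1 + t ^ 2)) =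
      ENNReal.ofReal (Real.pi / (2 * Real.cos (Real.pi * a / 2))) := by
  have himg : (fun v : ℝ => √(1 / v - 1)) '' Ioo 0 1 = Ioi 0 := by
    ext t
    constructor
    · rintro ⟨v, ⟨hv0, hv1⟩, rfl⟩
      have : 1 < 1 / v := by rw [lt_div_iff₀ hv0]; linarith
      exact Real.sqrt_pos.2 (by linarith)
    · intro ht
      have ht' : 0 < t := ht
      refine ⟨1 / (1 + t ^ 2), ⟨by positivity, ?_⟩, ?_⟩
      · rw [div_lt_one (by positivity)]; nlinarith
      · show √(1 / (1 / (1 + t ^ 2)) - 1) = t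
        rw [one_div_one_div, add_sub_cancel_left, Real.sqrt_sq ht'.le]
  have hinj : InjOn (fun v : ℝ => √(1 / v - 1)) (Ioo 0 1) := by
    rintro v ⟨hv0, hv1⟩ w ⟨hw0, hw1⟩ h
    have h1 : 0 < 1 / v - 1 := by
      have : 1 < 1 / v := by rw [lt_div_iff₀ hv0]; linarith
      linarith
    have h2 : 0 < 1 / w - 1 := by
      have : 1 < 1 / w := by rw [lt_div_iff₀ hw0]; linarith
      linarith
    have h3 := (Real.sqrt_inj h1.le h2.le).1 h
    have h4 : 1 / v = 1 / w := by linarith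
    simpa using h4
  have hder : ∀ v ∈ Ioo (0 : ℝ) 1, HasDerivWithinAt (fun v : ℝ => √(1 / v - 1))
      (-(1 / v ^ 2) / (2 * √(1 / v - 1))) (Ioo 0 1) v := by
    rintro v ⟨hv0, hv1⟩
    have h1 : 0 < 1 / v - 1 := by
      have : 1 < 1 / v := by rw [lt_div_iff₀ hv0]; linarith
      linarith
    have h2 : HasDerivAt (fun v : ℝ => 1 / v - 1) (-(1 / v ^ 2)) v := by
      have := (hasDerivAt_inv hv0.ne').sub_const 1
      simpa [one_div] using this
    exact (h2.sqrt h1.ne').hasDerivWithinAt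
  rw [← himg, lintegral_image_eq_lintegral_abs_deriv_mul measurableSet_Ioo hder hinj]
  have hcong : ∀ v ∈ Ioo (0 : ℝ) 1,
      ENNReal.ofReal |-(1 / v ^ 2) / (2 * √(1 / v - 1))| *
        ENNReal.ofReal (√(1 / v - 1) ^ a / (1 + √(1 / v - 1) ^ 2)) =
      ENNReal.ofReal (1 / 2) *
        ENNReal.ofReal (v ^ ((1 - a) / 2 - 1) * (1 - v) ^ ((1 + a) / 2 - 1)) := by
    rintro v ⟨hv0, hv1⟩
    have h1 : 0 < 1 / v - 1 := by
      have : 1 < 1 / v := by rw [lt_div_iff₀ hv0]; linarith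
      linarith
    have h1v : 0 < 1 - v := by linarith
    have he : 1 / v - 1 = (1 - v) / v := by field_simp
    rw [← ENNReal.ofReal_mul (abs_nonneg _), ← ENNReal.ofReal_mul (by norm_num)]
    congr 1
    have hs : √(1 / v - 1) ^ 2 = 1 / v - 1 := Real.sq_sqrt h1.le
    rw [hs, neg_div, abs_neg, abs_of_nonneg (by positivity)]
    have hsr : √(1 / v - 1) = (1 / v - 1) ^ (1 / 2 : ℝ) := Real.sqrt_eq_rpow _
    rw [hsr, ← Real.rpow_mul h1.le]
    have e1 : 1 / v ^ 2 / (2 * (1 / v - 1) ^ (1 / 2 : ℝ)) * ((1 / v - 1) ^ (1 / 2 * a) /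
        (1 + (1 / v - 1))) = 1 / 2 * (v⁻¹ * (1 / v - 1) ^ (a / 2 - 1 / 2)) := by
      rw [show a / 2 - 1 / 2 = 1 / 2 * a - 1 / 2 by ring, Real.rpow_sub h1]
      have : 1 + (1 / v - 1) = 1 / v := by ring
      rw [this]
      have hne : (1 / v - 1) ^ (1 / 2 : ℝ) ≠ 0 := (Real.rpow_pos_of_pos h1 _).ne'
      field_simp
    rw [e1, he, Real.div_rpow h1v.le hv0.le]
    have e2 : v ^ ((1 - a) / 2 - 1) = v⁻¹ / v ^ (a / 2 - 1 / 2) := by
      rw [eq_div_iff (Real.rpow_pos_of_pos hv0 _).ne', ← Real.rpow_add hv0, ← Real.rpow_neg_one]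
      congr 1; ring
    rw [e2, show (1 + a) / 2 - 1 = a / 2 - 1 / 2 by ring]
    ring
  rw [setLIntegral_congr_fun measurableSet_Ioo hcong,
    lintegral_const_mul' _ _ ENNReal.ofReal_ne_top,
    lintegral_beta _ _ (by linarith) (by linarith), ← ENNReal.ofReal_mul (by norm_num)]
  congr 1
  have h5 : (1 - a) / 2 + (1 + a) / 2 = 1 := by ring
  rw [h5, Real.Gamma_one]
  have h6 := Real.Gamma_mul_Gamma_one_sub ((1 + a) / 2)
  rw [show 1 - (1 + a) / 2 = (1 - a) / 2 by ring] at h6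
  rw [mul_comm (Real.Gamma ((1 - a) / 2)), h6]
  have h7 : Real.sin (Real.pi * ((1 + a) / 2)) = Real.cos (Real.pi * a / 2) := by
    rw [show Real.pi * ((1 + a) / 2) = Real.pi * a / 2 + Real.pi / 2 by ring,
      Real.sin_add_pi_div_two]
  rw [h7]
  ring

/-- scaling on the half line. -/
theorem lintegral_Ioi_comp_mul (g : ℝ → ℝ≥0∞) (c : ℝ) (hc : 0 < c) :
    ∫⁻ b in Ioi (0 : ℝ), g b = ENNReal.ofReal c * ∫⁻ t in Ioi (0 : ℝ), g (c * t) := by
  have himg : (fun t : ℝ => c * t) '' Ioi 0 = Ioi 0 := by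
    ext t
    constructor
    · rintro ⟨v, hv, rfl⟩
      exact mul_pos hc hv
    · intro ht
      exact ⟨t / c, div_pos ht hc, by field_simp⟩
  have hinj : InjOn (fun t : ℝ => c * t) (Ioi 0) := by
    intro x _ y _ h
    exact mul_left_cancel₀ hc.ne' h
  have hder : ∀ v ∈ Ioi (0 : ℝ), HasDerivWithinAt (fun t : ℝ => c * t) c (Ioi 0) v := by
    intro v _
    simpa using ((hasDerivAt_id v).const_mul c).hasDerivWithinAt
  conv_lhs => rw [← himg]
  rw [lintegral_image_eq_lintegral_abs_deriv_mul measurableSet_Ioi hder hinj, abs_of_pos hc,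
    lintegral_const_mul' _ _ ENNReal.ofReal_ne_top]

end Vale.LT
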