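import Vale.Agent.H1.LT.UpperAux

/-!
P371, Task G: explicit integrals, second part.
-/

open MeasureTheory Set
open scoped ENNReal

namespace Vale.LT

theorem lintegral_ftc (F f : ℝ → ℝ) (s : ℝ) (hs : 0 < s) (hc : ContinuousOn F (Icc 0 s))
    (hd : ∀ u ∈ Ioo 0 s, HasDerivAt F (f u) u) (h0 : ∀ u ∈ Ioo 0 s, 0 ≤ f u) :
    ∫⁻ u in Ioo 0 s, ENNReal.ofReal (f u) = ENNReal.ofReal (F s - F 0) := by
  have h1 := intervalIntegral.integrableOn_deriv_of_nonneg hc hd h0
  have h2 : IntervalIntegrable f volume 0 s := by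
    rw [intervalIntegrable_iff_integrableOn_Ioc_of_le hs.le]; exact h1
  have h3 := intervalIntegral.integral_eq_sub_of_hasDerivAt_of_le hs.le hc hd h2
  rw [intervalIntegral.integral_of_le hs.le, integral_Ioc_eq_integral_Ioo] at h3
  rw [← h3, ofReal_integral_eq_lintegral_ofReal]
  · exact h1.mono_set Ioo_subset_Ioc_self
  · exact (ae_restrict_iff' measurableSet_Ioo).2 (Filter.Eventually.of_forall h0)

theorem lintegral_rpow_Ioo (s c : ℝ) (hs : 0 < s) (hc : -1 < c) :
    ∫⁻ u in Ioo 0 s, ENNReal.ofReal (u ^ c) = ENNReal.ofReal (s ^ (c + 1) / (c + 1)) := by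
  have hc1 : 0 < c + 1 := by linarith
  rw [lintegral_ftc (fun u => u ^ (c + 1) / (c + 1)) (fun u => u ^ c) s hs]
  · congr 1
    simp [Real.zero_rpow hc1.ne']
  · refine ContinuousOn.div_const ?_ _
    exact continuousOn_id.rpow_const fun x _ => Or.inr hc1.le
  · intro u hu
    have := (Real.hasDerivAt_rpow_const (x := u) (p := c + 1) (Or.inl hu.1.ne')).div_const (c + 1)
    refine this.congr_deriv ?_
    rw [add_sub_cancel_right]
    field_simp
  · intro u hu
    exact Real.rpow_nonneg hu.1.le _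

/-- The constant `J(a) = ∫_0^∞ t^a/(1+t^2) dt`. -/
noncomputable def Jc (a : ℝ) : ℝ := Real.pi / (2 * Real.cos (Real.pi * a / 2))

theorem Jc_pos (a : ℝ) (ha : -1 < a) (ha' : a < 1) : 0 < Jc a := by
  have : 0 < Real.cos (Real.pi * a / 2) := by
    apply Real.cos_pos_of_mem_Ioo
    constructor <;> nlinarith [Real.pi_pos]
  unfold Jc
  have := Real.pi_pos
  positivity

theorem lintegral_scaled (a u : ℝ) (ha : -1 < a) (ha' : a < 1) (hu : 0 < u) :
    ∫⁻ b in Ioi (0 : ℝ), ENNReal.ofReal (b ^ a / (b ^ 2 + u ^ 2)) =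
      ENNReal.ofReal (u ^ (a - 1) * Jc a) := by
  rw [lintegral_Ioi_comp_mul _ u hu]
  have h1 : ∀ t ∈ Ioi (0 : ℝ), ENNReal.ofReal ((u * t) ^ a / ((u * t) ^ 2 + u ^ 2)) =
      ENNReal.ofReal (u ^ (a - 2)) * ENNReal.ofReal (t ^ a / (1 + t ^ 2)) := by
    intro t ht
    rw [← ENNReal.ofReal_mul (by positivity)]
    congr 1
    rw [Real.mul_rpow hu.le (le_of_lt ht), Real.rpow_sub hu, Real.rpow_two]
    field_simp
    ring
  rw [setLIntegral_congr_fun measurableSet_Ioi h1, lintegral_const_mul' _ _ ENNReal.ofReal_ne_top,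
    lintegral_rpow_div_one_add_sq a ha ha', ← ENNReal.ofReal_mul (by positivity),
    ← ENNReal.ofReal_mul hu.le]
  congr 1
  unfold Jc
  rw [Real.rpow_sub hu, Real.rpow_sub hu, Real.rpow_two, Real.rpow_one]
  field_simp

theorem arctan_lintegral (s b : ℝ) (hs : 0 < s) (hb : 0 < b) :
    ENNReal.ofReal (Real.arctan (s / b)) =
      ∫⁻ u in Ioo 0 s, ENNReal.ofReal (b / (b ^ 2 + u ^ 2)) := by
  rw [lintegral_ftc (fun u => Real.arctan (u / b)) (fun u => b / (b ^ 2 + u ^ 2)) s hs]
  · simp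
  · exact (Real.continuous_arctan.comp (continuous_id.div_const b)).continuousOn
  · intro u _
    have h1 := ((hasDerivAt_id u).div_const b).arctan
    refine h1.congr_deriv ?_
    simp only [id]
    field_simp
  · intro u _
    positivity

theorem lintegral_arctan_mul (a s : ℝ) (ha : 0 < a) (ha' : a < 1) (hs : 0 < s) :
    ∫⁻ b in Ioi (0 : ℝ), ENNReal.ofReal (Real.arctan (s / b) * b ^ (a - 1)) =
      ENNReal.ofReal (s ^ a * (Jc a / a)) := by
  have h1 : ∀ b ∈ Ioi (0 : ℝ), ENNReal.ofReal (Real.arctan (s / b) * b ^ (a - 1)) =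
      ∫⁻ u in Ioo 0 s, ENNReal.ofReal (b ^ a / (b ^ 2 + u ^ 2)) := by
    intro b hb
    have hb' : 0 < b := hb
    rw [ENNReal.ofReal_mul (Real.arctan_nonneg.2 (by positivity)), arctan_lintegral s b hs hb',
      mul_comm, ← lintegral_const_mul' _ _ ENNReal.ofReal_ne_top]
    refine lintegral_congr fun u => ?_
    rw [← ENNReal.ofReal_mul (by positivity)]
    congr 1
    rw [Real.rpow_sub hb', Real.rpow_one]
    field_simp
  rw [setLIntegral_congr_fun measurableSet_Ioi h1, lintegral_lintegral_swap]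
  · have h2 : ∀ u ∈ Ioo (0 : ℝ) s,
        ∫⁻ b in Ioi (0 : ℝ), ENNReal.ofReal (b ^ a / (b ^ 2 + u ^ 2)) =
        ENNReal.ofReal (Jc a) * ENNReal.ofReal (u ^ (a - 1)) := by
      intro u hu
      rw [lintegral_scaled a u (by linarith) ha' hu.1, mul_comm (u ^ (a - 1)),
        ENNReal.ofReal_mul (Jc_pos a (by linarith) ha').le]
    rw [setLIntegral_congr_fun measurableSet_Ioo h2,
      lintegral_const_mul' _ _ ENNReal.ofReal_ne_top,
      lintegral_rpow_Ioo s (a - 1) hs (by linarith),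
      ← ENNReal.ofReal_mul (Jc_pos a (by linarith) ha').le, sub_add_cancel]
    congr 1
    ring
  · apply Measurable.aemeasurable
    unfold Function.uncurry
    fun_prop

/-- The value of the Legendre-type function in the primal inequality. -/
noncomputable def Lb (b l : ℝ) : ℝ :=
  l * Real.arctan (2 * √l / b) - (b ^ 2 / 4) * (2 * √l / b - Real.arctan (2 * √l / b))

theorem Lb_lintegral (l b : ℝ) (hl : 0 < l) (hb : 0 < b) :
    ENNReal.ofReal (Lb b l) =
      ∫⁻ σ in Ioo 0 l, ENNReal.ofReal (Real.arctan (2 * √σ / b)) := by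
  rw [lintegral_ftc (fun σ => Lb b σ) (fun σ => Real.arctan (2 * √σ / b)) l hl]
  · simp [Lb]
  · unfold Lb
    exact Continuous.continuousOn (by fun_prop)
  · intro σ hσ
    have hσ0 : 0 < σ := hσ.1
    have hsq : 0 < √σ := Real.sqrt_pos.2 hσ0
    have h1 : HasDerivAt (fun σ => √σ) (1 / (2 * √σ)) σ := Real.hasDerivAt_sqrt hσ0.ne'
    have h2 : HasDerivAt (fun σ => 2 * √σ / b) (1 / (√σ * b)) σ := by
      have := (h1.const_mul 2).div_const b
      refine this.congr_deriv ?_
      field_simp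
    have h3 : HasDerivAt (fun σ => Real.arctan (2 * √σ / b))
        (1 / (1 + (2 * √σ / b) ^ 2) * (1 / (√σ * b))) σ := h2.arctan
    have h4 := ((hasDerivAt_id σ).mul h3).sub ((h2.sub h3).const_mul (b ^ 2 / 4))
    have hs2 : √σ ^ 2 = σ := Real.sq_sqrt hσ0.le
    unfold Lb
    refine h4.congr_deriv ?_
    simp only [id]
    rw [show (2 * √σ / b) ^ 2 = 4 * σ / b ^ 2 by rw [div_pow, mul_pow, hs2]; norm_num]
    have : (b ^ 2 + 4 * σ) ≠ 0 := by positivity
    field_simp
    ring
  · intro u hu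
    exact Real.arctan_nonneg.2 (by positivity)

theorem lintegral_Lb (a l : ℝ) (ha : 0 < a) (ha' : a < 1) (hl : 0 < l) :
    ∫⁻ b in Ioi (0 : ℝ), ENNReal.ofReal (Lb b l * b ^ (a - 1)) =
      ENNReal.ofReal (2 ^ a * (Jc a / a) * (l ^ (a / 2 + 1) / (a / 2 + 1))) := by
  have hJ := Jc_pos a (by linarith) ha'
  have h1 : ∀ b ∈ Ioi (0 : ℝ), ENNReal.ofReal (Lb b l * b ^ (a - 1)) =
      ∫⁻ σ in Ioo 0 l, ENNReal.ofReal (Real.arctan (2 * √σ / b) * b ^ (a - 1)) := by
    intro b hb
    have hb' : 0 < b := hb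
    rw [mul_comm, ENNReal.ofReal_mul (by positivity), Lb_lintegral l b hl hb',
      ← lintegral_const_mul' _ _ ENNReal.ofReal_ne_top]
    refine lintegral_congr fun u => ?_
    rw [← ENNReal.ofReal_mul (by positivity), mul_comm]
  rw [setLIntegral_congr_fun measurableSet_Ioi h1, lintegral_lintegral_swap]
  · have h2 : ∀ σ ∈ Ioo (0 : ℝ) l,
        ∫⁻ b in Ioi (0 : ℝ), ENNReal.ofReal (Real.arctan (2 * √σ / b) * b ^ (a - 1)) =
        ENNReal.ofReal (2 ^ a * (Jc a / a)) * ENNReal.ofReal (σ ^ (a / 2)) := by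
      intro σ hσ
      have hσ0 : 0 < σ := hσ.1
      rw [lintegral_arctan_mul a (2 * √σ) ha ha' (by positivity),
        ← ENNReal.ofReal_mul (by positivity)]
      congr 1
      rw [Real.mul_rpow (by norm_num) (Real.sqrt_nonneg _), Real.sqrt_eq_rpow,
        ← Real.rpow_mul hσ0.le, show (1 / 2 * a) = a / 2 by ring]
      ring
    rw [setLIntegral_congr_fun measurableSet_Ioo h2,
      lintegral_const_mul' _ _ ENNReal.ofReal_ne_top,
      lintegral_rpow_Ioo l (a / 2) hl (by linarith),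
      ← ENNReal.ofReal_mul (by positivity)]
  · apply Measurable.aemeasurable
    unfold Function.uncurry
    fun_prop

/-- G1.  `∫_0^∞ arctan(1/t) t^(a-1) dt = π / (2 a cos(π a/2))`. -/
theorem integral_arctan (a : ℝ) (ha : 0 < a) (ha' : a < 1) :
    ∫ t in Ioi (0 : ℝ), Real.arctan (1 / t) * t ^ (a - 1) =
      Real.pi / (2 * a * Real.cos (Real.pi * a / 2)) := by
  have hJ := Jc_pos a (by linarith) ha'
  rw [integral_eq_lintegral_of_nonneg_ae, lintegral_arctan_mul a 1 ha ha' one_pos,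
    ENNReal.toReal_ofReal (by positivity)]
  · unfold Jc
    rw [Real.one_rpow]
    have : Real.cos (Real.pi * a / 2) ≠ 0 := by
      have : 0 < Real.cos (Real.pi * a / 2) := by
        apply Real.cos_pos_of_mem_Ioo
        constructor <;> nlinarith [Real.pi_pos]
      exact this.ne'
    field_simp
  · refine (ae_restrict_iff' measurableSet_Ioi).2 (Filter.Eventually.of_forall fun t ht => ?_)
    have ht' : 0 < t := ht
    have : 0 ≤ Real.arctan (1 / t) := Real.arctan_nonneg.2 (by positivity)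
    positivity
  · apply Measurable.aestronglyMeasurable
    fun_prop

end Vale.LT
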